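import Vale.Agent.P223.H66.YDef

/-! Stage 4 : block statements.  Sobolev inequality (Croke) for metrics without conjugate points.
Everything takes place on `ℝ^n` with a complete metric `G` all whose points are poles; the phase
space is `ℝ^n × ℝ^n` with coordinates `(q, p)`. -/

namespace Vale.Agent.P223.H765.NC

open scoped ContDiff ENNReal NNReal
open MeasureTheory Set

variable {n : ℕ}

/-- The Hamiltonian `|p|² / 2`. -/
noncomputable def ham (G : J.Mtx n) (z : J.E n × J.E n) : ℝ :=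
  1 / 2 * ∑ i, ∑ j, (G z.1)⁻¹ i j * z.2 i * z.2 j

/-- The Hamiltonian vector field. -/
noncomputable def hv (G : J.Mtx n) (z : J.E n × J.E n) : J.E n × J.E n :=
  (fun i => ∑ j, (G z.1)⁻¹ i j * z.2 j, fun k => -J.pd k (fun q => ham G (q, z.2)) z.1)

/-- `Φ` is the geodesic flow of `G`, it is complete, and every point is a pole. -/
structure Geo (G : J.Mtx n) (Φ : ℝ → J.E n × J.E n → J.E n × J.E n) : Prop where
  smooth : ∀ i j, ContDiff ℝ ∞ fun x => G x i j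
  pos : ∀ x, (G x).PosDef
  zero : ∀ z, Φ 0 z = z
  flow : ∀ t z, HasDerivAt (fun s => Φ s z) (hv G (Φ t z)) t
  inj : ∀ q, Function.Injective fun p => (Φ 1 (q, p)).1
  imm : ∀ q p, (fderiv ℝ (fun p => (Φ 1 (q, p)).1) p).det ≠ 0
  proper : ∀ z : J.E n × J.E n, z.2 ≠ 0 → ∀ K : Set (J.E n), IsCompact K → ∃ R : ℝ, ∀ t, R ≤ |t| →
    (Φ t z).1 ∉ K

/-- The volume. -/
noncomputable def vol (G : J.Mtx n) (A : Set (J.E n)) : ℝ≥0∞ :=
  ∫⁻ x in A, ENNReal.ofReal √(G x).det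

/-- The shell `1/2 < |p| ≤ 1`. -/
def shl (G : J.Mtx n) : Set (J.E n × J.E n) := {z | 1 / 4 < 2 * ham G z ∧ 2 * ham G z ≤ 1}

/-- The Jacobian of the exponential map: `|det ∂q(T)/∂p(0)| √g(q(T)) √g(q(0))`. -/
noncomputable def bb (G : J.Mtx n) (Φ : ℝ → J.E n × J.E n → J.E n × J.E n) (T : ℝ)
    (z : J.E n × J.E n) : ℝ :=
  |(fderiv ℝ (fun p => (Φ T (z.1, p)).1) z.2).det| * (√(G (Φ T z).1).det * √(G z.1).det)

/-- The length of the component of `{t | q(t) ∈ Ω}` which contains `0`. -/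
noncomputable def len (Φ : ℝ → J.E n × J.E n → J.E n × J.E n) (Ω : Set (J.E n))
    (z : J.E n × J.E n) : ℝ≥0∞ :=
  volume (connectedComponentIn {t : ℝ | (Φ t z).1 ∈ Ω} 0)

/-- BLOCK T1 : flows are `C¹` in the initial values. -/
def SpecFlow : Prop := ∀ (W : Type) [NormedAddCommGroup W] [NormedSpace ℝ W]
  [FiniteDimensional ℝ W] (F : W → W) (Φ : ℝ → W → W), ContDiff ℝ ∞ F → (∀ z, Φ 0 z = z) →
  (∀ t z, HasDerivAt (fun s => Φ s z) (F (Φ t z)) t) →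
  ContDiff ℝ 1 (fun q : ℝ × W => Φ q.1 q.2) ∧
  (∀ s t z, Φ (s + t) z = Φ s (Φ t z)) ∧
  ∀ t z, HasDerivAt (fun s => fderiv ℝ (Φ s) z)
    ((fderiv ℝ F (Φ t z)).comp (fderiv ℝ (Φ t) z)) t

/-- BLOCK T2 : invariant measure, conservation of energy, scaling. -/
def SpecLiou : Prop := ∀ (n : ℕ) (G : J.Mtx n) (Φ : ℝ → J.E n × J.E n → J.E n × J.E n), Geo G Φ →
  (∀ t, MeasurePreserving (Φ t) volume volume) ∧
  (∀ t z, ham G (Φ t z) = ham G z) ∧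
  (∀ (t c : ℝ) q p, Φ t (q, c • p) = ((Φ (c * t) (q, p)).1, c • (Φ (c * t) (q, p)).2)) ∧
  ∀ (T : ℝ), T ≠ 0 → ∀ q, (Function.Injective fun p => (Φ T (q, p)).1) ∧
    ∀ p, (fderiv ℝ (fun p => (Φ T (q, p)).1) p).det ≠ 0

/-- BLOCK T4 : Kazdan's inequality along one geodesic (non-sharp). -/
def SpecKaz : Prop := ∀ n : ℕ, 1 ≤ n → ∃ C : ℝ, 0 < C ∧ ∀ (G : J.Mtx n)
  (Φ : ℝ → J.E n × J.E n → J.E n × J.E n), Geo G Φ → ∀ (z : J.E n × J.E n) (α β : ℝ), α < β →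
  ENNReal.ofReal (C * (β - α) ^ (n + 1)) ≤
    ∫⁻ s in Ioo α β, ∫⁻ t in Ioo s β, ENNReal.ofReal (bb G Φ (t - s) (Φ s z) / (t - s))

/-- BLOCK T5a : integration in polar coordinates. -/
def SpecPol : Prop := ∀ (n : ℕ) (G : J.Mtx n) (Φ : ℝ → J.E n × J.E n → J.E n × J.E n), 1 ≤ n →
  Geo G Φ → ∀ Ω : Set (J.E n), IsOpen Ω →
  ∫⁻ z in shl G, ∫⁻ T in Ioi (0 : ℝ), {T : ℝ | ∀ t ∈ Icc 0 T, (Φ t z).1 ∈ Ω}.indicator
    (fun T => ENNReal.ofReal (bb G Φ T z / T)) T ≤ ENNReal.ofReal (Real.log 2) * vol G Ω ^ 2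

/-- BLOCK T5b : chords. -/
def SpecChd : Prop := ∀ n : ℕ, 1 ≤ n → ∃ C : ℝ≥0, ∀ (G : J.Mtx n)
  (Φ : ℝ → J.E n × J.E n → J.E n × J.E n), Geo G Φ → ∀ Ω : Set (J.E n), IsOpen Ω →
  Bornology.IsBounded Ω →
  ∫⁻ z in shl G ∩ {z | z.1 ∈ Ω}, len Φ Ω z ^ n ≤ C * vol G Ω ^ 2

/-- BLOCK T5c : truncations. -/
def SpecTru : Prop := ∀ n : ℕ, 1 ≤ n → ∃ C : ℝ≥0, ∀ (G : J.Mtx n)
  (Φ : ℝ → J.E n × J.E n → J.E n × J.E n), Geo G Φ → ∀ f : J.E n → ℝ, ContDiff ℝ 1 f →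
  HasCompactSupport f → ∀ l ε : ℝ, 0 ≤ l → 0 < ε →
  vol G {x | l + ε < |f x|} ^ (n + 1) ≤ C * vol G {x | l < |f x|} ^ 2 *
    (∫⁻ x in {x | l < |f x| ∧ |f x| ≤ l + ε},
      ENNReal.ofReal (√(J.gsq G f x) * √(G x).det / ε)) ^ n

/-- BLOCK T6 : the Sobolev inequality. -/
def SpecSobR : Prop := ∀ n : ℕ, 3 ≤ n → ∃ y : ℝ, 0 < y ∧ ∀ (G : J.Mtx n)
  (Φ : ℝ → J.E n × J.E n → J.E n × J.E n), Geo G Φ → ∀ f : J.E n → ℝ, ContDiff ℝ 1 f →
  HasCompactSupport f →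
  y * (∫ x, |f x| ^ (2 * (n : ℝ) / (n - 2)) * √(G x).det) ^ (((n : ℝ) - 2) / n) ≤
    ∫ x, J.gsq G f x * √(G x).det

end Vale.Agent.P223.H765.NC

namespace Vale.Agent.P223.J

open scoped ContDiff

/-- `γ` is a geodesic: in the chart at `γ t` it satisfies the geodesic equation at the time `t`. -/
def Gdc {n : ℕ} {X : Type} [TopologicalSpace X] (c : X → Ch n X) (g : X → Mtx n) (γ : ℝ → X) :
    Prop :=
  Continuous γ ∧ ∀ t, ContDiffAt ℝ ∞ (fun s => c (γ t) (γ s)) t ∧ ∀ k,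
    deriv (deriv fun s => c (γ t) (γ s) k) t = -∑ i, ∑ j, chr (g (γ t)) (c (γ t) (γ t)) k i j *
      deriv (fun s => c (γ t) (γ s) i) t * deriv (fun s => c (γ t) (γ s) j) t

/-- The point `x` is a pole: the exponential map `e : ℝ^n → X` at `x` (in linear coordinates of the
tangent space) is a diffeomorphism. -/
def Pole {n : ℕ} {X : Type} [TopologicalSpace X] (c : X → Ch n X) (g : X → Mtx n) (x : X) : Prop :=
  ∃ e : E n → X, e 0 = x ∧ Function.Bijective e ∧ Continuous e ∧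
    (∀ v, ContDiffAt ℝ ∞ (fun w => c (e v) (e w)) v ∧
      (fderiv ℝ (fun w => c (e v) (e w)) v).det ≠ 0) ∧
    ∀ v, Gdc c g fun t => e (t • v)

/-- `(M, g)` has no conjugate points: the exponential maps of the universal covering are
diffeomorphisms. -/
def NoConj {n : ℕ} {M : Type} [TopologicalSpace M] (c : M → Ch n M) (g : M → Mtx n) : Prop :=
  ∀ (X : Type) (_ : TopologicalSpace X) (f : X → M) (c' : X → Ch n X), SimplyConnectedSpace X →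
    CovAtl c f c' → ∀ x, Pole c' (fun q => g (f q)) x

end Vale.Agent.P223.J
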