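import Vale.Agent.P223.H765.AsyF

/-! P223: BLOCK ASY. -/

namespace Vale.Agent.P223.H765

open scoped ContDiff InnerProductSpace Topology
open Complex MeasureTheory Vale.Agent.P223.X
open Vale.Agent.P223.H566 (SpX Core Raw IsCore Cliff Ctx Emb Rsv SpecIntS SpecLocal mulR Fr WB nm
  SpecSup Gst OpA Alg Dec Nuc trH bas wrd rK Coc SpecAlg SpecDec SpecAsy)
open Vale.Agent.P223.H (E jdet)
open Vale.Agent.P223.H391 (trI nuc_kg)

section
variable {n : ℕ} {M X Γ I V H : Type} [TopologicalSpace M] [TopologicalSpace X] [Group Γ]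
  [MulAction Γ X] [Fintype I] [T2Space X] [ConnectedSpace X] [T2Space M]
  [MeasurableSpace X] [BorelSpace X] [NormedAddCommGroup V] [InnerProductSpace ℂ V]
  [FiniteDimensional ℂ V] [NormedAddCommGroup H] [InnerProductSpace ℂ H] [CompleteSpace H]
  (c : Ctx n M X Γ I V H) {ι : Type} [Fintype ι] {P : PUX c.C ι} {a h : Γ × ι → H →L[ℂ] H}
  {W : H →L[ℂ] H} {χ : I → E n → ℝ}

/-- the integral in a chart -/
noncomputable def iw (χ : I → E n → ℝ) (P : PUX c.C ι) (l₀ : Γ × ι) (l : Fin n → Γ × ι) (γ : Γ)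
    (i : I) : ℝ := ∫ y, χ i y * (c.C.rep (P.fn l₀) γ i y *
      jdet (fun k => c.C.rep (P.fn (l k)) γ i) y)

omit [ConnectedSpace X] [T2Space M] [BorelSpace X] [FiniteDimensional ℂ V] [CompleteSpace H]
  [T2Space X] in
theorem wt_iw (hχ : Part c.C χ) (l : Fin (n + 1) → Γ × ι) {T : Finset Γ}
    (hT : ∀ γ, γ ∉ T → ∀ i (y : E n), ‖y‖ ≤ 2 → γ • c.C.ψ i y ∉ tsupport (P.fn (l 0))) :
    P.wt χ l = ∑ i, ∑ γ ∈ T, iw c χ P (l 0) (fun i => l i.succ) γ i :=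
  DensX.intg_eq hχ (w := WtX.igx c.C fun k => P.fn (l k)) (K := tsupport (P.fn (l 0)))
    (fun _ _ _ h => WtX.igx_zero 0 h) hT

/-- the error term of a chart -/
noncomputable def er (χ : I → E n → ℝ) (P : PUX c.C ι) (a h : Γ × ι → H →L[ℂ] H) (W : H →L[ℂ] H)
    (U : Γ → I → H →L[ℂ] H) (K : ℕ) (m : ℝ) (g : H →L[ℂ] H) (i₀ : ι) (i : I) (γ : Γ)
    (j : Fin (n + 1) → ℕ) (l : Fin n → Γ × ι) : ℂ :=
  trH (wlC g h n (fun i => j i + 1) l * W * (U γ i * a (1, i₀))) -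
    ((((2 * Real.pi) ^ n)⁻¹ * (m ^ ((n : ℤ) - 2 * (K + (n + 1) : ℕ)) * cJ n (K + (n + 1))) : ℝ) : ℂ) *
      ((Module.finrank ℂ V : ℂ) * (iw c χ P (1, i₀) l γ i : ℂ))

omit [ConnectedSpace X] [T2Space M] [BorelSpace X] [FiniteDimensional ℂ V] [T2Space X] in
/-- the terms of the series -/
theorem term_eq [Countable Γ] {k : Γ × ι → H →L[ℂ] H} {w : Γ → ℝ} {A : ℕ → ℝ} {m : ℝ}
    {g p : H →L[ℂ] H}
    (hA : Alg n m a h W g p) (hD : Dec n m a h g p k w A) (hw : ∀ γ, 0 ≤ w γ) (hs : Summable w)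
    (hχ : Part c.C χ) {K : ℕ} (hK : (n + 1) * n ≤ K) {U : Γ → I → H →L[ℂ] H} {T : ι → Finset Γ}
    (hT : ∀ i₀ γ, γ ∉ T i₀ → ∀ i (y : E n), ‖y‖ ≤ 2 → γ • c.C.ψ i y ∉ tsupport (P.fn (1, i₀)))
    (hU : ∀ i₀, ∑ i, ∑ γ ∈ T i₀, U γ i * a (1, i₀) = a (1, i₀))
    (hn : ∀ i₀ i, ∀ γ ∈ T i₀, ∀ j ∈ Finset.Nat.antidiagonalTuple (n + 1) K, ∀ l,
      (trI H).nuc (wlC g h n (fun i => j i + 1) l * W * (U γ i * a (1, i₀))))
    (l : Fin (n + 1) → Γ × ι) (hl : (l 0).1 = 1) :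
    ∑ j ∈ Finset.Nat.antidiagonalTuple (n + 1) K, trH (W * wrd a h g j l) -
      ((m ^ ((n : ℤ) - 2 * (K + (n + 1) : ℕ)) : ℝ) : ℂ) *
        (((((Finset.Nat.antidiagonalTuple (n + 1) K).card : ℝ) * (((2 * Real.pi) ^ n)⁻¹ *
          cJ n (K + (n + 1))) : ℝ) : ℂ) * ((Module.finrank ℂ V : ℂ) * (P.wt χ l : ℂ))) =
    ∑ j ∈ Finset.Nat.antidiagonalTuple (n + 1) K, ∑ i, ∑ γ ∈ T (l 0).2,
      er c χ P a h W U K m g (l 0).2 i γ j (fun i => l i.succ) := by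
  classical
  have hl0 : l 0 = (1, (l 0).2) := Prod.ext hl rfl
  have hU' : ∑ q ∈ (Finset.univ : Finset I) ×ˢ T (l 0).2, U q.2 q.1 * a (l 0) = a (l 0) := by
    rw [Finset.sum_product]
    conv_lhs => rw [hl0]
    rw [hU, ← hl0]
  have h1 : ∀ j ∈ Finset.Nat.antidiagonalTuple (n + 1) K, trH (W * wrd a h g j l) =
      ∑ i, ∑ γ ∈ T (l 0).2, trH (wlC g h n (fun i => j i + 1) (fun i => l i.succ) * W *
        (U γ i * a (1, (l 0).2))) := by
    intro j hj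
    obtain ⟨q, hq⟩ := exists_big hK hj
    rw [wrd_wlC, tr_cyc hA hD hw hs (j := fun i => j i + 1) (q := q) hq (l 0) (fun i => l i.succ)
      ((Finset.univ : Finset I) ×ˢ T (l 0).2) (fun q => U q.2 q.1) hU' (fun q hq => ?_),
      Finset.sum_product, ← hl0]
    have h2 := hn (l 0).2 q.1 q.2 (Finset.mem_product.1 hq).2 j hj fun i => l i.succ
    rwa [← hl0] at h2
  rw [Finset.sum_congr rfl h1]
  have h3 := wt_iw c hχ l (P := P) (T := T (l 0).2) (fun γ hγ => by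
    have := hT (l 0).2 γ hγ
    rwa [← hl0] at this)
  unfold er
  simp only [Finset.sum_sub_distrib, Finset.sum_const, nsmul_eq_mul]
  congr 1
  simp only [← Finset.mul_sum]
  rw [h3, ← hl0]
  push_cast
  ring

theorem norm_sum3 {J I G : Type} (S : Finset J) (T : Finset I) (R : Finset G)
    (f : J → I → G → ℂ) : ‖∑ j ∈ S, ∑ i ∈ T, ∑ γ ∈ R, f j i γ‖ ≤
      ∑ j ∈ S, ∑ i ∈ T, ∑ γ ∈ R, ‖f j i γ‖ :=
  (norm_sum_le _ _).trans (Finset.sum_le_sum fun _ _ => (norm_sum_le _ _).trans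
    (Finset.sum_le_sum fun _ _ => norm_sum_le _ _))

end

/-- the constant in the asymptotic formula -/
noncomputable def bK (n K d : ℕ) : ℝ := ((Finset.Nat.antidiagonalTuple (n + 1) K).card : ℝ) *
  (((2 * Real.pi) ^ n)⁻¹ * cJ n (K + (n + 1))) * d

theorem bK_pos {n K d : ℕ} (hd : 0 < d) : 0 < bK n K d := by
  have h1 : (Finset.Nat.antidiagonalTuple (n + 1) K).Nonempty := ⟨Fin.cons K fun _ => 0, by
    rw [Finset.Nat.mem_antidiagonalTuple, Fin.sum_univ_succ]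
    simp⟩
  have h2 : (0 : ℝ) < (Finset.Nat.antidiagonalTuple (n + 1) K).card := by
    exact_mod_cast h1.card_pos
  have h3 : 0 < cJ n (K + (n + 1)) := cJ_pos (by omega)
  have h4 : (0 : ℝ) < d := by exact_mod_cast hd
  unfold bK
  positivity

/-- BLOCK ASY with explicit constants -/
theorem asyX (hI : SpecIntS) (hL : SpecLocal) (hS : SpecSup) (hAlg : SpecAlg)
    (hDec : SpecDec) (n : ℕ) (M X Γ I V H : Type) [TopologicalSpace M] [TopologicalSpace X]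
    [Group Γ] [MulAction Γ X] [Fintype I] [T2Space X] [ConnectedSpace X] [T2Space M]
    [MeasurableSpace X] [BorelSpace X] [NormedAddCommGroup V] [InnerProductSpace ℂ V]
    [FiniteDimensional ℂ V] [NormedAddCommGroup H] [InnerProductSpace ℂ H] [CompleteSpace H]
    (c : Ctx n M X Γ I V H) (ι : Type) [Fintype ι] (P : PUX c.C ι) (a h : Γ × ι → H →L[ℂ] H)
    (W : H →L[ℂ] H) (g p : ℝ → H →L[ℂ] H) (χ : I → E n → ℝ) (F : (Fin (n + 1) → Γ) → ℝ)
    (m₀ : ℝ) (hn : 1 ≤ n) (hO : OpA c.E P a h W)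
    (hχ : Part c.C χ) (hF : Coc F) (hR : ∀ m, m₀ ≤ m → Rsv c.E m (g m) (p m)) (K : ℕ)
    (hK : (n + 1) * n ≤ K) : Filter.Tendsto
    (fun m : ℝ => (m : ℂ) ^ (n + 2 + 2 * K) * rK a h W (g m) F K) Filter.atTop
    (nhds ((bK n K (Module.finrank ℂ V) : ℂ) *
      ((∑ᶠ l ∈ {l : Fin (n + 1) → Γ × ι | (l 0).1 = 1},
      P.wt χ l * F (fun i => (l i).1) : ℝ) : ℂ))) := by
  classical
  have : Countable Γ := Vol.countable_group c.C
  obtain ⟨k, w, A, m₁, hm₁, hw, hsum, hD⟩ := hDec n M X Γ I V H c ι P a h W hn hO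
  choose U hU using fun (γ : Γ) (i : I) => exists_U c hχ γ i
  choose T hT using fun i₀ : ι => DensX.fin_T c.C (K := tsupport (P.fn (1, i₀)))
    (WtX.fn_cc P (1, i₀)).2.isCompact
  set J : ℕ := K + (n + 1) with hJd
  set an := Finset.Nat.antidiagonalTuple (n + 1) K with han
  set fr : ℕ := Module.finrank ℂ V with hfr
  have hJ : n < 2 * J := by omega
  set b₀ : ℝ := (an.card : ℝ) * (((2 * Real.pi) ^ n)⁻¹ * cJ n J) with hb₀
  have hbK : (bK n K fr : ℂ) = (b₀ : ℂ) * fr := by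
    rw [hb₀, ← ofReal_natCast fr, ← ofReal_mul]
    rfl
  rw [hbK]
  obtain ⟨Z, hZ⟩ : ∃ Z : ℝ, Z = ∑ᶠ l ∈ {l : Fin (n + 1) → Γ × ι | (l 0).1 = 1},
    P.wt χ l * F (fun i => (l i).1) := ⟨_, rfl⟩
  rw [← hZ]
  -- the contributions of the charts
  have key : ∀ (i₀ : ι) (i : I) (γ : Γ) (j : Fin (n + 1) → ℕ), ∃ D : ℝ, 0 ≤ D ∧ (j ∈ an →
      ∀ᶠ m : ℝ in Filter.atTop,
        (∀ l, (trI H).nuc (wlC (g m) h n (fun i => j i + 1) l * W * (U γ i * a (1, i₀)))) ∧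
        ∀ S : Finset (Fin n → Γ × ι), ∑ l ∈ S, ‖er c χ P a h W U K m (g m) i₀ i γ j l‖ ≤
          D * m ^ ((n : ℤ) - (2 * (J : ℕ) + 1))) := by
    intro i₀ i γ j
    by_cases hj : j ∈ an
    · have hs := sum_succ hj
      obtain ⟨D, m₂, hD, -, h1⟩ := chart_asy c hI hL hS hn hO hχ γ i (1, i₀) (hU γ i)
        (fun i => j i + 1) (by rw [hs]; exact hJ)
      refine ⟨D, hD, fun _ => ?_⟩
      filter_upwards [Filter.eventually_ge_atTop m₂, Filter.eventually_ge_atTop m₀] with m hm hm'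
      obtain ⟨h2, h3⟩ := h1 m hm (g m) (p m) (hR m hm')
      refine ⟨h2, fun S => ?_⟩
      have h4 := h3 S
      rw [hs] at h4
      exact h4
    · exact ⟨0, le_rfl, fun h => absurd h hj⟩
  choose D hD0 hD1 using key
  set Dt : ℝ := ∑ i₀, ∑ j ∈ an, ∑ i, ∑ γ ∈ T i₀, D i₀ i γ j with hDt
  have hDt0 : 0 ≤ Dt := Finset.sum_nonneg fun i₀ _ => Finset.sum_nonneg fun j _ =>
    Finset.sum_nonneg fun i _ => Finset.sum_nonneg fun γ _ => hD0 _ _ _ _
  have hall : ∀ᶠ m : ℝ in Filter.atTop, ∀ i₀ : ι, ∀ i : I, ∀ γ ∈ T i₀, ∀ j ∈ an,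
      (∀ l, (trI H).nuc (wlC (g m) h n (fun i => j i + 1) l * W * (U γ i * a (1, i₀)))) ∧
        ∀ S : Finset (Fin n → Γ × ι), ∑ l ∈ S, ‖er c χ P a h W U K m (g m) i₀ i γ j l‖ ≤
          D i₀ i γ j * m ^ ((n : ℤ) - (2 * (J : ℕ) + 1)) := by
    refine Filter.eventually_all.2 fun i₀ => Filter.eventually_all.2 fun i =>
      (Filter.eventually_all_finset _).2 fun γ _ => (Filter.eventually_all_finset _).2 fun j hj =>
        hD1 i₀ i γ j hj
  -- the series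
  let L := {l : Fin (n + 1) → Γ × ι // (l 0).1 = 1}
  let t : ℝ → L → ℂ := fun m l => (F (fun i => (l.1 i).1) : ℂ) *
    ∑ j ∈ an, trH (W * wrd a h (g m) j l.1)
  let mn : L → ℂ := fun l => (F (fun i => (l.1 i).1) : ℂ) * ((b₀ : ℂ) * ((fr : ℂ) * (P.wt χ l.1 : ℂ)))
  have hbound : ∀ᶠ m : ℝ in Filter.atTop, ∀ S : Finset L,
      ∑ l ∈ S, ‖t m l - ((m ^ ((n : ℤ) - 2 * (J : ℕ)) : ℝ) : ℂ) * mn l‖ ≤
        Dt * m ^ ((n : ℤ) - (2 * (J : ℕ) + 1)) := by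
    filter_upwards [hall, Filter.eventually_ge_atTop m₀, Filter.eventually_ge_atTop m₁,
      Filter.eventually_ge_atTop 1] with m hm hm0 hm1 hm2 S
    have hA := hAlg n M X Γ I V H c ι P a h W (g m) (p m) m hn (by linarith) hO (hR m hm0)
    have hDe := hD m hm1 (g m) (p m) (hR m hm0)
    have hU' : ∀ i₀, ∑ i, ∑ γ ∈ T i₀, U γ i * a (1, i₀) = a (1, i₀) := fun i₀ =>
      a_decomp c hO hχ hU (1, i₀) (hT i₀)
    have h1 : ∀ l : L, ‖t m l - ((m ^ ((n : ℤ) - 2 * (J : ℕ)) : ℝ) : ℂ) * mn l‖ ≤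
        ∑ j ∈ an, ∑ i, ∑ γ ∈ T (l.1 0).2, ‖er c χ P a h W U K m (g m) (l.1 0).2 i γ j
          (fun i => l.1 i.succ)‖ := by
      intro l
      have h2 := term_eq c hA hDe hw hsum hχ hK (T := T) hT hU'
        (fun i₀ i γ hγ j hj => (hm i₀ i γ hγ j hj).1) l.1 l.2
      have h3 : t m l - ((m ^ ((n : ℤ) - 2 * (J : ℕ)) : ℝ) : ℂ) * mn l =
          (F (fun i => (l.1 i).1) : ℂ) * (∑ j ∈ an, ∑ i, ∑ γ ∈ T (l.1 0).2,
            er c χ P a h W U K m (g m) (l.1 0).2 i γ j (fun i => l.1 i.succ)) := by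
        rw [← h2]
        simp only [t, mn]
        ring
      rw [h3, norm_mul, Complex.norm_real, Real.norm_eq_abs]
      refine (mul_le_of_le_one_left (norm_nonneg _) (hF.bdd _)).trans ?_
      exact norm_sum3 _ _ _ _
    let φ : L → ι × (Fin n → Γ × ι) := fun l => ((l.1 0).2, fun i => l.1 i.succ)
    have hφ : Function.Injective φ := by
      intro l l' hll
      refine Subtype.ext (funext fun i => ?_)
      refine Fin.cases ?_ (fun i => ?_) i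
      · exact Prod.ext (l.2.trans l'.2.symm) (congrArg Prod.fst hll)
      · exact congrFun (congrArg Prod.snd hll) i
    let Gf : ι × (Fin n → Γ × ι) → ℝ := fun q => ∑ j ∈ an, ∑ i, ∑ γ ∈ T q.1,
      ‖er c χ P a h W U K m (g m) q.1 i γ j q.2‖
    calc ∑ l ∈ S, ‖t m l - ((m ^ ((n : ℤ) - 2 * (J : ℕ)) : ℝ) : ℂ) * mn l‖
        ≤ ∑ l ∈ S, Gf (φ l) := Finset.sum_le_sum fun l _ => h1 l
      _ = ∑ q ∈ S.image φ, Gf q := (Finset.sum_image hφ.injOn).symm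
      _ ≤ ∑ q ∈ (Finset.univ : Finset ι) ×ˢ (S.image fun l => (φ l).2), Gf q := by
          refine Finset.sum_le_sum_of_subset_of_nonneg (fun q hq => ?_) fun q _ _ =>
            Finset.sum_nonneg fun j _ => Finset.sum_nonneg fun i _ =>
              Finset.sum_nonneg fun γ _ => norm_nonneg _
          obtain ⟨l, hl, rfl⟩ := Finset.mem_image.1 hq
          exact Finset.mem_product.2 ⟨Finset.mem_univ _, Finset.mem_image_of_mem _ hl⟩
      _ = ∑ i₀, ∑ j ∈ an, ∑ i, ∑ γ ∈ T i₀, ∑ l ∈ S.image (fun l => (φ l).2),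
          ‖er c χ P a h W U K m (g m) i₀ i γ j l‖ := by
          rw [Finset.sum_product]
          refine Finset.sum_congr rfl fun i₀ _ => ?_
          simp only [Gf]
          rw [Finset.sum_comm]
          refine Finset.sum_congr rfl fun j _ => ?_
          rw [Finset.sum_comm]
          refine Finset.sum_congr rfl fun i _ => ?_
          rw [Finset.sum_comm]
      _ ≤ ∑ i₀, ∑ j ∈ an, ∑ i, ∑ γ ∈ T i₀, D i₀ i γ j * m ^ ((n : ℤ) - (2 * (J : ℕ) + 1)) :=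
          Finset.sum_le_sum fun i₀ _ => Finset.sum_le_sum fun j hj => Finset.sum_le_sum fun i _ =>
            Finset.sum_le_sum fun γ hγ => (hm i₀ i γ hγ j hj).2 _
      _ = Dt * m ^ ((n : ℤ) - (2 * (J : ℕ) + 1)) := by
          simp only [hDt, Finset.sum_mul]
  -- the main term
  have hfin := (Form.good_wt (χ := χ) P).fin
  have hmn : HasSum mn ((b₀ : ℂ) * fr * (Z : ℂ)) := by
    rw [hZ]
    have e1 : ∑ᶠ l ∈ {l : Fin (n + 1) → Γ × ι | (l 0).1 = 1}, P.wt χ l * F (fun i => (l i).1) =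
        ∑ l ∈ hfin.toFinset, P.wt χ l.1 * F (fun i => (l.1 i).1) := by
      rw [← finsum_set_coe_eq_finsum_mem]
      refine finsum_eq_sum_of_support_subset _ fun l hl => ?_
      rw [Set.Finite.coe_toFinset]
      intro h0
      exact hl (by
        change P.wt χ l.1 * _ = 0
        rw [h0, zero_mul])
    have e2 : (b₀ : ℂ) * fr * ((∑ᶠ l ∈ {l : Fin (n + 1) → Γ × ι | (l 0).1 = 1},
      P.wt χ l * F (fun i => (l i).1) : ℝ) : ℂ) = ∑ l ∈ hfin.toFinset, mn l := by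
      rw [e1]
      push_cast
      rw [Finset.mul_sum]
      refine Finset.sum_congr rfl fun l _ => ?_
      simp only [mn]
      ring
    rw [e2]
    refine hasSum_sum_of_ne_finset_zero fun l hl => ?_
    have h0 : P.wt χ l.1 = 0 := by
      by_contra hne
      exact hl (hfin.mem_toFinset.2 hne)
    simp only [mn, h0]
    simp
  -- the limit
  have hest : ∀ᶠ m : ℝ in Filter.atTop, ‖(m : ℂ) ^ (n + 2 + 2 * K) * rK a h W (g m) F K -
      (b₀ : ℂ) * fr * (Z : ℂ)‖ ≤ Dt * m⁻¹ := by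
    filter_upwards [hbound, Filter.eventually_gt_atTop 0] with m hm hm0
    have h1 : Summable fun l : L => ‖t m l - ((m ^ ((n : ℤ) - 2 * (J : ℕ)) : ℝ) : ℂ) * mn l‖ :=
      summable_of_sum_le (fun _ => norm_nonneg _) hm
    have h2 := h1.of_norm.hasSum
    have h3 := h2.add (hmn.mul_left ((m ^ ((n : ℤ) - 2 * (J : ℕ)) : ℝ) : ℂ))
    simp only [sub_add_cancel] at h3
    have h4 : rK a h W (g m) F K = ∑' l : L, t m l := rfl
    rw [h4, h3.tsum_eq]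
    have h5 : ‖∑' l : L, (t m l - ((m ^ ((n : ℤ) - 2 * (J : ℕ)) : ℝ) : ℂ) * mn l)‖ ≤
        Dt * m ^ ((n : ℤ) - (2 * (J : ℕ) + 1)) :=
      (norm_tsum_le_tsum_norm h1).trans (h1.tsum_le_of_sum_le hm)
    have h6 : (m : ℂ) ^ (n + 2 + 2 * K) * ((m ^ ((n : ℤ) - 2 * (J : ℕ)) : ℝ) : ℂ) = 1 := by
      rw [← ofReal_pow, ← ofReal_mul, ← zpow_natCast, ← zpow_add₀ hm0.ne']
      have : ((n + 2 + 2 * K : ℕ) : ℤ) + ((n : ℤ) - 2 * (J : ℕ)) = 0 := by
        rw [hJd]; push_cast; ring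
      rw [this]
      simp
    have h7 : m ^ (n + 2 + 2 * K) * m ^ ((n : ℤ) - (2 * (J : ℕ) + 1)) = m⁻¹ := by
      rw [← zpow_natCast, ← zpow_add₀ hm0.ne', ← zpow_neg_one]
      congr 1
      rw [hJd]; push_cast; ring
    rw [mul_add, ← mul_assoc _ _ ((b₀ : ℂ) * fr * _), h6, one_mul, add_sub_cancel_right, norm_mul,
      norm_pow, Complex.norm_real, Real.norm_of_nonneg hm0.le]
    calc m ^ (n + 2 + 2 * K) * _ ≤ m ^ (n + 2 + 2 * K) *
          (Dt * m ^ ((n : ℤ) - (2 * (J : ℕ) + 1))) := by gcongr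
      _ = Dt * (m ^ (n + 2 + 2 * K) * m ^ ((n : ℤ) - (2 * (J : ℕ) + 1))) := by ring
      _ = Dt * m⁻¹ := by rw [h7]
  rw [tendsto_iff_norm_sub_tendsto_zero]
  refine squeeze_zero' (Filter.Eventually.of_forall fun _ => norm_nonneg _) hest ?_
  have := (tendsto_inv_atTop_zero (𝕜 := ℝ)).const_mul Dt
  rwa [mul_zero] at this

/-- BLOCK ASY -/
theorem specAsy (hI : SpecIntS) (hL : SpecLocal) (hS : SpecSup) (hAlg : SpecAlg)
    (hDec : SpecDec) : SpecAsy := by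
  intro n M X Γ I V H _ _ _ _ _ _ _ _ _ _ _ _ _ _ _ _ c ι _ P a h W g p χ F m₀ hn hV hO hχ hF hR
  exact ⟨(n + 1) * n, fun K hK => ⟨bK n K (Module.finrank ℂ V),
    by exact_mod_cast (bK_pos hV).ne',
    asyX hI hL hS hAlg hDec n M X Γ I V H c ι P a h W g p χ F m₀ hn hO hχ hF hR K hK⟩⟩

end Vale.Agent.P223.H765
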