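import Mathlib.Analysis.Calculus.BumpFunction.InnerProduct
import Mathlib.Analysis.Calculus.BumpFunction.FiniteDimension
import Mathlib.MeasureTheory.Integral.IntervalIntegral.FundThmCalculus
import Mathlib.Analysis.Calculus.ContDiff.Basic
import Mathlib.Analysis.Calculus.IteratedDeriv.Lemmas

/-! A cut-off function of one variable. -/

namespace Vale.Agent.P223.H765.Cut

open scoped ContDiff Topology
open MeasureTheory Set

theorem exists_cut {s s' : ℝ} (h : s < s') : ∃ k : ℝ → ℝ, ContDiff ℝ ∞ k ∧
    (∀ t, 0 ≤ k t ∧ k t ≤ 1) ∧ (∀ t, t ≤ s + (s' - s) / 8 → k t = 1) ∧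
    (∀ t, s' - (s' - s) / 8 ≤ t → k t = 0) ∧ ∀ t, |deriv k t| ≤ 2 / (s' - s) := by
  set d := s' - s with hd
  have hd0 : 0 < d := by simp only [hd]; linarith
  set m := (s + s') / 2 with hm
  let f : ContDiffBump m := ⟨d / 4, 3 * d / 8, by positivity, by linarith⟩
  set a := s + d / 8 with ha
  set b := s' - d / 8 with hb
  have hab : a < b := by simp only [ha, hb]; linarith
  have hma : a = m - 3 * d / 8 := by simp only [ha, hm, hd]; ring
  have hmb : b = m + 3 * d / 8 := by simp only [hb, hm, hd]; ring
  have hf0 : ∀ t, 0 ≤ f t := fun t => f.nonneg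
  have hf1 : ∀ t, f t ≤ 1 := fun t => f.le_one
  have hfc : Continuous f := f.continuous
  have hfi : ∀ x y, IntervalIntegrable f volume x y := fun x y => hfc.intervalIntegrable x y
  have hout : ∀ t, (t ≤ a ∨ b ≤ t) → f t = 0 := by
    intro t ht
    refine f.zero_of_le_dist ?_
    change 3 * d / 8 ≤ dist t m
    rw [Real.dist_eq]
    rcases ht with ht | ht
    · rw [abs_of_nonpos (by linarith)]; linarith
    · rw [abs_of_nonneg (by linarith)]; linarith
  set I := ∫ t in a..b, f t with hI
  have hI0 : d / 2 ≤ I := by
    have h1 : ∫ t in (m - d / 4)..(m + d / 4), (1 : ℝ) = d / 2 := by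
      rw [intervalIntegral.integral_const, smul_eq_mul]; ring
    have h2 : ∫ t in (m - d / 4)..(m + d / 4), f t = d / 2 := by
      rw [← h1]
      refine intervalIntegral.integral_congr fun t ht => ?_
      rw [uIcc_of_le (by linarith)] at ht
      refine f.one_of_mem_closedBall ?_
      rw [Metric.mem_closedBall, Real.dist_eq, abs_le]
      change -(d / 4) ≤ t - m ∧ t - m ≤ d / 4
      constructor <;> linarith [ht.1, ht.2]
    have h3 : I = (∫ t in a..(m - d / 4), f t) + (∫ t in (m - d / 4)..(m + d / 4), f t) +
        ∫ t in (m + d / 4)..b, f t := by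
      rw [intervalIntegral.integral_add_adjacent_intervals (hfi _ _) (hfi _ _),
        intervalIntegral.integral_add_adjacent_intervals (hfi _ _) (hfi _ _)]
    have h4 : 0 ≤ ∫ t in a..(m - d / 4), f t :=
      intervalIntegral.integral_nonneg (by linarith) fun t _ => hf0 t
    have h5 : 0 ≤ ∫ t in (m + d / 4)..b, f t :=
      intervalIntegral.integral_nonneg (by linarith) fun t _ => hf0 t
    linarith
  have hIp : 0 < I := by linarith
  set K : ℝ → ℝ := fun t => 1 - (∫ x in a..t, f x) / I with hK
  have hder : ∀ t, HasDerivAt K (-(f t / I)) t := by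
    intro t
    have h1 : HasDerivAt (fun t => ∫ x in a..t, f x) (f t) t :=
      intervalIntegral.integral_hasDerivAt_right (hfi _ _)
        (hfc.stronglyMeasurableAtFilter _ _) hfc.continuousAt
    have h2 := (h1.div_const I).const_sub 1
    exact h2
  have hsm : ContDiff ℝ ∞ K := by
    refine contDiff_infty_iff_deriv.2 ⟨fun t => (hder t).differentiableAt, ?_⟩
    have h1 : deriv K = fun t => -(f t / I) := funext fun t => (hder t).deriv
    rw [h1]
    exact (f.contDiff.div_const I).neg
  have hle : ∀ t, t ≤ a → ∫ x in a..t, f x = 0 := by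
    intro t ht
    rw [intervalIntegral.integral_congr (g := fun _ => (0 : ℝ))]
    · simp
    · intro x hx
      rw [uIcc_of_ge ht] at hx
      exact hout x (Or.inl hx.2)
  have hge : ∀ t, b ≤ t → ∫ x in a..t, f x = I := by
    intro t ht
    rw [← intervalIntegral.integral_add_adjacent_intervals (hfi a b) (hfi b t)]
    have : ∫ x in b..t, f x = 0 := by
      rw [intervalIntegral.integral_congr (g := fun _ => (0 : ℝ))]
      · simp
      · intro x hx
        rw [uIcc_of_le ht] at hx
        exact hout x (Or.inr hx.1)
    rw [this, add_zero]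
  refine ⟨K, hsm, fun t => ?_, fun t ht => ?_, fun t ht => ?_, fun t => ?_⟩
  · have h1 : 0 ≤ ∫ x in a..t, f x := by
      rcases le_total a t with h | h
      · exact intervalIntegral.integral_nonneg h fun t _ => hf0 t
      · rw [hle t h]
    have h2 : ∫ x in a..t, f x ≤ I := by
      rcases le_total b t with h | h
      · rw [hge t h]
      · rw [hI, ← intervalIntegral.integral_add_adjacent_intervals (hfi a t) (hfi t b)]
        have : 0 ≤ ∫ x in t..b, f x := intervalIntegral.integral_nonneg h fun t _ => hf0 t
        linarith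
    simp only [hK]
    constructor
    · have := (div_le_one hIp).2 h2
      linarith
    · have := div_nonneg h1 hIp.le
      linarith
  · simp only [hK]
    rw [hle t ht]; simp
  · simp only [hK]
    rw [hge t ht, div_self hIp.ne', sub_self]
  · rw [(hder t).deriv, abs_neg, abs_of_nonneg (div_nonneg (hf0 t) hIp.le)]
    rw [div_le_div_iff₀ hIp hd0]
    nlinarith [hf1 t, hf0 t]

end Vale.Agent.P223.H765.Cut
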