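import Vale.Agent.P223.H566.NV
import Vale.Agent.P223.H850.Sqrt
import Mathlib.MeasureTheory.Function.Jacobian

/-! BLOCK V3d: small balls are not too small. -/

namespace Vale.Agent.P223.H765.Den

open scoped ContDiff ENNReal NNReal Topology Matrix Pointwise
open MeasureTheory Set Filter H566.NV

variable {n : ℕ}

/-- the Euclidean unit ball -/
def ub (n : ℕ) : Set (J.E n) := {v | ∑ i, v i ^ 2 < 1}

theorem cont_sq : Continuous fun v : J.E n => ∑ i, v i ^ 2 :=
  continuous_finsetSum _ fun i _ => (continuous_apply i).pow 2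

theorem isOpen_ub : IsOpen (ub n) := isOpen_lt cont_sq continuous_const

theorem ub_pos : 0 < volume (ub n) :=
  isOpen_ub.measure_pos volume ⟨0, by simp [ub]⟩

theorem abs_le_of_sq {v : J.E n} {s : ℝ} (hs : 0 ≤ s) (h : ∑ i, v i ^ 2 ≤ s ^ 2) : ‖v‖ ≤ s := by
  refine (pi_norm_le_iff_of_nonneg hs).2 fun i => ?_
  have h1 : v i ^ 2 ≤ s ^ 2 := (Finset.single_le_sum (f := fun i => v i ^ 2)
    (fun j _ => sq_nonneg (v j)) (Finset.mem_univ i)).trans h
  exact abs_le_of_sq_le_sq h1 hs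

theorem ub_ne_top : volume (ub n) ≠ ⊤ := by
  refine ne_top_of_le_ne_top (isCompact_closedBall (0 : J.E n) 1).measure_lt_top.ne
    (measure_mono fun v hv => ?_)
  rw [mem_closedBall_zero_iff]
  refine abs_le_of_sq zero_le_one ?_
  rw [one_pow]
  exact (show ∑ i, v i ^ 2 < 1 from hv).le

theorem bil_eq (A : Matrix (Fin n) (Fin n) ℝ) (hA : A.PosDef) (w : J.E n) :
    J.bil A w w = ∑ i, (H850.rt A *ᵥ w) i ^ 2 := by
  set S := H850.rt A with hS
  have hSS : S * S = A := H850.rt_mul hA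
  have hSt : Sᵀ = S := H850.rt_symm hA
  have h1 : ∑ i, (S *ᵥ w) i ^ 2 = (S *ᵥ w) ⬝ᵥ (S *ᵥ w) := by
    simp only [dotProduct]
    exact Finset.sum_congr rfl fun i _ => by ring
  have h2 : (S *ᵥ w) ⬝ᵥ (S *ᵥ w) = w ⬝ᵥ (A *ᵥ w) := by
    rw [← hSS, ← Matrix.mulVec_mulVec, Matrix.dotProduct_mulVec w S, ← Matrix.mulVec_transpose,
      hSt]
  rw [h1, h2]
  unfold J.bil
  simp only [dotProduct, Matrix.mulVec, Finset.mul_sum]
  exact Finset.sum_congr rfl fun i _ => Finset.sum_congr rfl fun j _ => by ring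

/-- the balls of the norm defined by `A` -/
def bA (A : Matrix (Fin n) (Fin n) ℝ) (s : ℝ) : Set (J.E n) := {w | J.bil A w w < s ^ 2}

theorem vol_bA {A : Matrix (Fin n) (Fin n) ℝ} (hA : A.PosDef) {s : ℝ} (hs : 0 < s) :
    ENNReal.ofReal √A.det * volume (bA A s) = ENNReal.ofReal (s ^ n) * volume (ub n) := by
  set S := H850.rt A with hS
  have hSp : S.PosDef := H850.rt_posDef hA
  have hSS : S * S = A := H850.rt_mul hA
  have hd : 0 < S.det := hSp.det_pos
  have h1 : bA A s = (Matrix.toLin' S) ⁻¹' (s • ub n) := by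
    ext w
    rw [mem_preimage, Set.mem_smul_set_iff_inv_smul_mem₀ hs.ne', Matrix.toLin'_apply]
    change J.bil A w w < s ^ 2 ↔ ∑ i, (s⁻¹ • (S *ᵥ w)) i ^ 2 < 1
    rw [bil_eq A hA w]
    have h2 : ∑ i, (s⁻¹ • (S *ᵥ w)) i ^ 2 = (∑ i, (S *ᵥ w) i ^ 2) / s ^ 2 := by
      simp only [Pi.smul_apply, smul_eq_mul, mul_pow, ← Finset.mul_sum]
      rw [inv_pow]
      field_simp
    rw [h2, div_lt_one (by positivity)]
  have hdet : √A.det = S.det := by
    rw [← hSS, Matrix.det_mul, Real.sqrt_mul_self hd.le]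
  rw [h1, Measure.addHaar_preimage_linearMap volume (by rw [LinearMap.det_toLin']; exact hd.ne'),
    LinearMap.det_toLin', Measure.addHaar_smul, hdet]
  have h3 : Module.finrank ℝ (J.E n) = n := by simp
  rw [h3, abs_of_pos (inv_pos.2 hd), abs_of_pos (pow_pos hs n), ← mul_assoc,
    ← ENNReal.ofReal_mul hd.le, mul_inv_cancel₀ hd.ne', ENNReal.ofReal_one, one_mul]

theorem bA_small {A : Matrix (Fin n) (Fin n) ℝ} (hA : A.PosDef) {W : Set (J.E n)}
    (hW : W ∈ 𝓝 (0 : J.E n)) : ∃ δ : ℝ, 0 < δ ∧ ∀ s, 0 < s → s ≤ δ → bA A s ⊆ W := by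
  set S := H850.rt A with hS
  have hSp : S.PosDef := H850.rt_posDef hA
  have hu : IsUnit S.det := isUnit_iff_ne_zero.2 hSp.det_pos.ne'
  have h1 : Tendsto (fun v : J.E n => S⁻¹ *ᵥ v) (𝓝 0) (𝓝 0) := by
    have h2 : Continuous fun v : J.E n => S⁻¹ *ᵥ v := Continuous.matrix_mulVec continuous_const
      continuous_id
    have := h2.tendsto 0
    rwa [Matrix.mulVec_zero] at this
  obtain ⟨δ, hδ, h2⟩ := Metric.mem_nhds_iff.1 (h1 hW)
  refine ⟨δ, hδ, fun s hs hsδ w hw => ?_⟩
  have h3 : ∑ i, (S *ᵥ w) i ^ 2 < s ^ 2 := by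
    rw [← bil_eq A hA w]; exact hw
  have h4 : ‖S *ᵥ w‖ < s := by
    rw [pi_norm_lt_iff hs]
    intro i
    have h5 : (S *ᵥ w) i ^ 2 < s ^ 2 := (Finset.single_le_sum (f := fun i => (S *ᵥ w) i ^ 2)
      (fun j _ => sq_nonneg ((S *ᵥ w) j)) (Finset.mem_univ i)).trans_lt h3
    exact abs_lt_of_sq_lt_sq h5 hs.le
  have h5 : S *ᵥ w ∈ Metric.ball (0 : J.E n) δ := by
    rw [mem_ball_zero_iff]
    exact h4.trans_le hsδ
  have h6 := h2 h5
  rw [mem_preimage, Matrix.mulVec_mulVec, Matrix.nonsing_inv_mul _ hu, Matrix.one_mulVec] at h6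
  exact h6

/-- the metric at the centre is positive definite -/
theorem pos_at {X : Type} [TopologicalSpace X] {c : X → J.Ch n X} {g : X → J.Mtx n}
    (hc : J.Atl c) (hg : J.Met c g) (x : X) : (g x (c x x)).PosDef := (hg x x (hc x).1).2.1

/-- BLOCK V3d -/
theorem specDen (hD : SpecDst) : SpecDen := by
  intro n hn
  set V := (volume (ub n)).toReal with hV
  have hV0 : 0 < V := ENNReal.toReal_pos ub_pos.ne' ub_ne_top
  refine ⟨V / 4, by positivity, ?_⟩
  intro X _ _ _ _ μ c g x r e hc hg hμ hr he Ω hΩ hxΩ η hη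
  obtain ⟨-, hbal⟩ := hD n X c g x r e hn hc hg hr he
  set A := g x (c x x) with hAd
  have hA : A.PosDef := pos_at hc hg x
  have hAdet : 0 < A.det := hA.det_pos
  set F : J.E n → J.E n := fun w => c x (e w) with hF
  have h0r : J.bil A (0 : J.E n) 0 < r ^ 2 := by
    have : J.bil A (0 : J.E n) 0 = 0 := by simp [J.bil]
    rw [this]; positivity
  have hcs : ContDiffAt ℝ ∞ F 0 := by
    have := (he.diff 0 h0r).1
    rw [he.zero] at this
    exact this
  have hF0 : F 0 = c x x := by simp only [hF, he.zero]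
  -- open set of good points
  have hbo : IsOpen {v : J.E n | J.bil A v v < r ^ 2} := by
    refine isOpen_lt ?_ continuous_const
    unfold J.bil
    exact continuous_finsetSum _ fun i _ => continuous_finsetSum _ fun j _ =>
      ((continuous_apply i).mul (continuous_apply j)).mul continuous_const
  have hB : {v : J.E n | J.bil A v v < r ^ 2} ∈ 𝓝 (0 : J.E n) := hbo.mem_nhds h0r
  have hec : ContinuousAt e 0 := he.cont.continuousAt hB
  have e1 : ∀ᶠ w in 𝓝 (0 : J.E n), e w ∈ Ω := by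
    refine hec.eventually_mem (hΩ.mem_nhds ?_)
    rw [he.zero]; exact hxΩ
  have e2 : ∀ᶠ w in 𝓝 (0 : J.E n), e w ∈ (c x).source := by
    refine hec.eventually_mem ((c x).open_source.mem_nhds ?_)
    rw [he.zero]; exact (hc x).1
  have e3 : ∀ᶠ w in 𝓝 (0 : J.E n), ContDiffAt ℝ 1 F w :=
    (hcs.of_le (by simp)).eventually (by simp)
  have hfc : ContinuousAt (fderiv ℝ F) 0 := by
    have h1 : ContDiffAt ℝ 1 F 0 := hcs.of_le (by simp)
    exact (h1.fderiv_right (m := 0) (by simp)).continuousAt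
  have hGc : ContinuousAt (fun y => √(g x y).det) (F 0) := by
    rw [hF0]
    have h1 : ∀ i j, ContinuousAt (fun y => g x y i j) (c x x) := fun i j =>
      ((hg x x (hc x).1).1 i j).continuousAt
    have h2 : ContinuousAt (fun y => g x y) (c x x) :=
      continuousAt_pi.2 fun i => continuousAt_pi.2 fun j => h1 i j
    exact Real.continuous_sqrt.continuousAt.comp
      ((Continuous.matrix_det continuous_id).continuousAt.comp h2)
  have hprod : ContinuousAt (fun w => |(fderiv ℝ F w).det| * √(g x (F w)).det) 0 := by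
    refine ContinuousAt.mul ?_ (ContinuousAt.comp (g := fun y => √(g x y).det) (f := F) hGc
      hcs.continuousAt)
    exact continuous_abs.continuousAt.comp
      (ContinuousLinearMap.continuous_det.continuousAt.comp hfc)
  have hval : |(fderiv ℝ F 0).det| * √(g x (F 0)).det = √A.det := by
    rw [hF0, show fderiv ℝ F 0 = ContinuousLinearMap.id ℝ (J.E n) from he.fderiv_zero]
    have h4 : (ContinuousLinearMap.id ℝ (J.E n)).det = 1 := LinearMap.det_id
    rw [h4, abs_one, one_mul]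
  have e4 : ∀ᶠ w in 𝓝 (0 : J.E n), √A.det / 4 < |(fderiv ℝ F w).det| * √(g x (F w)).det := by
    refine hprod.eventually_const_lt ?_
    change √A.det / 4 < |(fderiv ℝ F 0).det| * √(g x (F 0)).det
    rw [hval]
    have := Real.sqrt_pos.2 hAdet
    linarith
  obtain ⟨δ, hδ, hδW⟩ := bA_small hA (W := {w | w ∈ {v : J.E n | J.bil A v v < r ^ 2} ∧ e w ∈ Ω ∧
    e w ∈ (c x).source ∧ ContDiffAt ℝ 1 F w ∧
      √A.det / 4 < |(fderiv ℝ F w).det| * √(g x (F w)).det})
    (by filter_upwards [hB, e1, e2, e3, e4] with w h1 h2 h3 h4 h5 using ⟨h1, h2, h3, h4, h5⟩)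
  obtain ⟨s, hs0, hs1⟩ : ∃ s, 0 < s ∧ s < min (min δ η) r :=
    exists_between (lt_min (lt_min hδ hη) hr)
  have hsδ : s ≤ δ := hs1.le.trans ((min_le_left _ _).trans (min_le_left _ _))
  have hsη : s < η := hs1.trans_le ((min_le_left _ _).trans (min_le_right _ _))
  have hsr : s ≤ r := hs1.le.trans (min_le_right _ _)
  refine ⟨s, hs0, hsη, ?_⟩
  have hW := hδW s hs0 hsδ
  have hbs : {w | nrm c g x w < s} = bA A s := by
    ext w
    change √(J.bil (g x (c x x)) w w) < s ↔ J.bil A w w < s ^ 2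
    rw [Real.sqrt_lt' hs0]
  rw [hbal s hs0 hsr, hbs]
  have hbm : MeasurableSet (bA A s) := by
    refine (isOpen_lt ?_ continuous_const).measurableSet
    unfold J.bil
    exact continuous_finsetSum _ fun i _ => continuous_finsetSum _ fun j _ =>
      ((continuous_apply i).mul (continuous_apply j)).mul continuous_const
  have hinj : InjOn F (bA A s) := by
    intro w hw w' hw' h
    have h1 := (c x).injOn (hW hw).2.2.1 (hW hw').2.2.1 h
    exact he.inj (hW hw).1 (hW hw').1 h1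
  have hd : ∀ w ∈ bA A s, HasFDerivWithinAt F (fderiv ℝ F w) (bA A s) w := fun w hw =>
    ((hW hw).2.2.2.1.differentiableAt (by simp)).hasFDerivAt.hasFDerivWithinAt
  have h1 : (c x).symm '' (F '' bA A s) ⊆ Ω ∩ e '' bA A s := by
    rintro _ ⟨_, ⟨w, hw, rfl⟩, rfl⟩
    have h2 : (c x).symm (F w) = e w := (c x).left_inv (hW hw).2.2.1
    rw [h2]
    exact ⟨(hW hw).2.1, w, hw, rfl⟩
  refine le_trans ?_ (measure_mono h1)
  rw [hμ x (F '' bA A s) (by
    rintro _ ⟨w, hw, rfl⟩
    exact (c x).map_source (hW hw).2.2.1) (measurable_image_of_fderivWithin hbm hd hinj),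
    lintegral_image_eq_lintegral_abs_det_fderiv_mul volume hbm hd hinj]
  have h2 : ENNReal.ofReal (V / 4 * s ^ n) = ∫⁻ w in bA A s, ENNReal.ofReal (√A.det / 4) := by
    rw [setLIntegral_const]
    have h3 := vol_bA hA hs0
    have h4 : ENNReal.ofReal (√A.det / 4) = ENNReal.ofReal (1 / 4) * ENNReal.ofReal √A.det := by
      rw [← ENNReal.ofReal_mul (by norm_num)]
      congr 1
      ring
    rw [h4, mul_assoc, h3, ← ENNReal.ofReal_toReal (ub_ne_top (n := n)), ← hV,
      ← ENNReal.ofReal_mul (by positivity), ← ENNReal.ofReal_mul (by norm_num)]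
    congr 1
    ring
  rw [h2]
  refine setLIntegral_mono' hbm fun w hw => ?_
  rw [← ENNReal.ofReal_mul (abs_nonneg _)]
  exact ENNReal.ofReal_le_ofReal (hW hw).2.2.2.2.le

end Vale.Agent.P223.H765.Den
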