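import Vale.Agent.P223.H765.Liou3

/-! P223: Liouville's theorem for isometric immersions into the light cone. -/

namespace Vale.Agent.P223.H765

open scoped ContDiff Topology
open Vale.Agent.P223.H (E)

section
variable {n : ℕ} {G : E n → Matrix (Fin n) (Fin n) ℝ} {U : Set (E n)}
  {F F' : E n → Fin (n + 2) → ℝ} {y₀ : E n}

theorem three_le : ((3 : ℕ) : WithTop ℕ∞) ≤ ∞ :=
  WithTop.coe_le_coe.2 (le_top (a := ((3 : ℕ) : ℕ∞)))

/-- existence of local solutions -/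
theorem exists_LSol (h : Lcf G y₀) : ∃ (U : Set (E n)) (F : E n → Fin (n + 2) → ℝ), IsOpen U ∧
    y₀ ∈ U ∧ LSol G U F ∧ ∀ y ∈ U, 0 < F y (Fin.last _) := by
  obtain ⟨U, f, h, hU, hy, hf, hh, hG⟩ := h
  have df : ∀ y ∈ U, DifferentiableAt ℝ f y := fun y hy =>
    (hf.contDiffAt (hU.mem_nhds hy)).differentiableAt (by simp)
  have dh : ∀ y ∈ U, DifferentiableAt ℝ h y := fun y hy =>
    (hh.contDiffAt (hU.mem_nhds hy)).differentiableAt (by simp)
  have dM : ∀ y ∈ U, DifferentiableAt ℝ (fun y => MM (f y)) y := fun y hy =>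
    (MM_smooth.differentiable (by simp) (f y)).comp y (df y hy)
  refine ⟨U, fun y => Real.exp (h y) • MM (f y), hU, hy, ⟨?_, fun y _ => ?_, fun y hy v w => ?_⟩,
    fun y _ => ?_⟩
  · exact (Real.contDiff_exp.comp_contDiffOn hh).smul (MM_smooth.comp_contDiffOn hf)
  · rw [mkp_smul_left, mkp_smul_right, MM_null]; simp
  · have h1 : ∀ x, fderiv ℝ (fun y => MM (f y)) y x = cmb (fderiv ℝ f y x)
        (-∑ k, f y k * fderiv ℝ f y x k) (∑ k, f y k * fderiv ℝ f y x k) := by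
      intro x
      have := (MM_smooth.differentiable (by simp) (f y)).hasFDerivAt.comp y (df y hy).hasFDerivAt
      have e : (fun y => MM (f y)) = MM ∘ f := rfl
      rw [e, this.fderiv, ContinuousLinearMap.comp_apply, MM_deriv]
    rw [scale_iso (dh y hy).exp (dM y hy) (MM_null _)
      (fun x => null_deriv hU dM (fun y _ => MM_null _) hy x), h1, h1, mkp_cmb, hG y hy v w,
      ← Real.exp_nat_mul]
    push_cast
    ring
  · change 0 < Real.exp (h y) * MM (f y) (Fin.last _)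
    refine mul_pos (Real.exp_pos _) ?_
    have : MM (f y) (Fin.last _) = (1 + ∑ k, f y k ^ 2) / 2 := by simp [MM, cmb]
    rw [this]
    have h2 : 0 ≤ ∑ k, f y k ^ 2 := Finset.sum_nonneg fun _ _ => sq_nonneg _
    positivity

theorem quad_pos (hG : (G y₀).PosDef) {v : E n} (hv : v ≠ 0) :
    0 < ∑ a, ∑ b, G y₀ a b * v a * v b := by
  have h1 := hG.dotProduct_mulVec_pos hv
  have h2 : star v ⬝ᵥ (G y₀).mulVec v = ∑ a, ∑ b, G y₀ a b * v a * v b := by
    rw [star_trivial, dotProduct]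
    refine Finset.sum_congr rfl fun a _ => ?_
    rw [Matrix.mulVec, dotProduct, Finset.mul_sum]
    exact Finset.sum_congr rfl fun b _ => by ring
  rwa [h2] at h1

/-- reduction to the flat metric -/
theorem flat_of (hG : (G y₀).PosDef) (hL : Lcf G y₀) (hU : IsOpen U) (hy : y₀ ∈ U) :
    ∃ (f φ : E n → E n) (h : E n → ℝ) (V : Set (E n)), IsOpen V ∧ IsPreconnected V ∧ f y₀ ∈ V ∧
      (∀ᶠ y in 𝓝 y₀, f y ∈ V ∧ φ (f y) = y) ∧ (∀ z ∈ V, φ z ∈ U) ∧
      ∀ F, LSol G U F → Fl V (fun z => Real.exp (-h (φ z)) • F (φ z)) := by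
  obtain ⟨U₀, f, h, hU₀, hy₀, hf, hh, hGf⟩ := hL
  have cf : ∀ y ∈ U₀, ContDiffAt ℝ ∞ f y := fun y hy => hf.contDiffAt (hU₀.mem_nhds hy)
  have ch : ∀ y ∈ U₀, ContDiffAt ℝ ∞ h y := fun y hy => hh.contDiffAt (hU₀.mem_nhds hy)
  have hinj : Function.Injective (fderiv ℝ f y₀ : E n →ₗ[ℝ] E n) := by
    rw [injective_iff_map_eq_zero]
    intro v hv
    by_contra hne
    have h1 := quad_pos hG hne
    rw [hGf y₀ hy₀] at h1
    have h2 : fderiv ℝ f y₀ v = 0 := hv
    simp [h2] at h1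
  let e := (LinearEquiv.ofInjectiveEndo _ hinj).toContinuousLinearEquiv
  have he : (e : E n →L[ℝ] E n) = fderiv ℝ f y₀ := by
    ext1 v
    rfl
  have cf3 : ContDiffAt ℝ (3 : ℕ) f y₀ := (cf y₀ hy₀).of_le three_le
  have hf' : HasFDerivAt f (e : E n →L[ℝ] E n) y₀ := by
    rw [he]
    exact (cf3.differentiableAt (by norm_num)).hasFDerivAt
  have hstr := cf3.hasStrictFDerivAt' hf' (by norm_num)
  set φ := cf3.localInverse hf' (by norm_num) with hφ
  have hφ0 : φ (f y₀) = y₀ := cf3.localInverse_apply_image hf' (by norm_num)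
  have cφ : ContDiffAt ℝ (3 : ℕ) φ (f y₀) := cf3.to_localInverse hf' (by norm_num)
  have hl : ∀ᶠ y in 𝓝 y₀, φ (f y) = y := hstr.eventually_left_inverse
  have hr : ∀ᶠ z in 𝓝 (f y₀), f (φ z) = z := hstr.eventually_right_inverse
  have h1 : ∀ᶠ z in 𝓝 (f y₀), (φ z ∈ U ∩ U₀) ∧ ContDiffAt ℝ (3 : ℕ) φ z ∧
      ∀ᶠ z' in 𝓝 z, f (φ z') = z' := by
    have h2 : ∀ᶠ z in 𝓝 (f y₀), φ z ∈ U ∩ U₀ := by
      refine cφ.continuousAt.eventually_mem ?_
      rw [hφ0]
      exact (hU.inter hU₀).mem_nhds ⟨hy, hy₀⟩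
    exact h2.and ((cφ.eventually (by simp)).and (eventually_eventually_nhds.2 hr))
  obtain ⟨r, hr0, hball⟩ := Metric.eventually_nhds_iff_ball.1 h1
  refine ⟨f, φ, h, Metric.ball (f y₀) r, Metric.isOpen_ball,
    (convex_ball _ _).isPreconnected, Metric.mem_ball_self hr0, ?_, fun z hz => (hball z hz).1.1,
    fun F hF => ⟨fun z hz => ?_, fun z hz => ?_, fun z hz i j => ?_⟩⟩
  · exact ((cf y₀ hy₀).continuousAt.eventually_mem (Metric.ball_mem_nhds _ hr0)).and hl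
  · obtain ⟨⟨m1, m2⟩, m3, -⟩ := hball z hz
    have c1 : ContDiffAt ℝ (3 : ℕ) (fun z => F (φ z)) z :=
      ((hF.cd hU m1).of_le three_le).comp z m3
    have c2 : ContDiffAt ℝ (3 : ℕ) (fun z => h (φ z)) z :=
      ((ch _ m2).of_le three_le).comp z m3
    exact (Real.contDiff_exp.contDiffAt.comp z c2.neg).smul c1
  · rw [mkp_smul_left, mkp_smul_right, hF.null _ (hball z hz).1.1]
    simp
  · obtain ⟨⟨m1, m2⟩, m3, m4⟩ := hball z hz
    have dφ : DifferentiableAt ℝ φ z := m3.differentiableAt (by norm_num)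
    have dF : DifferentiableAt ℝ F (φ z) := hF.df hU m1
    have dh : DifferentiableAt ℝ h (φ z) := (ch _ m2).differentiableAt (by simp)
    have df : DifferentiableAt ℝ f (φ z) := (cf _ m2).differentiableAt (by simp)
    have k1 : ∀ x, fderiv ℝ (fun z => F (φ z)) z x = fderiv ℝ F (φ z) (fderiv ℝ φ z x) := by
      intro x
      have := dF.hasFDerivAt.comp z dφ.hasFDerivAt
      have e : (fun z => F (φ z)) = F ∘ φ := rfl
      rw [e, this.fderiv, ContinuousLinearMap.comp_apply]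
    have k2 : ∀ x, fderiv ℝ f (φ z) (fderiv ℝ φ z x) = x := by
      intro x
      have h3 := df.hasFDerivAt.comp z dφ.hasFDerivAt
      have h4 : (f ∘ φ) =ᶠ[𝓝 z] id := m4
      have h5 := h4.fderiv_eq (𝕜 := ℝ)
      rw [h3.fderiv, fderiv_id] at h5
      exact congrArg (fun L : E n →L[ℝ] E n => L x) h5
    have dd1 : DifferentiableAt ℝ (fun z => Real.exp (-h (φ z))) z :=
      ((dh.comp z dφ).fun_neg).exp
    have dd2 : DifferentiableAt ℝ (fun z => F (φ z)) z := dF.comp z dφ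
    unfold dd
    rw [scale_iso dd1 dd2 (hF.null _ m1) (fun x => by rw [k1]; exact hF.n1 hU m1 _), k1, k1,
      hF.iso _ m1, hGf _ m2, k2, k2, ← mul_assoc, ← Real.exp_nat_mul, ← Real.exp_add]
    have : ((2 : ℕ) : ℝ) * -h (φ z) + 2 * h (φ z) = 0 := by push_cast; ring
    rw [this, Real.exp_zero, one_mul]
    simp [Pi.single_apply, eq_comm]

/-- Liouville's theorem -/
theorem LSol.unique (hn : 3 ≤ n) (hG : (G y₀).PosDef) (hL : Lcf G y₀) (hU : IsOpen U)
    (hy : y₀ ∈ U) (h : LSol G U F) (h' : LSol G U F') :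
    ∃ A : Matrix (Fin (n + 2)) (Fin (n + 2)) ℝ,
      (∀ v w, mkp (A.mulVec v) (A.mulVec w) = mkp v w) ∧ ∀ᶠ y in 𝓝 y₀, F' y = A.mulVec (F y) := by
  obtain ⟨f, φ, s, V, hV, hc, hz, hev, hVU, hfl⟩ := flat_of hG hL hU hy
  obtain ⟨A, hA, h1⟩ := (hfl F h).unique hn hV hc hz (hfl F' h')
  refine ⟨A, hA, ?_⟩
  filter_upwards [hev] with y hy'
  have h2 := h1 (f y) hy'.1
  simp only [hy'.2] at h2
  rw [Matrix.mulVec_smul] at h2
  exact (smul_right_inj (Real.exp_pos (-s y)).ne').1 h2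

/-- The solution determines the Lorentz transformation. -/
theorem LSol.inj (hn : 1 ≤ n) (hG : (G y₀).PosDef) (hL : Lcf G y₀) (hU : IsOpen U)
    (hy : y₀ ∈ U) (h : LSol G U F) {A A' : Matrix (Fin (n + 2)) (Fin (n + 2)) ℝ}
    (hA : ∀ᶠ y in 𝓝 y₀, A.mulVec (F y) = A'.mulVec (F y)) : A = A' := by
  obtain ⟨W, hW1, hW2, hW3⟩ := eventually_nhds_iff.1 hA
  obtain ⟨f, φ, s, V, hV, hc, hz, hev, hVU, hfl⟩ := flat_of (U := U ∩ W) hG hL (hU.inter hW2)
    ⟨hy, hW3⟩
  have hF := hfl F (h.mono Set.inter_subset_left)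
  set u : E n → Fin (n + 2) → ℝ := fun z => Real.exp (-s (φ z)) • F (φ z) with hu
  set B := A - A' with hB
  have h0 : ∀ z ∈ V, B.mulVec (u z) = 0 := by
    intro z hz
    rw [hu]
    simp only
    rw [Matrix.mulVec_smul, hB, Matrix.sub_mulVec, hW1 _ (hVU z hz).2, sub_self, smul_zero]
  have h1 : ∀ i, ∀ z ∈ V, B.mulVec (dd i u z) = 0 := by
    intro i z hz
    rw [← dd_mulVec B (hF.d0 z hz), dd_congr hV (w' := fun _ => 0) h0 i z hz, dd_const]
  have h2 : ∀ i j, ∀ z ∈ V, B.mulVec (dd i (dd j u) z) = 0 := by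
    intro i j z hz
    rw [← dd_mulVec B (hF.d1 j z hz), dd_congr hV (w' := fun _ => 0) (h1 j) i z hz, dd_const]
  obtain ⟨i⟩ : Nonempty (Fin n) := ⟨⟨0, by omega⟩⟩
  have h3 := hF.nf hV i hz
  have h4 : B = 0 := by
    refine Matrix.toLin'.injective (LinearMap.ext fun x => ?_)
    rw [Matrix.toLin'_apply, map_zero, LinearMap.zero_apply, h3.expand x]
    simp only [Matrix.mulVec_add, Matrix.mulVec_smul, Matrix.mulVec_sub, Matrix.mulVec_neg,
      h0 _ hz, h2 _ _ _ hz]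
    have h5 : ∀ c : Fin n → ℝ, B.mulVec (∑ k, c k • dd k u (f y₀)) = 0 := by
      intro c
      have := map_sum B.mulVecLin (fun k => c k • dd k u (f y₀)) Finset.univ
      simp only [Matrix.mulVecLin_apply, Matrix.mulVec_smul, h1 _ _ hz, smul_zero,
        Finset.sum_const_zero] at this
      exact this
    rw [h5]
    simp
  exact sub_eq_zero.1 h4

/-- Solutions do not vanish. -/
theorem LSol.ne (hn : 1 ≤ n) (hG : (G y₀).PosDef) (hU : IsOpen U) (hy : y₀ ∈ U)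
    (h : LSol G U F) : F y₀ ≠ 0 := by
  intro h0
  obtain ⟨i⟩ : Nonempty (Fin n) := ⟨⟨0, by omega⟩⟩
  have h1 := dd_congr hU (w := fun z => mkp (F z) (dd i F z)) (w' := fun _ => (0 : ℝ))
    (fun z hz => h.n1 hU hz _) i y₀ hy
  have d1 : DifferentiableAt ℝ (dd i F) y₀ :=
    ((((h.cd hU hy).fderiv_right (m := ∞) (by simp)).clm_apply contDiffAt_const)).differentiableAt
      (by simp)
  rw [dd_mkp (h.df hU hy) d1, dd_const, h0, mkp_zero_left, add_zero] at h1
  have h2 := h.iso y₀ hy (Pi.single i 1) (Pi.single i 1)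
  unfold dd at h1
  rw [h1] at h2
  have h3 := quad_pos hG (v := Pi.single i 1) (by simp)
  linarith

end

end Vale.Agent.P223.H765
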