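import Vale.Agent.P223.H566.Spec

/-! P223: alternation of bounded cocycles of `Γ`. -/

namespace Vale.Agent.P223.H765

open Equiv

section
variable {Γ : Type} {n : ℕ}

/-- alternation -/
noncomputable def altF (F : (Fin (n + 1) → Γ) → ℝ) (g : Fin (n + 1) → Γ) : ℝ :=
  (((n + 1).factorial : ℕ) : ℝ)⁻¹ * ∑ σ : Perm (Fin (n + 1)), ((Perm.sign σ : ℤ) : ℝ) * F (g ∘ σ)

theorem altF_bdd {F : (Fin (n + 1) → Γ) → ℝ} (hF : ∀ g, |F g| ≤ 1) (g : Fin (n + 1) → Γ) :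
    |altF F g| ≤ 1 := by
  unfold altF
  rw [abs_mul, abs_inv, Nat.abs_cast, inv_mul_le_iff₀ (by positivity), mul_one]
  refine (Finset.abs_sum_le_sum_abs _ _).trans ?_
  have h : ∀ σ : Perm (Fin (n + 1)), |((Perm.sign σ : ℤ) : ℝ) * F (g ∘ σ)| ≤ 1 := by
    intro σ
    rw [abs_mul]
    rcases Int.units_eq_one_or (Perm.sign σ) with h | h <;> rw [h] <;> simpa using hF _
  refine (Finset.sum_le_sum fun σ _ => h σ).trans ?_
  rw [Finset.sum_const, Finset.card_univ, Fintype.card_perm, Fintype.card_fin, nsmul_eq_mul,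
    mul_one]

theorem altF_alt (F : (Fin (n + 1) → Γ) → ℝ) (τ : Perm (Fin (n + 1))) (g : Fin (n + 1) → Γ) :
    altF F (g ∘ τ) = ((Perm.sign τ : ℤ) : ℝ) * altF F g := by
  unfold altF
  rw [mul_left_comm]
  congr 1
  rw [Finset.mul_sum, ← Equiv.sum_comp (Equiv.mulLeft τ⁻¹)]
  refine Finset.sum_congr rfl fun σ _ => ?_
  rw [Equiv.coe_mulLeft, ← mul_assoc, Perm.sign_mul, Perm.sign_inv, Units.val_mul, Int.cast_mul,
    Function.comp_assoc, ← Perm.coe_mul, mul_inv_cancel_left]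

theorem altF_inv [Group Γ] {F : (Fin (n + 1) → Γ) → ℝ}
    (hF : ∀ (γ : Γ) g, F (fun i => γ * g i) = F g) (γ : Γ) (g : Fin (n + 1) → Γ) :
    altF F (fun i => γ * g i) = altF F g := by
  unfold altF
  congr 1
  exact Finset.sum_congr rfl fun σ _ => congrArg _ (hF γ (g ∘ σ))

/-- decomposition of permutations -/
def dec (p : Fin (n + 2) × Perm (Fin (n + 1))) : Perm (Fin (n + 2)) :=
  (Fin.cycleRange p.1)⁻¹ * Equiv.Perm.decomposeFin.symm (0, p.2)

theorem dec_zero (p : Fin (n + 2) × Perm (Fin (n + 1))) : dec p 0 = p.1 := by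
  unfold dec
  rw [Perm.mul_apply, Perm.decomposeFin_symm_apply_zero]
  rw [Perm.inv_eq_iff_eq, Fin.cycleRange_self]

theorem dec_succ (p : Fin (n + 2) × Perm (Fin (n + 1))) (i : Fin (n + 1)) :
    dec p i.succ = p.1.succAbove (p.2 i) := by
  unfold dec
  rw [Perm.mul_apply, Perm.decomposeFin_symm_apply_succ, Perm.inv_eq_iff_eq,
    Fin.cycleRange_succAbove, Equiv.swap_self]
  rfl

theorem dec_bij : Function.Bijective (dec (n := n)) := by
  rw [Fintype.bijective_iff_injective_and_card]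
  constructor
  · rintro ⟨a, σ⟩ ⟨b, τ⟩ h
    have h0 : a = b := by
      have := congrArg (fun e : Perm (Fin (n + 2)) => e 0) h
      simpa only [dec_zero] using this
    subst h0
    refine Prod.ext rfl (Equiv.ext fun i => ?_)
    have := congrArg (fun e : Perm (Fin (n + 2)) => e i.succ) h
    simp only [dec_succ] at this
    exact Fin.succAbove_right_injective this
  · rw [Fintype.card_prod, Fintype.card_perm, Fintype.card_perm, Fintype.card_fin,
      Fintype.card_fin, Nat.factorial_succ (n + 1)]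

theorem sign_dec (p : Fin (n + 2) × Perm (Fin (n + 1))) :
    ((Perm.sign (dec p) : ℤ) : ℝ) = (-1) ^ (p.1 : ℕ) * ((Perm.sign p.2 : ℤ) : ℝ) := by
  unfold dec
  rw [Perm.sign_mul, Perm.sign_inv, Fin.sign_cycleRange, Perm.decomposeFin.symm_sign]
  simp

theorem altF_coc {F : (Fin (n + 1) → Γ) → ℝ}
    (hF : ∀ g : Fin (n + 2) → Γ, ∑ k : Fin (n + 2), (-1 : ℝ) ^ (k : ℕ) * F (g ∘ k.succAbove) = 0)
    (g : Fin (n + 2) → Γ) :
    ∑ k : Fin (n + 2), (-1 : ℝ) ^ (k : ℕ) * altF F (g ∘ k.succAbove) = 0 := by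
  have h1 : ∀ j : Fin (n + 2), ∑ τ : Perm (Fin (n + 2)), ((Perm.sign τ : ℤ) : ℝ) *
      ((-1 : ℝ) ^ (j : ℕ) * F (g ∘ τ ∘ j.succAbove)) =
      ∑ τ : Perm (Fin (n + 2)), ((Perm.sign τ : ℤ) : ℝ) * F (g ∘ τ ∘ Fin.succ) := by
    intro j
    rw [← Equiv.sum_comp (Equiv.mulRight (Fin.cycleRange j))]
    refine Finset.sum_congr rfl fun τ _ => ?_
    rw [Equiv.coe_mulRight, Perm.sign_mul, Fin.sign_cycleRange]
    have h2 : ⇑(τ * j.cycleRange) ∘ j.succAbove = τ ∘ Fin.succ := by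
      funext i
      simp [Fin.cycleRange_succAbove]
    rw [h2]
    have h3 : ((-1 : ℝ) ^ (j : ℕ)) * (-1 : ℝ) ^ (j : ℕ) = 1 := by
      rw [← mul_pow]; simp
    push_cast
    calc _ = ((Perm.sign τ : ℤ) : ℝ) * (((-1 : ℝ) ^ (j : ℕ)) * (-1 : ℝ) ^ (j : ℕ)) *
          F (g ∘ τ ∘ Fin.succ) := by ring
      _ = _ := by rw [h3, mul_one]
  have h2 : ∑ τ : Perm (Fin (n + 2)), ((Perm.sign τ : ℤ) : ℝ) * F (g ∘ τ ∘ Fin.succ) = 0 := by
    have h3 : ∑ j : Fin (n + 2), ∑ τ : Perm (Fin (n + 2)), ((Perm.sign τ : ℤ) : ℝ) *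
      ((-1 : ℝ) ^ (j : ℕ) * F (g ∘ τ ∘ j.succAbove)) = 0 := by
      rw [Finset.sum_comm]
      refine Finset.sum_eq_zero fun τ _ => ?_
      rw [← Finset.mul_sum]
      have := hF (g ∘ τ)
      simp only [Function.comp_assoc] at this
      rw [this, mul_zero]
    rw [Finset.sum_congr rfl fun j _ => h1 j, Finset.sum_const, Finset.card_univ,
      Fintype.card_fin, nsmul_eq_mul, mul_eq_zero] at h3
    rcases h3 with h3 | h3
    · exact absurd h3 (by positivity)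
    · exact h3
  have h4 : ∑ τ : Perm (Fin (n + 2)), ((Perm.sign τ : ℤ) : ℝ) * F (g ∘ τ ∘ Fin.succ) =
      ∑ p : Fin (n + 2) × Perm (Fin (n + 1)), (-1 : ℝ) ^ (p.1 : ℕ) *
        (((Perm.sign p.2 : ℤ) : ℝ) * F ((g ∘ p.1.succAbove) ∘ p.2)) := by
    rw [← (dec_bij (n := n)).sum_comp]
    refine Finset.sum_congr rfl fun p _ => ?_
    rw [sign_dec, mul_assoc]
    have : (dec p) ∘ Fin.succ = p.1.succAbove ∘ p.2 := funext fun i => dec_succ p i
    rw [this]; rfl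
  rw [h4, Fintype.sum_prod_type] at h2
  unfold altF
  simp only [← Finset.mul_sum] at h2
  calc _ = (((n + 1).factorial : ℕ) : ℝ)⁻¹ * ∑ x : Fin (n + 2), (-1 : ℝ) ^ (x : ℕ) *
        ∑ i : Perm (Fin (n + 1)), ((Perm.sign i : ℤ) : ℝ) * F ((g ∘ x.succAbove) ∘ i) := by
        rw [Finset.mul_sum]
        exact Finset.sum_congr rfl fun x _ => by ring
    _ = 0 := by rw [h2, mul_zero]

theorem cocG_altF [Group Γ] {F : (Fin (n + 1) → Γ) → ℝ} (h1 : ∀ g, |F g| ≤ 1)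
    (h2 : ∀ (γ : Γ) g, F (fun i => γ * g i) = F g)
    (h3 : ∀ g : Fin (n + 2) → Γ, ∑ k : Fin (n + 2), (-1 : ℝ) ^ (k : ℕ) * F (g ∘ k.succAbove) = 0) :
    H566.Coc (altF F) := ⟨altF_bdd h1, altF_inv h2, altF_alt F, altF_coc h3⟩

end

end Vale.Agent.P223.H765
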