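import Vale.Agent.P223.X.All
import Vale.Agent.P223.H765.Alt

/-! P223: if all bounded alternating cocycles pair to `0` with the weights then `svX C = 0`. -/

namespace Vale.Agent.P223.H765

open scoped ContDiff
open MeasureTheory Vale.Agent.P223.H Vale.Agent.P223.X

section
variable {n : ℕ} {M X Γ I : Type} [TopologicalSpace M] [TopologicalSpace X] [Group Γ]
    [MulAction Γ X] {C : Cov n M X Γ I} {ι : Type}

/-- permutation of normalised labels -/
def permNL (σ : Equiv.Perm (Fin (n + 1))) : B6c.NL Γ ι n ≃ B6c.NL Γ ι n where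
  toFun l := ⟨B6c.tr (l.1 (σ 0)).1⁻¹ (l.1 ∘ σ), by simp [B6c.tr]⟩
  invFun l := ⟨B6c.tr (l.1 (σ.symm 0)).1⁻¹ (l.1 ∘ σ.symm), by simp [B6c.tr]⟩
  left_inv l := by
    refine Subtype.ext (funext fun k => Prod.ext ?_ ?_)
    · have := l.2
      simp [B6c.tr, this]
    · simp [B6c.tr]
  right_inv l := by
    refine Subtype.ext (funext fun k => Prod.ext ?_ ?_)
    · have := l.2
      simp [B6c.tr, this]
    · simp [B6c.tr]

variable [T2Space X] [Fintype I] {χ : I → E n → ℝ} [Fintype ι]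

theorem wt_perm (hn : 1 ≤ n) (hχ : Part C χ) (P : PUX C ι) (σ : Equiv.Perm (Fin (n + 1)))
    (l : Fin (n + 1) → Γ × ι) :
    P.wt χ (l ∘ σ) = ((Equiv.Perm.sign σ : ℤ) : ℝ) * P.wt χ l :=
  AltX.wtX_perm hn hχ (f := fun k => P.fn (l k)) (fun _ => WtX.fn_cc P _) σ

theorem pair_perm (hn : 1 ≤ n) (hχ : Part C χ) (P : PUX C ι) (σ : Equiv.Perm (Fin (n + 1)))
    (F : (Fin (n + 1) → Γ) → ℝ) (hF : ∀ (γ : Γ) g, F (fun i => γ * g i) = F g) :
    ∑ᶠ l : B6c.NL Γ ι n, P.wt χ l.1 * F ((fun k => (l.1 k).1) ∘ σ) =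
      ((Equiv.Perm.sign σ : ℤ) : ℝ) * ∑ᶠ l : B6c.NL Γ ι n, P.wt χ l.1 * F (fun k => (l.1 k).1) := by
  have hs : ((Equiv.Perm.sign σ : ℤ) : ℝ) * ((Equiv.Perm.sign σ : ℤ) : ℝ) = 1 := by
    rcases Int.units_eq_one_or (Equiv.Perm.sign σ) with h | h <;> rw [h] <;> simp
  set f : B6c.NL Γ ι n → ℝ := fun l => P.wt χ l.1 * F (fun k => (l.1 k).1) with hf
  calc ∑ᶠ l : B6c.NL Γ ι n, P.wt χ l.1 * F ((fun k => (l.1 k).1) ∘ σ)
      = ∑ᶠ l : B6c.NL Γ ι n, ((Equiv.Perm.sign σ : ℤ) : ℝ) • f (permNL σ l) := by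
        refine finsum_congr fun l => ?_
        have h1 : P.wt χ (permNL σ l).1 = ((Equiv.Perm.sign σ : ℤ) : ℝ) * P.wt χ l.1 :=
          ((Form.good_wt P).inv _ _).trans (wt_perm hn hχ P σ l.1)
        have h2 : F (fun k => ((permNL σ l).1 k).1) = F ((fun k => (l.1 k).1) ∘ σ) := hF _ _
        rw [hf]
        dsimp only
        rw [h1, h2, smul_eq_mul, ← mul_assoc, ← mul_assoc, hs, one_mul]
    _ = ((Equiv.Perm.sign σ : ℤ) : ℝ) • ∑ᶠ l : B6c.NL Γ ι n, f (permNL σ l) := (smul_finsum _ _).symm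
    _ = ((Equiv.Perm.sign σ : ℤ) : ℝ) * ∑ᶠ l : B6c.NL Γ ι n, f l := by
        rw [smul_eq_mul, finsum_comp_equiv (permNL σ) (f := f)]

/-- The pairing does not change if the cocycle is alternated. -/
theorem pair_altF (hn : 1 ≤ n) (hχ : Part C χ) (P : PUX C ι)
    (F : (Fin (n + 1) → Γ) → ℝ) (hF : ∀ (γ : Γ) g, F (fun i => γ * g i) = F g) :
    ∑ᶠ l ∈ {l : Fin (n + 1) → Γ × ι | (l 0).1 = 1}, P.wt χ l * altF F (fun k => (l k).1) =
      ∑ᶠ l ∈ {l : Fin (n + 1) → Γ × ι | (l 0).1 = 1}, P.wt χ l * F (fun k => (l k).1) := by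
  rw [← finsum_set_coe_eq_finsum_mem, ← finsum_set_coe_eq_finsum_mem]
  have hfin := (Form.good_wt (χ := χ) P).fin
  have h1 : ∀ l : B6c.NL Γ ι n, P.wt χ l.1 * altF F (fun k => (l.1 k).1) =
      ∑ σ : Equiv.Perm (Fin (n + 1)), ((((n + 1).factorial : ℕ) : ℝ)⁻¹ *
        ((Equiv.Perm.sign σ : ℤ) : ℝ)) • (P.wt χ l.1 * F ((fun k => (l.1 k).1) ∘ σ)) := by
    intro l
    unfold altF
    rw [Finset.mul_sum, Finset.mul_sum]
    exact Finset.sum_congr rfl fun σ _ => by rw [smul_eq_mul]; ring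
  change ∑ᶠ l : B6c.NL Γ ι n, P.wt χ l.1 * altF F (fun k => (l.1 k).1) =
    ∑ᶠ l : B6c.NL Γ ι n, P.wt χ l.1 * F (fun k => (l.1 k).1)
  rw [finsum_congr h1, finsum_sum_comm]
  · have h2 : ∀ σ : Equiv.Perm (Fin (n + 1)), ∑ᶠ l : B6c.NL Γ ι n, ((((n + 1).factorial : ℕ) : ℝ)⁻¹ *
        ((Equiv.Perm.sign σ : ℤ) : ℝ)) • (P.wt χ l.1 * F ((fun k => (l.1 k).1) ∘ σ)) =
        (((n + 1).factorial : ℕ) : ℝ)⁻¹ * ∑ᶠ l : B6c.NL Γ ι n, P.wt χ l.1 * F (fun k => (l.1 k).1) := by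
      intro σ
      have hs : ((Equiv.Perm.sign σ : ℤ) : ℝ) * ((Equiv.Perm.sign σ : ℤ) : ℝ) = 1 := by
        rcases Int.units_eq_one_or (Equiv.Perm.sign σ) with h | h <;> rw [h] <;> simp
      rw [← smul_finsum, pair_perm hn hχ P σ F hF, smul_eq_mul, mul_assoc, ← mul_assoc _ _ (∑ᶠ _, _),
        hs, one_mul]
    rw [Finset.sum_congr rfl fun σ _ => h2 σ, Finset.sum_const, Finset.card_univ,
      Fintype.card_perm, Fintype.card_fin, nsmul_eq_mul, ← mul_assoc, mul_inv_cancel₀, one_mul]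
    positivity
  · intro σ _
    refine hfin.subset fun l hl => ?_
    intro h0
    exact hl (by simp only [h0, zero_mul, smul_zero])

end

/-- If all bounded alternating cocycles pair to `0` with the weights then the simplicial volume
vanishes. -/
theorem svX_eq_zero {n : ℕ} {M X Γ I : Type} [TopologicalSpace M] [TopologicalSpace X] [Group Γ]
    [MulAction Γ X] [Fintype I] [T2Space X] [SimplyConnectedSpace X] [T2Space M]
    (C : Cov n M X Γ I) (hn : 1 ≤ n) (hinf : ∃ s : ℕ → X, MT.Dist Γ s) {χ : I → E n → ℝ}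
    (hχ : Part C χ) {ι : Type} [Fintype ι] (Q : PUX C ι)
    (h : ∀ F : (Fin (n + 1) → Γ) → ℝ, H566.Coc F →
      ∑ᶠ l ∈ {l : Fin (n + 1) → Γ × ι | (l 0).1 = 1}, Q.wt χ l * F (fun k => (l k).1) = 0) :
    svX C = 0 := by
  classical
  have : ContinuousConstSMul Γ X := ⟨C.cont⟩
  refine le_antisymm (ENNReal.le_of_forall_pos_le_add fun δ hδ _ => ?_) bot_le
  have hδ2 : (0 : ℝ) < (δ : ℝ) := by positivity
  obtain ⟨ι', _, P₀, q, S, hq, hinj, hvert, hfund⟩ := Vale.Agent.P223.X.fund n M X Γ I C χ hn hχ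
  set T : Set (Fin (n + 1) → Γ × ι') := {l | (l 0).1 = 1} with hT
  set z₀ := ∑ᶠ l ∈ T, Finsupp.single (C.π.comp (S l)) (P₀.wt χ l) with hz₀
  have hfin := FinX.main n M X Γ I C χ ι' P₀
  -- the chain as a finitely supported function
  let a : (Fin (n + 1) → Γ × ι') →₀ ℝ := Finsupp.onFinset hfin.toFinset
    (fun l => if (l 0).1 = 1 then P₀.wt χ l else 0) (by
      intro l hl
      rw [Set.Finite.mem_toFinset]
      by_cases h : (l 0).1 = 1
      · rw [if_pos h] at hl; exact ⟨h, hl⟩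
      · rw [if_neg h] at hl; exact absurd rfl hl)
  have ha : ∀ l, a l = if (l 0).1 = 1 then P₀.wt χ l else 0 := fun l => rfl
  have ha1 : ∀ l ∈ T, P₀.wt χ l = a l := fun l hl => (if_pos hl).symm
  have ha0 : ∀ l, l ∉ T → a l = 0 := fun l hl => if_neg hl
  have haw : ∀ l ∈ a.support, P₀.wt χ l ≠ 0 := by
    intro l hl h
    rw [Finsupp.mem_support_iff, ha, h, ite_self] at hl
    exact hl rfl
  have hz : z₀ = a.sum fun l r => Finsupp.single (C.π.comp (S l)) r :=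
    Vale.Agent.P223.X.Main.finsum_eq T _ a (fun l r => Finsupp.single (C.π.comp (S l)) r) ha0
      (fun l => Finsupp.single_zero _) fun l hl => by rw [ha1 l hl]
  have key : ∀ c : Chain (n + 1) M →ₗ[ℝ] ℝ, (∀ σ, |c (Finsupp.single σ 1)| ≤ 1) →
      (∀ w, c (bd (n + 1) w) = 0) → |c z₀| ≤ 0 := by
    intro c hc1 hc
    obtain ⟨F, hF1, hFi, hFc, hF⟩ := MT.mt M X Γ C.π C.orb hinf n c hn hc1 hc
    have h1 := hF ι' q (fun i j ⟨γ, h⟩ => (hq i j γ h).1) a S (fun l hl => hinj l (haw l hl))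
      (fun l hl i => hvert l (haw l hl) i) (by rw [← hz]; exact hfund.1) (fun β hβ => by
        rw [← Form.mainA n M X Γ I C χ hn hχ ι' P₀ β hβ]
        exact (Vale.Agent.P223.X.Main.finsum_eq T _ a
          (fun l r => r * ∑ i : Fin (n + 1), (-1 : ℝ) ^ (i : ℕ) * β (l ∘ i.succAbove)) ha0
          (fun l => zero_mul _) fun l hl => by rw [ha1 l hl]).symm)
    rw [hz, h1]
    have h2 := Form.main n M X Γ I C χ F hn hχ hFi hFc ι' ι P₀ Q
    have h3 : (a.sum fun l r => r * F fun i => (l i).1) =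
        ∑ᶠ l ∈ T, P₀.wt χ l * F fun k => (l k).1 :=
      (Vale.Agent.P223.X.Main.finsum_eq T _ a (fun l r => r * F fun i => (l i).1) ha0 (fun l => zero_mul _)
        fun l hl => by rw [ha1 l hl]).symm
    rw [h3, h2, ← pair_altF hn hχ Q F hFi, h _ (cocG_altF hF1 hFi hFc), abs_zero]
  obtain ⟨w, hw⟩ := MT.dual M n z₀ 0 key δ hδ2
  have h1 : svX C ≤ ENNReal.ofReal (l1 (z₀ + bd (n + 1) w)) :=
    iInf₂_le _ (Vale.Agent.P223.X.Main.isFund_add hfund w)
  calc svX C ≤ _ := h1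
    _ ≤ ENNReal.ofReal (0 + δ) := ENNReal.ofReal_le_ofReal hw
    _ = 0 + δ := by rw [zero_add, zero_add, ENNReal.ofReal_coe_nnreal]

/-- there is a smooth equivariant partition of unity -/
theorem exists_pus {n : ℕ} {M X Γ I : Type} [TopologicalSpace M] [TopologicalSpace X] [Group Γ]
    [MulAction Γ X] [Fintype I] [T2Space X] (C : Cov n M X Γ I) {χ : I → E n → ℝ}
    (hχ : Part C χ) : ∃ Q : PUX C I, Q.φ = (fun i => C.ex i (χ i)) ∧ ∀ j, C.Ck ∞ (Q.φ j) := by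
  have hc : ∀ i, HasCompactSupport (χ i) := fun i =>
    HasCompactSupport.of_support_subset_isCompact (isCompact_closedBall 0 2) fun y hy => by
      rw [mem_closedBall_zero_iff]
      by_contra h
      exact hy (hχ.supp i y (not_le.1 h).le)
  have hs : ∀ j, C.Ck ∞ (C.ex j (χ j)) := fun j => Vale.Agent.P223.X.Ck_ex C (hχ.smooth j) (hc j)
  refine ⟨⟨fun i => C.ex i (χ i), fun i => ?_, fun i => ?_, fun x => ?_⟩, rfl, hs⟩
  · exact fun γ j => contDiff_infty.1 (hs i γ j) 1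
  · exact Vale.Agent.P223.X.Avg.hcs_ex C (hc i)
  · rw [← hχ.sum x]
    refine Finset.sum_congr rfl fun i _ => ?_
    exact finsum_comp_equiv (Equiv.inv Γ) (f := fun γ : Γ => C.ex i (χ i) (γ • x))

theorem specEnd : H566.SpecEnd := fun _ _ _ _ _ _ _ _ _ _ _ _ _ C _ hn hχ hinf _ _ P h =>
  svX_eq_zero C hn hinf hχ P h

end Vale.Agent.P223.H765
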