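import Vale.Agent.P223.MathlibUsed
import Mathlib.Analysis.SpecialFunctions.JapaneseBracket
import Mathlib.MeasureTheory.Measure.Lebesgue.EqHaar
import Mathlib.MeasureTheory.Measure.Haar.NormedSpace
import Mathlib.MeasureTheory.Constructions.HaarToSphere

/-! P223: the integrals `∫ (μ² + |k|²)^(-J) dk`. -/

namespace Vale.Agent.P223.H765

open MeasureTheory

section
variable {n : ℕ}

/-- `|k|²` -/
def sq2 (k : Fin n → ℝ) : ℝ := ∑ j, k j ^ 2

theorem sq2_nonneg (k : Fin n → ℝ) : 0 ≤ sq2 k := Finset.sum_nonneg fun _ _ => sq_nonneg _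

theorem norm_sq_le_sq2 (k : Fin n → ℝ) : ‖k‖ ^ 2 ≤ sq2 k := by
  have h : ‖k‖ ≤ √(sq2 k) := by
    rw [pi_norm_le_iff_of_nonneg (Real.sqrt_nonneg _)]
    intro j
    refine Real.abs_le_sqrt ?_
    exact Finset.single_le_sum (f := fun j => k j ^ 2) (fun _ _ => sq_nonneg _) (Finset.mem_univ j)
  calc ‖k‖ ^ 2 ≤ √(sq2 k) ^ 2 := by gcongr
    _ = sq2 k := Real.sq_sqrt (sq2_nonneg k)

theorem continuous_sq2 : Continuous (sq2 (n := n)) := by
  unfold sq2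
  fun_prop

/-- the integrand -/
noncomputable def fJ (n J : ℕ) (k : Fin n → ℝ) : ℝ := (1 + sq2 k)⁻¹ ^ J

/-- `∫ (1 + |k|²)^(-J) dk` -/
noncomputable def cJ (n J : ℕ) : ℝ := ∫ k, fJ n J k

theorem fJ_pos (J : ℕ) (k : Fin n → ℝ) : 0 < fJ n J k := by
  have := sq2_nonneg k
  unfold fJ
  positivity

theorem continuous_fJ (J : ℕ) : Continuous (fJ n J) := by
  unfold fJ
  refine (Continuous.inv₀ (continuous_const.add continuous_sq2) fun k => ?_).pow J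
  have := sq2_nonneg k
  exact (by positivity : (0 : ℝ) < 1 + sq2 k).ne'

theorem integrable_fJ {J : ℕ} (h : n < 2 * J) : Integrable (fJ n J) := by
  have h1 : Integrable (fun k : Fin n → ℝ => ((1 : ℝ) + ‖k‖ ^ 2) ^ (-((2 * J : ℕ) : ℝ) / 2)) :=
    integrable_rpow_neg_one_add_norm_sq (by
      rw [Module.finrank_fin_fun]
      exact_mod_cast h)
  refine h1.mono' (continuous_fJ J).aestronglyMeasurable (Filter.Eventually.of_forall fun k => ?_)
  rw [Real.norm_of_nonneg (fJ_pos J k).le]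
  have h2 : (0 : ℝ) < 1 + ‖k‖ ^ 2 := by positivity
  have h3 : -((2 * J : ℕ) : ℝ) / 2 = -(J : ℝ) := by push_cast; ring
  have h4 := sq2_nonneg k
  rw [h3, Real.rpow_neg h2.le, Real.rpow_natCast, ← inv_pow, fJ]
  refine pow_le_pow_left₀ (by positivity) (inv_anti₀ h2 ?_) J
  linarith [norm_sq_le_sq2 k]

theorem cJ_pos {J : ℕ} (h : n < 2 * J) : 0 < cJ n J := by
  unfold cJ
  rw [integral_pos_iff_support_of_nonneg (fun k => (fJ_pos J k).le) (integrable_fJ h)]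
  have : Function.support (fJ n J) = Set.univ := by
    ext k
    simp [(fJ_pos J k).ne']
  rw [this]
  exact isOpen_univ.measure_pos volume Set.univ_nonempty

/-- linear substitution -/
theorem integral_comp_lin {F : Type*} [NormedAddCommGroup F] [NormedSpace ℝ F]
    (f : (Fin n → ℝ) →ₗ[ℝ] (Fin n → ℝ)) (hf : LinearMap.det f ≠ 0) (φ : (Fin n → ℝ) → F) :
    ∫ k, φ (f k) = |(LinearMap.det f)⁻¹| • ∫ k, φ k := by
  have h1 := Measure.map_linearMap_addHaar_eq_smul_addHaar (volume : Measure (Fin n → ℝ)) hf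
  have h2 : MeasurableEmbedding f := by
    let e := (LinearMap.equivOfDetNeZero f hf).toContinuousLinearEquiv
    have h3 : (f : (Fin n → ℝ) → Fin n → ℝ) = e.toHomeomorph := rfl
    rw [h3]
    exact e.toHomeomorph.measurableEmbedding
  rw [← h2.integral_map, h1, integral_smul_measure, ENNReal.toReal_ofReal (abs_nonneg _)]

/-- `∫ (μ² + |β k|²)^(-J) dk` -/
theorem integral_scal {J : ℕ} (β : Matrix (Fin n) (Fin n) ℝ) (hβ : β.det ≠ 0) {m : ℝ}
    (hm : 0 < m) : ∫ k : Fin n → ℝ, (m ^ 2 + sq2 (β.mulVec k))⁻¹ ^ J =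
      m ^ ((n : ℤ) - 2 * J) * |β.det|⁻¹ * cJ n J := by
  set f : (Fin n → ℝ) →ₗ[ℝ] (Fin n → ℝ) := m⁻¹ • Matrix.toLin' β with hf
  have hd : LinearMap.det f = m⁻¹ ^ n * β.det := by
    rw [hf, LinearMap.det_smul, Module.finrank_fin_fun, LinearMap.det_toLin']
  have hd0 : LinearMap.det f ≠ 0 := by
    rw [hd]
    exact mul_ne_zero (pow_ne_zero _ (inv_ne_zero hm.ne')) hβ
  have h1 : ∀ k : Fin n → ℝ, (m ^ 2 + sq2 (β.mulVec k))⁻¹ ^ J = (m ^ (2 * J))⁻¹ * fJ n J (f k) := by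
    intro k
    have h2 : sq2 (f k) = m⁻¹ ^ 2 * sq2 (β.mulVec k) := by
      simp only [sq2, hf, LinearMap.smul_apply, Matrix.toLin'_apply, Pi.smul_apply, smul_eq_mul,
        mul_pow, Finset.mul_sum]
    rw [fJ, h2]
    have h3 : m ^ 2 + sq2 (β.mulVec k) = m ^ 2 * (1 + m⁻¹ ^ 2 * sq2 (β.mulVec k)) := by
      field_simp
    rw [h3, mul_inv, mul_pow, inv_pow (m ^ 2), ← pow_mul]
  simp only [h1]
  rw [integral_const_mul, integral_comp_lin f hd0, hd, smul_eq_mul]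
  change _ * (_ * cJ n J) = _
  rw [mul_inv, abs_mul, inv_pow m n, inv_inv, abs_of_pos (pow_pos hm n), abs_inv, zpow_sub₀ hm.ne',
    zpow_natCast]
  have h4 : m ^ (2 * (J : ℤ)) = m ^ (2 * J) := by
    rw [← zpow_natCast]; push_cast; rfl
  rw [h4]
  ring

theorem integrable_scal {J : ℕ} (h : n < 2 * J) (β : Matrix (Fin n) (Fin n) ℝ) (hβ : β.det ≠ 0)
    {m : ℝ} (hm : 0 < m) : Integrable fun k : Fin n → ℝ => (m ^ 2 + sq2 (β.mulVec k))⁻¹ ^ J := by
  by_contra hc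
  have h1 := integral_undef hc
  rw [integral_scal β hβ hm] at h1
  have h2 : 0 < m ^ ((n : ℤ) - 2 * J) * |β.det|⁻¹ * cJ n J := by
    have := cJ_pos h
    have := abs_pos.2 hβ
    positivity
  exact h2.ne' h1

/-- `∫ |(1, k)|^(-N) dk` -/
noncomputable def tJ (n : ℕ) (N : ℤ) : ℝ := ∫ k : Fin n → ℝ, ‖((1 : ℝ), k)‖ ^ (-N)

theorem one_le_norm (k : Fin n → ℝ) : 1 ≤ ‖((1 : ℝ), k)‖ := by
  rw [Prod.norm_def]
  simp

theorem integrable_one {N : ℤ} (h : (n : ℤ) < N) :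
    Integrable fun k : Fin n → ℝ => ‖((1 : ℝ), k)‖ ^ (-N) := by
  have h1 : Integrable (fun k : Fin n → ℝ => ((1 : ℝ) + ‖k‖) ^ (-(N : ℝ))) :=
    integrable_one_add_norm (by
      rw [Module.finrank_fin_fun]
      exact_mod_cast h)
  have hN : 0 ≤ N := by omega
  refine (h1.const_mul (2 ^ N)).mono' ?_ (Filter.Eventually.of_forall fun k => ?_)
  · refine (Continuous.zpow₀ (by fun_prop) _ fun k => Or.inl ?_).aestronglyMeasurable
    have := one_le_norm k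
    positivity
  · have h2 := one_le_norm k
    have h3 : (0 : ℝ) < 1 + ‖k‖ := by positivity
    rw [Real.norm_of_nonneg (by positivity), ← Int.cast_neg, Real.rpow_intCast]
    have h4 : (1 + ‖k‖) / 2 ≤ ‖((1 : ℝ), k)‖ := by
      have : ‖k‖ ≤ ‖((1 : ℝ), k)‖ := norm_snd_le ((1 : ℝ), k)
      linarith
    calc ‖((1 : ℝ), k)‖ ^ (-N) ≤ ((1 + ‖k‖) / 2) ^ (-N) := by
          rw [zpow_neg, zpow_neg]
          exact inv_anti₀ (by positivity) (zpow_le_zpow_left₀ hN (by positivity) h4)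
      _ = 2 ^ N * (1 + ‖k‖) ^ (-N) := by
          rw [div_zpow, zpow_neg, zpow_neg, div_inv_eq_mul]
          ring

theorem norm_scale {m : ℝ} (hm : 0 < m) (k : Fin n → ℝ) :
    ‖((m, k) : ℝ × (Fin n → ℝ))‖ = m * ‖((1 : ℝ), m⁻¹ • k)‖ := by
  have h : ((m, k) : ℝ × (Fin n → ℝ)) = m • ((1 : ℝ), m⁻¹ • k) := by
    rw [Prod.smul_mk, smul_smul, mul_inv_cancel₀ hm.ne', one_smul, smul_eq_mul, mul_one]
  rw [h, norm_smul, Real.norm_of_nonneg hm.le]

theorem integrable_tail {N : ℤ} (h : (n : ℤ) < N) {m : ℝ} (hm : 0 < m) :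
    Integrable fun k : Fin n → ℝ => ‖((m, k) : ℝ × (Fin n → ℝ))‖ ^ (-N) := by
  have h1 := (integrable_one h).comp_smul (inv_ne_zero hm.ne')
  refine (h1.const_mul (m ^ (-N))).congr (Filter.Eventually.of_forall fun k => ?_)
  dsimp only
  rw [norm_scale hm, mul_zpow]

theorem integral_tail (N : ℤ) {m : ℝ} (hm : 0 < m) :
    ∫ k : Fin n → ℝ, ‖((m, k) : ℝ × (Fin n → ℝ))‖ ^ (-N) = m ^ ((n : ℤ) - N) * tJ n N := by
  have h1 : ∀ k : Fin n → ℝ, ‖((m, k) : ℝ × (Fin n → ℝ))‖ ^ (-N) =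
      m ^ (-N) * (fun k : Fin n → ℝ => ‖((1 : ℝ), k)‖ ^ (-N)) (m⁻¹ • k) := fun k => by
    dsimp only
    rw [norm_scale hm, mul_zpow]
  have h2 : ∫ k : Fin n → ℝ, (fun k : Fin n → ℝ => ‖((1 : ℝ), k)‖ ^ (-N)) (m⁻¹ • k) =
      |(m⁻¹ ^ Module.finrank ℝ (Fin n → ℝ))⁻¹| • ∫ k : Fin n → ℝ, ‖((1 : ℝ), k)‖ ^ (-N) :=
    Measure.integral_comp_smul volume (fun k : Fin n → ℝ => ‖((1 : ℝ), k)‖ ^ (-N)) m⁻¹
  rw [integral_congr_ae (Filter.Eventually.of_forall h1), integral_const_mul, h2,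
    Module.finrank_fin_fun, smul_eq_mul, tJ, ← mul_assoc]
  congr 1
  rw [inv_pow, inv_inv, abs_of_pos (pow_pos hm n), ← zpow_natCast, ← zpow_add₀ hm.ne']
  congr 1
  ring

theorem tJ_nonneg (N : ℤ) : 0 ≤ tJ n N := integral_nonneg fun _ => by positivity

end

end Vale.Agent.P223.H765
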