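import Vale.Agent.P223.H765.Exp
import Vale.Agent.P223.H765.Scal
import Vale.Agent.P223.H691.Nuc
import Vale.Agent.P223.H391.Nest

/-! P223, asymptotics: pairing with plane waves and integration. -/

namespace Vale.Agent.P223.H765

open scoped ContDiff InnerProductSpace
open Complex MeasureTheory H691

section
variable {n : ℕ} {V : Type} [NormedAddCommGroup V] [InnerProductSpace ℂ V]
  [FiniteDimensional ℂ V] {Λ : Type}
  {H : Type} [NormedAddCommGroup H] [InnerProductSpace ℂ H] {C : Type}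
  {K : Set (E n)} {dens : E n → ℝ} {e : C → H} {rep : C → E n → V} {loc : (E n → V) → H}

omit [FiniteDimensional ℂ V] in
theorem inner_loc (hl : LocRep K dens e rep loc)
    (hself : ∀ g ∈ CS K V, ∃ c, e c = loc g ∧ rep c = g) {f g : E n → V} (hf : f ∈ CS K V)
    (hg : g ∈ CS K V) : ⟪loc f, loc g⟫_ℂ = ∫ y, (dens y : ℂ) * ⟪f y, g y⟫_ℂ := by
  obtain ⟨c, h1, h2⟩ := hself g hg
  rw [← h1, hl.inner f hf, h2]

variable {ι : Type} [Fintype ι] (b : OrthonormalBasis ι ℂ V)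

omit [FiniteDimensional ℂ V] in
theorem vv_mem {χ : E n → ℝ} (hχ : ContDiff ℝ ∞ χ) (hs : ∀ x, x ∉ K → χ x = 0)
    (hl : LocRep K dens e rep loc) (s : ι) :
    (fun y => ((χ y / dens y : ℝ) : ℂ) • b s) ∈ CS K V :=
  CS.fmul_mem (f := fun y => χ y / dens y) (hχ.div hl.dens_smooth fun x => (hl.dens_pos x).ne')
    (fun x hx => by rw [hs x hx, zero_div]) contDiff_const

omit [FiniteDimensional ℂ V] in
/-- pairing of the left vectors with plane waves -/
theorem pair_vv (hl : LocRep K dens e rep loc)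
    (hself : ∀ g ∈ CS K V, ∃ c, e c = loc g ∧ rep c = g) {χ : E n → ℝ} (hχ : ContDiff ℝ ∞ χ)
    (hs : ∀ x, x ∉ K → χ x = 0) (s : ι) {r : ℤ} {B : Ph n × E n → V} (hB : SymGe K r B)
    {p : Ph n} (hp : p ≠ 0) : ⟪vv dens loc χ b s p.2, loc (el B p)⟫_ℂ =
      ((((2 * Real.pi) ^ n)⁻¹ : ℝ) : ℂ) * ∫ y, (χ y : ℂ) * ⟪b s, B (p, y)⟫_ℂ := by
  rw [vv, inner_smul_left, conj_ofReal, inner_loc hl hself (CS.pw_mem (vv_mem b hχ hs hl s) _)
    (hB.mem hp)]
  congr 1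
  refine integral_congr_ae (Filter.Eventually.of_forall fun y => ?_)
  have h1 : (dens y : ℂ) ≠ 0 := by exact_mod_cast (hl.dens_pos y).ne'
  have h2 : (starRingEnd ℂ) (ew p.2 y) * ew p.2 y = 1 := by
    rw [← normSq_eq_conj_mul_self, normSq_eq_norm_sq, norm_ew]
    simp
  simp only [pw, el, inner_smul_left, inner_smul_right, conj_ofReal]
  rw [ofReal_div]
  field_simp
  linear_combination (χ y : ℂ) * ⟪b s, B (p, y)⟫_ℂ * h2

theorem ph_ne {m : ℝ} (hm : 0 < m) (k : E n) : ((m, k) : Ph n) ≠ 0 := fun h => by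
  have := congrArg Prod.fst h
  exact hm.ne' this

omit [FiniteDimensional ℂ V] in
/-- The integral of the leading symbol. -/
theorem int_lead (hK : IsCompact K) (c : Coef n V) {β : E n → Matrix (Fin n) (Fin n) ℝ}
    (hβ : ∀ y k, c.q2 k y = sq2 ((β y).mulVec k)) (hdet : ∀ y, (β y).det ≠ 0)
    {f : E n → ℂ} (hf : Continuous f) (hs : ∀ x, x ∉ K → f x = 0)
    {J : ℕ} (hJ : n < 2 * J) {m : ℝ} (hm : 1 ≤ m) :
    Integrable (fun k : E n => ∫ y, ((c.h ((m, k), y) ^ J : ℝ) : ℂ) * f y) ∧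
    ∫ k : E n, ∫ y, ((c.h ((m, k), y) ^ J : ℝ) : ℂ) * f y =
      ((m ^ ((n : ℤ) - 2 * J) * cJ n J : ℝ) : ℂ) * ∫ y, ((|(β y).det|⁻¹ : ℝ) : ℂ) * f y := by
  have hm0 : 0 < m := by linarith
  have hh : ∀ k y, c.h ((m, k), y) = (m ^ 2 + sq2 ((β y).mulVec k))⁻¹ := fun k y => by
    rw [Coef.h, Coef.den]
    simp only [hβ]
  -- bound of the integrand
  have hcont : Continuous fun q : E n × E n => c.h ((m, q.1), q.2) := by
    have h1 : ContinuousOn c.h {q | q.1 ≠ 0} := c.h_smooth.continuousOn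
    have h2 : Continuous fun q : E n × E n => (((m, q.1), q.2) : Ph n × E n) := by fun_prop
    exact h1.comp_continuous h2 fun q => ph_ne hm0 q.1
  have hpos : ∀ k y, 0 < c.h ((m, k), y) := fun k y =>
    inv_pos.2 (c.den_pos (q := ((m, k), y)) (ph_ne hm0 k))
  obtain ⟨C, hC0, hC⟩ : ∃ C : ℝ, 0 ≤ C ∧ ∀ k, ∀ y ∈ K,
      c.h ((m, k), y) ^ J ≤ C * ‖((m, k) : Ph n)‖ ^ (-((2 * J : ℕ) : ℤ)) := by
    have hsm : ContinuousOn c.h (Metric.sphere (0 : Ph n) 1 ×ˢ K) := by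
      refine c.h_smooth.continuousOn.mono fun q hq => ?_
      have h3 : ‖q.1‖ = 1 := by simpa using hq.1
      intro h0
      rw [h0] at h3
      simp at h3
    obtain ⟨C, hC⟩ := ((isCompact_sphere (0 : Ph n) 1).prod hK).exists_bound_of_continuousOn hsm
    refine ⟨(max C 0) ^ J, by positivity, fun k y hy => ?_⟩
    have hp' : 0 < ‖((m, k) : Ph n)‖ := norm_pos_iff.2 (ph_ne hm0 k)
    have h4 := c.h_hom ‖((m, k) : Ph n)‖ (‖((m, k) : Ph n)‖⁻¹ • (m, k)) y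
    rw [smul_smul, mul_inv_cancel₀ hp'.ne', one_smul] at h4
    have h5 : c.h (‖((m, k) : Ph n)‖⁻¹ • (m, k), y) ≤ max C 0 := by
      have h8 : ‖‖((m, k) : Ph n)‖⁻¹ • ((m, k) : Ph n)‖ = 1 := by
        rw [norm_smul, norm_inv, norm_norm, inv_mul_cancel₀ hp'.ne']
      have := hC (‖((m, k) : Ph n)‖⁻¹ • (m, k), y) ⟨mem_sphere_zero_iff_norm.2 h8, hy⟩
      exact (le_abs_self _).trans (this.trans (le_max_left _ _))
    have h6 : (‖((m, k) : Ph n)‖ ^ (-2 : ℤ)) ^ J = ‖((m, k) : Ph n)‖ ^ (-((2 * J : ℕ) : ℤ)) := by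
      rw [← zpow_natCast, ← zpow_mul]
      congr 1
    have h7 : 0 ≤ c.h (‖((m, k) : Ph n)‖⁻¹ • (m, k), y) :=
      (inv_pos.2 (c.den_pos (q := (‖((m, k) : Ph n)‖⁻¹ • (m, k), y))
        (smul_ne_zero (inv_ne_zero hp'.ne') (ph_ne hm0 k)))).le
    rw [h4, mul_pow, h6, mul_comm]
    gcongr
  have hfc : HasCompactSupport f := HasCompactSupport.intro hK hs
  have hfi : Integrable f := hf.integrable_of_hasCompactSupport hfc
  have hprod : Integrable (fun q : E n × E n => ((c.h ((m, q.1), q.2) ^ J : ℝ) : ℂ) * f q.2)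
      (volume.prod volume) := by
    have h8 : Integrable fun k : E n => ‖((m, k) : Ph n)‖ ^ (-((2 * J : ℕ) : ℤ)) :=
      integrable_tail (by exact_mod_cast hJ) hm0
    refine ((h8.const_mul C).mul_prod hfi.norm).mono' ?_ (Filter.Eventually.of_forall fun q => ?_)
    · exact ((continuous_ofReal.comp (hcont.pow J)).mul
        (hf.comp continuous_snd)).aestronglyMeasurable
    · rw [norm_mul, norm_real, Real.norm_of_nonneg (pow_nonneg (hpos _ _).le J)]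
      by_cases hy : q.2 ∈ K
      · gcongr
        exact hC _ _ hy
      · rw [hs _ hy, norm_zero, mul_zero, mul_zero]
  refine ⟨hprod.integral_prod_left, ?_⟩
  rw [integral_integral_swap hprod, ← integral_const_mul]
  refine integral_congr_ae (Filter.Eventually.of_forall fun y => ?_)
  simp only
  rw [integral_mul_const]
  have h9 : ∫ k : E n, ((c.h ((m, k), y) ^ J : ℝ) : ℂ) =
      ((m ^ ((n : ℤ) - 2 * J) * |(β y).det|⁻¹ * cJ n J : ℝ) : ℂ) := by
    rw [integral_complex_ofReal]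
    simp only [hh]
    rw [integral_scal (β y) (hdet y) hm0]
  rw [h9]
  push_cast
  ring

/-- words of bounded operators -/
def wlC (G : H →L[ℂ] H) (h : Λ → H →L[ℂ] H) :
    ∀ q : ℕ, (Fin (q + 1) → ℕ) → (Fin q → Λ) → H →L[ℂ] H
  | 0, j, _ => G ^ j 0
  | q + 1, j, l => G ^ j 0 * (h (l 0) * wlC G h q (fun i => j i.succ) fun i => l i.succ)

theorem wlC_apply (G : H →L[ℂ] H) (h : Λ → H →L[ℂ] H) : ∀ (q : ℕ) (j : Fin (q + 1) → ℕ)
    (l : Fin q → Λ) (x : H), wlC G h q j l x =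
      wl (G : H →ₗ[ℂ] H) (fun l => (h l : H →ₗ[ℂ] H)) q j l x := by
  intro q
  induction q with
  | zero =>
    intro j l x
    rw [wlC, wl, ← ContinuousLinearMap.toLinearMap_pow]; rfl
  | succ q ih =>
    intro j l x
    rw [wlC, wl, mul_apply_eq_comp, mul_apply_eq_comp, ih, ← ContinuousLinearMap.toLinearMap_pow]
    rfl

theorem nb_sum {SB : ℝ → H → Prop} {q : ℕ} {a d : ℝ} {R : (Fin q → Λ) → H} (hR : NBd SB a R)
    (ha : 0 ≤ a) {v : H} (hv : ∀ a u, 0 ≤ a → SB a u → ‖⟪v, u⟫_ℂ‖ ≤ d * a)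
    (T : Finset (Fin q → Λ)) : ∑ l ∈ T, ‖⟪v, R l⟫_ℂ‖ ≤ d * a := by
  choose z hz1 hz2 using fun l : Fin q → Λ => H391.exists_phase ⟪v, R l⟫_ℂ
  have h1 := hv _ _ ha (hR T z hz1)
  have h2 : ⟪v, ∑ l ∈ T, z l • R l⟫_ℂ = ((∑ l ∈ T, ‖⟪v, R l⟫_ℂ‖ : ℝ) : ℂ) := by
    rw [inner_sum, Complex.ofReal_sum]
    refine Finset.sum_congr rfl fun l _ => ?_
    rw [inner_smul_right, hz2]
  rwa [h2, Complex.norm_real, Real.norm_of_nonneg (Finset.sum_nonneg fun _ _ => norm_nonneg _)]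
    at h1

variable {ι : Type} [Fintype ι] (b : OrthonormalBasis ι ℂ V)

/-- the density of the leading term -/
noncomputable def dn (χ : E n → ℝ) (vol : V →L[ℂ] V) (Hh : Λ → E n → V →L[ℂ] V) {q : ℕ}
    (l : Fin q → Λ) (s : ι) (y : E n) : ℂ :=
  (χ y : ℂ) * ⟪b s, (List.ofFn fun i => Hh (l i) y).prod (vol (b s))⟫_ℂ

omit [FiniteDimensional ℂ V] in
theorem dn_cont {χ : E n → ℝ} (hχ : ContDiff ℝ ∞ χ) (vol : V →L[ℂ] V)
    {Hh : Λ → E n → V →L[ℂ] V} (hH : ∀ l, ContDiff ℝ ∞ (Hh l)) {q : ℕ} (l : Fin q → Λ) (s : ι) :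
    Continuous (dn b χ vol Hh l s) := by
  have h1 : Continuous fun y => (List.ofFn fun i => Hh (l i) y).prod := by
    have h2 : (fun y => (List.ofFn fun i => Hh (l i) y).prod) =
        fun y => ((List.ofFn fun i => Hh (l i)).map fun f => f y).prod := by
      funext y
      rw [List.map_ofFn]
      rfl
    rw [h2]
    refine continuous_list_prod _ fun f hf => ?_
    rw [List.mem_ofFn] at hf
    obtain ⟨i, rfl⟩ := hf
    exact (hH _).continuous
  unfold dn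
  exact (continuous_ofReal.comp hχ.continuous).mul
    (continuous_const.inner (h1.clm_apply continuous_const))

omit [FiniteDimensional ℂ V] in
theorem pair_asy (hl : LocRep K dens e rep loc)
    (hself : ∀ g ∈ CS K V, ∃ c, e c = loc g ∧ rep c = g) (c : Coef n V)
    {Hh : Λ → E n → V →L[ℂ] V} (hH : ∀ l, ContDiff ℝ ∞ (Hh l)) (Λ₀ : Finset Λ)
    (h0 : ∀ l, l ∉ Λ₀ → ∀ y ∈ K, Hh l y = 0)
    {β : E n → Matrix (Fin n) (Fin n) ℝ} (hβ : ∀ y k, c.q2 k y = sq2 ((β y).mulVec k))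
    (hdet : ∀ y, (β y).det ≠ 0) (hβc : Continuous fun y => (β y).det)
    {χ χ' : E n → ℝ} (hχ : ContDiff ℝ ∞ χ) (hχ' : ContDiff ℝ ∞ χ')
    (hs : ∀ x, x ∉ K → χ x = 0) (hs' : ∀ x, x ∉ K → χ' x = 0) (hχχ : ∀ x, χ' x * χ x = χ x)
    (vol : V →L[ℂ] V) {L : ℝ} (hL : 0 ≤ L) {d : ℝ} (hd : 0 ≤ d) (q : ℕ) (j : Fin (q + 1) → ℕ)
    (hJ : n < 2 * ∑ i, j i) :
    ∃ D : ℝ, 0 ≤ D ∧ ∀ m : ℝ, 1 ≤ m → ∀ (G : H →L[ℂ] H) (h : Λ → H →L[ℂ] H) (W : H →L[ℂ] H)
      (SB : ℝ → H → Prop), c.Res K m (G : H →ₗ[ℂ] H) loc →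
      HRes K (fun l => (h l : H →ₗ[ℂ] H)) loc Hh →
      SBd K L (G : H →ₗ[ℂ] H) (fun l => (h l : H →ₗ[ℂ] H)) loc SB →
      (∀ f ∈ CS K V, W (loc f) = loc fun y => vol (f y)) →
      (∀ s k a u, 0 ≤ a → SB a u → ‖⟪vv dens loc χ b s k, u⟫_ℂ‖ ≤ d * a) →
      ∀ T : Finset (Fin q → Λ), ∑ l ∈ T, ‖(∑ s, ∫ k, ⟪vv dens loc χ b s k,
        wlC G h q j l (W (uu loc χ' b s k))⟫_ℂ) -
        (((((2 * Real.pi) ^ n)⁻¹ * (m ^ ((n : ℤ) - 2 * (∑ i, j i : ℕ)) * cJ n (∑ i, j i))) : ℝ) : ℂ) *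
          ∫ y, ((|(β y).det|⁻¹ : ℝ) : ℂ) * ∑ s, dn b χ vol Hh l s y‖ ≤
        D * m ^ ((n : ℤ) - (2 * (∑ i, j i : ℕ) + 1)) := by
  classical
  set J : ℕ := ∑ i, j i with hJd
  have hK := hl.compact
  set N : ℤ := 2 * (J : ℤ) + 1 with hN
  have hNn : (n : ℤ) < N := by omega
  -- the symbols
  let B : ι → Ph n × E n → V := fun s z => (χ' z.2 : ℂ) • vol (b s)
  have hB : ∀ s, SymGe K 0 (B s) := fun s =>
    (Sym.of_fun ((ofRealCLM.contDiff.comp hχ').smul contDiff_const)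
      fun x hx => by simp [hs' x hx]).ge
  choose B' D hD h1 h2 h3 using fun s => expand c hK hH Λ₀ h0 N L hL (hB s) q j
  choose C hC hC' using fun s l => (h1 s l).bound hK
  let T₀ : Finset (Fin q → Λ) := Fintype.piFinset fun _ => Λ₀
  have hT₀ : ∀ l : Fin q → Λ, l ∈ T₀ ↔ Good Λ₀ l := fun l => Fintype.mem_piFinset
  refine ⟨∑ s, d * ((∑ l ∈ T₀, C s l) + D s) * tJ n N, Finset.sum_nonneg fun s _ => mul_nonneg
    (mul_nonneg hd (add_nonneg (Finset.sum_nonneg fun l _ => hC s l) (hD s))) (tJ_nonneg N),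
    fun m hm G h W SB hG hh hS hW hPB T => ?_⟩
  have hm0 : 0 < m := by linarith
  have hne : ∀ k : E n, ((m, k) : Ph n) ≠ 0 := ph_ne hm0
  have hnorm : ∀ k : E n, 1 ≤ ‖((m, k) : Ph n)‖ := fun k =>
    hm.trans ((le_abs_self _).trans (norm_fst_le ((m, k) : Ph n)))
  have hz : ∀ k : E n, (0 : ℝ) ≤ ‖((m, k) : Ph n)‖ ^ (-N) := fun k =>
    zpow_nonneg (norm_nonneg _) _
  choose R hR hw using fun s (k : E n) => h3 s (m, k) hm H (G : H →ₗ[ℂ] H)
    (fun l => (h l : H →ₗ[ℂ] H)) loc SB hG hh hS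
  have hloc0 : loc 0 = 0 := by
    have := hG.1 0 0 (CS K V).zero_mem (CS K V).zero_mem
    rw [add_zero] at this
    exact left_eq_add.1 this
  have hWu : ∀ s k, W (uu loc χ' b s k) = loc (el (B s) (m, k)) := by
    intro s k
    rw [uu, hW _ (CS.pw_mem (CS.fmul_mem hχ' hs' contDiff_const) k)]
    congr 1
    funext y
    simp only [pw, el, B, map_smul]
  -- the leading term
  have hmain : ∀ s k l, ⟪vv dens loc χ b s k, loc (el (ld c Hh q j l (B s)) (m, k))⟫_ℂ =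
      ((((2 * Real.pi) ^ n)⁻¹ : ℝ) : ℂ) *
        ∫ y, ((c.h ((m, k), y) ^ J : ℝ) : ℂ) * dn b χ vol Hh l s y := by
    intro s k l
    have h4 := pair_vv b hl hself hχ hs s (symGe_ld c hH (hB s) q j l) (hne k)
    rw [h4]
    congr 1
    refine integral_congr_ae (Filter.Eventually.of_forall fun y => ?_)
    have h5 : (χ' y : ℂ) * (χ y : ℂ) = (χ y : ℂ) := by exact_mod_cast hχχ y
    simp only [ld_apply, dn, B]
    rw [map_smul, ← Complex.coe_smul, inner_smul_right, inner_smul_right]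
    linear_combination ((c.h ((m, k), y) ^ J : ℝ) : ℂ) *
      ⟪b s, (List.ofFn fun i => Hh (l i) y).prod (vol (b s))⟫_ℂ * h5
  have hdn0 : ∀ s (l : Fin q → Λ) x, x ∉ K → dn b χ vol Hh l s x = 0 := fun s l x hx => by
    rw [dn, hs x hx]; simp
  have hint := fun s l => int_lead (V := V) hK c hβ hdet (dn_cont b hχ vol hH l s) (hdn0 s l) hJ hm
  -- the rest
  have hrest : ∀ s k, NBd SB (((∑ l ∈ T₀, C s l) + D s) * ‖((m, k) : Ph n)‖ ^ (-N))
      fun l => loc (el (B' s l) (m, k)) + R s k l := by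
    intro s k
    rw [add_mul, Finset.sum_mul]
    refine NBd.add hS (NBd.of_fin hS T₀ (fun l => mul_nonneg (hC s l) (hz k)) (fun l hl => ?_)
      fun l => ?_) (hR s k)
    · rw [h2 s l fun h => hl ((hT₀ l).2 h)]
      have : el (0 : Ph n × E n → V) (m, k) = 0 := el_zero_of _ fun x => rfl
      rw [this, hloc0]
    · refine hS.loc _ ((h1 s l).mem (hne k)) _ (mul_nonneg (hC s l) (hz k)) fun x => ?_
      rw [norm_el]
      refine (hC' s l (m, k) x (hnorm k)).trans (le_of_eq ?_)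
      rw [← hJd, zero_add]
  let Er : ι → E n → (Fin q → Λ) → ℂ := fun s k l =>
    ⟪vv dens loc χ b s k, wlC G h q j l (W (uu loc χ' b s k))⟫_ℂ -
      ((((2 * Real.pi) ^ n)⁻¹ : ℝ) : ℂ) *
        ∫ y, ((c.h ((m, k), y) ^ J : ℝ) : ℂ) * dn b χ vol Hh l s y
  have hEr : ∀ s k l, Er s k l = ⟪vv dens loc χ b s k, loc (el (B' s l) (m, k)) + R s k l⟫_ℂ := by
    intro s k l
    simp only [Er]
    rw [← hmain, ← inner_sub_right, hWu, wlC_apply, hw]
    congr 1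
    abel
  have hsum : ∀ s k, ∑ l ∈ T, ‖Er s k l‖ ≤
      d * (((∑ l ∈ T₀, C s l) + D s) * ‖((m, k) : Ph n)‖ ^ (-N)) := by
    intro s k
    simp only [hEr]
    refine nb_sum (hrest s k) (mul_nonneg (add_nonneg (Finset.sum_nonneg fun l _ => hC s l) (hD s))
      (hz k)) (fun a u => hPB s k a u) T
  have hsum1 : ∀ s k l, ‖Er s k l‖ ≤
      d * (((∑ l ∈ T₀, C s l) + D s) * ‖((m, k) : Ph n)‖ ^ (-N)) := by
    intro s k l
    have h6 := nb_sum (hrest s k) (mul_nonneg (add_nonneg (Finset.sum_nonneg fun l _ => hC s l)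
      (hD s)) (hz k)) (fun a u => hPB s k a u) {l}
    rwa [Finset.sum_singleton, ← hEr] at h6
  have hcont : ∀ s l, Continuous fun k =>
      ⟪vv dens loc χ b s k, wlC G h q j l (W (uu loc χ' b s k))⟫_ℂ := by
    intro s l
    have c1 : Continuous fun k => vv dens loc χ b s k :=
      (hl.continuous_pw (vv_mem b hχ hs hl s)).const_smul _
    have c2 : Continuous fun k => uu loc χ' b s k :=
      hl.continuous_pw (CS.fmul_mem hχ' hs' contDiff_const)
    exact c1.inner ((wlC G h q j l).continuous.comp (W.continuous.comp c2))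
  have hmi : ∀ s l, Integrable fun k : E n => ((((2 * Real.pi) ^ n)⁻¹ : ℝ) : ℂ) *
      ∫ y, ((c.h ((m, k), y) ^ J : ℝ) : ℂ) * dn b χ vol Hh l s y := fun s l =>
    (hint s l).1.const_mul _
  have hEi : ∀ s l, Integrable fun k => Er s k l := by
    intro s l
    refine (((integrable_tail hNn hm0).const_mul ((∑ l ∈ T₀, C s l) + D s)).const_mul d).mono'
      ((hcont s l).aestronglyMeasurable.sub (hmi s l).aestronglyMeasurable)
      (Filter.Eventually.of_forall fun k => hsum1 s k l)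
  have h7 : ∀ s l, ∫ k, ⟪vv dens loc χ b s k, wlC G h q j l (W (uu loc χ' b s k))⟫_ℂ =
      ((((2 * Real.pi) ^ n)⁻¹ * (m ^ ((n : ℤ) - 2 * J) * cJ n J) : ℝ) : ℂ) *
        (∫ y, ((|(β y).det|⁻¹ : ℝ) : ℂ) * dn b χ vol Hh l s y) + ∫ k, Er s k l := by
    intro s l
    have e1 : ∀ k, ⟪vv dens loc χ b s k, wlC G h q j l (W (uu loc χ' b s k))⟫_ℂ =
        (((((2 * Real.pi) ^ n)⁻¹ : ℝ) : ℂ) *
          ∫ y, ((c.h ((m, k), y) ^ J : ℝ) : ℂ) * dn b χ vol Hh l s y) + Er s k l := fun k => by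
      simp only [Er]; ring
    rw [integral_congr_ae (Filter.Eventually.of_forall e1), integral_add (hmi s l) (hEi s l),
      integral_const_mul, (hint s l).2]
    push_cast
    ring
  have hdi : ∀ s (l : Fin q → Λ), Integrable fun y => ((|(β y).det|⁻¹ : ℝ) : ℂ) * dn b χ vol Hh l s y := by
    intro s l
    refine Continuous.integrable_of_hasCompactSupport ?_ (HasCompactSupport.intro hK fun x hx => by
      rw [hdn0 s l x hx, mul_zero])
    exact (continuous_ofReal.comp (hβc.abs.inv₀ fun y => abs_ne_zero.2 (hdet y))).mul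
      (dn_cont b hχ vol hH l s)
  have h8 : ∀ l, (∑ s, ∫ k, ⟪vv dens loc χ b s k, wlC G h q j l (W (uu loc χ' b s k))⟫_ℂ) -
      (((((2 * Real.pi) ^ n)⁻¹ * (m ^ ((n : ℤ) - 2 * J) * cJ n J)) : ℝ) : ℂ) *
        ∫ y, ((|(β y).det|⁻¹ : ℝ) : ℂ) * ∑ s, dn b χ vol Hh l s y = ∑ s, ∫ k, Er s k l := by
    intro l
    simp only [h7, Finset.sum_add_distrib, ← Finset.mul_sum]
    have e2 : ∫ y, ((|(β y).det|⁻¹ : ℝ) : ℂ) * ∑ s, dn b χ vol Hh l s y =
        ∑ s, ∫ y, ((|(β y).det|⁻¹ : ℝ) : ℂ) * dn b χ vol Hh l s y := by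
      simp only [Finset.mul_sum]
      exact integral_finsetSum _ fun s _ => hdi s l
    rw [e2]
    ring
  simp only [h8]
  calc ∑ l ∈ T, ‖∑ s, ∫ k, Er s k l‖ ≤ ∑ l ∈ T, ∑ s, ∫ k, ‖Er s k l‖ :=
        Finset.sum_le_sum fun l _ => (norm_sum_le _ _).trans
          (Finset.sum_le_sum fun s _ => norm_integral_le_integral_norm _)
    _ = ∑ s, ∫ k, ∑ l ∈ T, ‖Er s k l‖ := by
        rw [Finset.sum_comm]
        refine Finset.sum_congr rfl fun s _ => ?_
        rw [integral_finsetSum _ fun l _ => (hEi s l).norm]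
    _ ≤ ∑ s, ∫ k : E n, d * (((∑ l ∈ T₀, C s l) + D s) * ‖((m, k) : Ph n)‖ ^ (-N)) := by
        refine Finset.sum_le_sum fun s _ => integral_mono_ae
          (integrable_finsetSum _ fun l _ => (hEi s l).norm)
          (((integrable_tail hNn hm0).const_mul _).const_mul d)
          (Filter.Eventually.of_forall fun k => hsum s k)
    _ = _ := by
        rw [Finset.sum_mul]
        refine Finset.sum_congr rfl fun s _ => ?_
        rw [integral_const_mul, integral_const_mul, integral_tail N hm0]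
        ring

end

end Vale.Agent.P223.H765
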