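import Vale.Agent.P223.H765.AsyA

/-! P223, asymptotics: traces of words. -/

namespace Vale.Agent.P223.H765

open scoped ContDiff InnerProductSpace
open Complex MeasureTheory H691

section
variable {n : ℕ} {V : Type} [NormedAddCommGroup V] [InnerProductSpace ℂ V]
  [FiniteDimensional ℂ V] {Λ : Type}
  {H : Type} [NormedAddCommGroup H] [InnerProductSpace ℂ H] {C : Type}
  {K : Set (E n)} {dens : E n → ℝ} {e : C → H} {rep : C → E n → V} {loc : (E n → V) → H}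

theorem wl_comp {H : Type} [AddCommGroup H] [Module ℂ H] (G : H →ₗ[ℂ] H) (h : Λ → H →ₗ[ℂ] H)
    {Q : ℕ} (l : Fin Q → Λ) : ∀ (q : ℕ) (j : Fin (q + 1) → ℕ) (τ : Fin q → Fin Q),
    wl G (fun i => h (l i)) q j τ = wl G h q j (fun i => l (τ i)) := by
  intro q
  induction q with
  | zero => intro j τ; rfl
  | succ q ih =>
    intro j τ
    rw [wl, wl, ih]

variable {ι : Type} [Fintype ι] (b : OrthonormalBasis ι ℂ V)

omit [FiniteDimensional ℂ V] in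
/-- decay of words on plane waves -/
theorem word_int (hl : LocRep K dens e rep loc) (c : Coef n V)
    {Hh : Λ → E n → V →L[ℂ] V} (hH : ∀ l, ContDiff ℝ ∞ (Hh l)) {χ' : E n → ℝ}
    (hχ' : ContDiff ℝ ∞ χ') (hs' : ∀ x, x ∉ K → χ' x = 0)
    (vol : V →L[ℂ] V) (q : ℕ) (j : Fin (q + 1) → ℕ) (hJ : n < 2 * ∑ i, j i)
    {m : ℝ} (hm : 1 ≤ m) (G : H →L[ℂ] H) (h : Λ → H →L[ℂ] H) (W : H →L[ℂ] H)
    (hG : c.Res K m (G : H →ₗ[ℂ] H) loc)
    (hh : HRes K (fun l => (h l : H →ₗ[ℂ] H)) loc Hh) (hG1 : ‖G‖ ≤ 1)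
    (hW : ∀ f ∈ CS K V, W (loc f) = loc fun y => vol (f y)) (l : Fin q → Λ) (s : ι) :
    Integrable fun k => ‖(wlC G h q j l * W) (uu loc χ' b s k)‖ := by
  classical
  set J : ℕ := ∑ i, j i with hJd
  have hK := hl.compact
  obtain ⟨A, hA0, hA⟩ := hl.norm_le
  let B : Ph n × E n → V := fun z => (χ' z.2 : ℂ) • vol (b s)
  have hB : SymGe K 0 B :=
    (Sym.of_fun ((ofRealCLM.contDiff.comp hχ').smul contDiff_const)
      fun x hx => by simp [hs' x hx]).ge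
  have hm0 : 0 < m := by linarith
  set N : ℤ := 2 * (J : ℤ) with hN
  have hNn : (n : ℤ) < N := by omega
  have hL : (0 : ℝ) ≤ ∑ i, ‖h (l i)‖ := Finset.sum_nonneg fun _ _ => norm_nonneg _
  obtain ⟨B', D, hD, h1, h2, h3⟩ := expand c hK (Hh := fun i : Fin q => Hh (l i)) (fun i => hH _)
    Finset.univ (fun i hi => absurd (Finset.mem_univ i) hi) N (∑ i, ‖h (l i)‖) hL hB q j
  have h4 := symGe_ld c (Hh := fun i : Fin q => Hh (l i)) (fun i => hH _) hB q j id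
  obtain ⟨C₁, hC₁, hb₁⟩ := h4.bound hK
  obtain ⟨C₂, hC₂, hb₂⟩ := ((h1 id).mono (r' := N) (by rw [← hJd]; omega)).bound hK
  have hne : ∀ k : E n, ((m, k) : Ph n) ≠ 0 := ph_ne hm0
  have hnorm : ∀ k : E n, 1 ≤ ‖((m, k) : Ph n)‖ := fun k =>
    hm.trans ((le_abs_self _).trans (norm_fst_le ((m, k) : Ph n)))
  have hz : ∀ k : E n, (0 : ℝ) ≤ ‖((m, k) : Ph n)‖ ^ (-N) := fun k =>
    zpow_nonneg (norm_nonneg _) _
  -- the norm as sup bound
  have hS : SBd K (∑ i, ‖h (l i)‖) (G : H →ₗ[ℂ] H) (fun i => (h (l i) : H →ₗ[ℂ] H)) loc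
      (fun a x => ‖x‖ ≤ A * a) := by
    refine ⟨by simp, fun a b x y hx hy => ?_, fun a x z ha hz hx => ?_, fun a x ha hx => ?_,
      fun T a u ha hu => ?_, fun f hf a ha hfa => hA f hf a ha hfa⟩
    · rw [mul_add]
      exact (norm_add_le _ _).trans (add_le_add hx hy)
    · rw [norm_smul]
      exact (mul_le_of_le_one_left (norm_nonneg _) hz).trans hx
    · exact (G.le_opNorm x).trans ((mul_le_of_le_one_left (norm_nonneg _) hG1).trans hx)
    · have h5 : (0 : ℝ) ≤ A * a := mul_nonneg hA0 ha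
      calc ‖∑ i ∈ T, h (l i) (u i)‖ ≤ ∑ i ∈ T, ‖h (l i)‖ * (A * a) :=
            (norm_sum_le _ _).trans (Finset.sum_le_sum fun i hi =>
              ((h (l i)).le_opNorm _).trans (mul_le_mul_of_nonneg_left (hu i hi) (norm_nonneg _)))
        _ ≤ ∑ i, ‖h (l i)‖ * (A * a) := Finset.sum_le_sum_of_subset_of_nonneg
            (Finset.subset_univ _) fun i _ _ => mul_nonneg (norm_nonneg _) h5
        _ = A * ((∑ i, ‖h (l i)‖) * a) := by rw [← Finset.sum_mul]; ring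
  have hWu : ∀ k, W (uu loc χ' b s k) = loc (el B (m, k)) := by
    intro k
    rw [uu, hW _ (CS.pw_mem (CS.fmul_mem hχ' hs' contDiff_const) k)]
    congr 1
    funext y
    simp only [pw, el, B, map_smul]
  have key : ∀ k, ‖(wlC G h q j l * W) (uu loc χ' b s k)‖ ≤
      (A * C₁ + A * C₂ + A * D) * ‖((m, k) : Ph n)‖ ^ (-N) := by
    intro k
    obtain ⟨R, hR, hw⟩ := h3 (m, k) hm H (G : H →ₗ[ℂ] H) (fun i => (h (l i) : H →ₗ[ℂ] H)) loc _
      hG (fun i => hh (l i)) hS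
    have e1 := hw id
    rw [wl_comp (G : H →ₗ[ℂ] H) (fun l => (h l : H →ₗ[ℂ] H)) l] at e1
    have e2 : (wlC G h q j l * W) (uu loc χ' b s k) =
        wl (G : H →ₗ[ℂ] H) (fun l => (h l : H →ₗ[ℂ] H)) q j (fun i => l (id i))
          (loc (el B (m, k))) := by
      rw [mul_apply_eq_comp, hWu, wlC_apply]
      rfl
    rw [e2, e1]
    have n1 : ‖loc (el (ld c (fun i : Fin q => Hh (l i)) q j id B) (m, k))‖ ≤
        A * (C₁ * ‖((m, k) : Ph n)‖ ^ (-N)) := by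
      refine hA _ (h4.mem (hne k)) _ (mul_nonneg hC₁ (hz k)) fun x => ?_
      rw [norm_el]
      refine (hb₁ (m, k) x (hnorm k)).trans (le_of_eq ?_)
      rw [← hJd, zero_add]
    have n2 : ‖loc (el (B' id) (m, k))‖ ≤ A * (C₂ * ‖((m, k) : Ph n)‖ ^ (-N)) := by
      refine hA _ ((h1 id).mem (hne k)) _ (mul_nonneg hC₂ (hz k)) fun x => ?_
      rw [norm_el]
      exact hb₂ (m, k) x (hnorm k)
    have n3 : ‖R id‖ ≤ A * (D * ‖((m, k) : Ph n)‖ ^ (-N)) := by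
      have := hR {id} (fun _ => 1) (fun _ => by simp)
      simpa using this
    calc _ ≤ A * (C₁ * ‖((m, k) : Ph n)‖ ^ (-N)) + A * (C₂ * ‖((m, k) : Ph n)‖ ^ (-N)) +
          A * (D * ‖((m, k) : Ph n)‖ ^ (-N)) :=
          (norm_add_le _ _).trans (add_le_add ((norm_add_le _ _).trans (add_le_add n1 n2)) n3)
      _ = _ := by ring
  have cu : Continuous fun k => (wlC G h q j l * W) (uu loc χ' b s k) :=
    (wlC G h q j l * W).continuous.comp
      (hl.continuous_pw (CS.fmul_mem hχ' hs' contDiff_const))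
  refine ((integrable_tail hNn hm0).const_mul (A * C₁ + A * C₂ + A * D)).mono'
    cu.norm.aestronglyMeasurable (Filter.Eventually.of_forall fun k => ?_)
  rw [norm_norm]
  exact key k

/-- trace formula for words -/
theorem word_trace [CompleteSpace H] (hl : LocRep K dens e rep loc) (c : Coef n V)
    {Hh : Λ → E n → V →L[ℂ] V} (hH : ∀ l, ContDiff ℝ ∞ (Hh l)) {χ χ' : E n → ℝ}
    (hχ : ContDiff ℝ ∞ χ) (hχ' : ContDiff ℝ ∞ χ') (hs : ∀ x, x ∉ K → χ x = 0)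
    (hs' : ∀ x, x ∉ K → χ' x = 0) (hχχ : ∀ x, χ' x * χ x = χ x)
    (vol : V →L[ℂ] V) (q : ℕ) (j : Fin (q + 1) → ℕ) (hJ : n < 2 * ∑ i, j i)
    {m : ℝ} (hm : 1 ≤ m) (G : H →L[ℂ] H) (h : Λ → H →L[ℂ] H) (W M : H →L[ℂ] H)
    (hG : c.Res K m (G : H →ₗ[ℂ] H) loc)
    (hh : HRes K (fun l => (h l : H →ₗ[ℂ] H)) loc Hh) (hG1 : ‖G‖ ≤ 1)
    (hW : ∀ f ∈ CS K V, W (loc f) = loc fun y => vol (f y))
    (hM : ∀ c, M (e c) = loc fun y => (χ y : ℂ) • rep c y) (l : Fin q → Λ)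
    {J : Type} (bs : HilbertBasis J ℂ H) :
    HasSum (fun i => ⟪bs i, (wlC G h q j l * W * M) (bs i)⟫_ℂ)
      (∑ s, ∫ k, ⟪vv dens loc χ b s k, wlC G h q j l (W (uu loc χ' b s k))⟫_ℂ) := by
  obtain ⟨T, hT1, hT2⟩ := hl.nuclear b hχ hχ' hs hs' hχχ (A := wlC G h q j l * W) hM
    fun s => word_int b hl c hH hχ' hs' vol q j hJ hm G h W hG hh hG1 hW l s
  have h5 := hasSum_sum fun s (_ : s ∈ Finset.univ) => (hT2 s).hasSum_trace bs
  have h6 : (fun i => ⟪bs i, (wlC G h q j l * W * M) (bs i)⟫_ℂ) =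
      fun i => ∑ s, ⟪bs i, T s (bs i)⟫_ℂ := by
    funext i
    rw [hT1, sum_apply, inner_sum]
  rw [h6]
  exact h5

end

end Vale.Agent.P223.H765
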