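import Vale.Agent.P223.H765.AsyB
import Vale.Agent.P223.H691.PW
import Vale.Agent.P223.H391.Grow
import Vale.Agent.P223.H441.SpecCl
import Vale.Agent.P223.H566.Ops
import Vale.Agent.P223.X.WtX
import Vale.Agent.P223.H.MinC
import Mathlib.Analysis.InnerProductSpace.Trace

/-! P223, asymptotics: linear algebra and local data in a chart. -/

namespace Vale.Agent.P223.H765

open scoped ContDiff InnerProductSpace Topology
open Complex MeasureTheory Vale.Agent.P223.X
open Vale.Agent.P223.H566 (SpX Core Raw IsCore Cliff Ctx Emb Rsv SpecIntS SpecLocal mulR Fr WB nm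
  SpecSup Gst OpA cdf cl rs rs_eq rs_apply contDiff_cl SpecCl Alg Dec Nuc trH bas wrd rK Coc)
open Vale.Agent.P223.H (E jdet)
open Vale.Agent.P223.H691 (Coef LocRep Ph CS vv uu pw locE locE_eq locE_coe locRep locRes loc_WB
  pw_pair mC_lC mulCS_mem loc_of_vanish)

section lin
variable {n : ℕ} {V : Type} [NormedAddCommGroup V] [InnerProductSpace ℂ V]

theorem contDiff_cdf (K : Cliff n V) {β : E n → Matrix (Fin n) (Fin n) ℝ}
    (hβ : ∀ a k, ContDiff ℝ ∞ (fun y => β y a k)) {f : E n → ℝ} (hf : ContDiff ℝ ∞ f) :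
    ContDiff ℝ ∞ (cdf K β f) := by
  unfold cdf
  simp only [rs_eq]
  exact ContDiff.sum fun k _ => (H.Bridge.contDiff_pd hf (by simp) k).smul (contDiff_cl K hβ k)

/-- Clifford multiplication by `df` in the frame -/
theorem cdf_eq (K : Cliff n V) (β : E n → Matrix (Fin n) (Fin n) ℝ) (f : E n → ℝ) (y : E n) :
    cdf K β f y = ∑ a, rs ((β y).mulVec (fun k => Vale.Agent.P223.H.pd k f y) a) (K.c a) := by
  unfold cdf cl
  simp only [rs_eq, Finset.smul_sum, smul_smul]
  rw [Finset.sum_comm]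
  refine Finset.sum_congr rfl fun a _ => ?_
  rw [← Finset.sum_smul]
  congr 1
  unfold Matrix.mulVec dotProduct
  exact Finset.sum_congr rfl fun k _ => mul_comm _ _

theorem cdf_zero (K : Cliff n V) (β : E n → Matrix (Fin n) (Fin n) ℝ) {f : E n → ℝ} {y : E n}
    (h : f =ᶠ[𝓝 y] fun _ => 0) : cdf K β f y = 0 := by
  unfold cdf
  refine Finset.sum_eq_zero fun k _ => ?_
  have : Vale.Agent.P223.H.pd k f y = 0 := by
    unfold Vale.Agent.P223.H.pd
    rw [h.fderiv_eq]
    simp
  rw [this, rs_eq, zero_smul]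

variable [FiniteDimensional ℂ V]

/-- the trace of the leading term -/
theorem tr_lead (K : Cliff n V) (β : E n → Matrix (Fin n) (Fin n) ℝ) (f : Fin n → E n → ℝ)
    (y : E n) {ι : Type} [Fintype ι] (b : OrthonormalBasis ι ℂ V) :
    ∑ s, ⟪b s, (List.ofFn fun i => cdf K β (f i) y).prod (K.vol (b s))⟫_ℂ =
      ((jdet f y * (β y).det : ℝ) : ℂ) * Module.finrank ℂ V := by
  set P : V →L[ℂ] V := (List.ofFn fun i => cdf K β (f i) y).prod with hP
  have h1 := LinearMap.trace_eq_sum_inner (𝕜 := ℂ) ((P * K.vol : V →L[ℂ] V) : V →ₗ[ℂ] V) b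
  have h2 : LinearMap.trace ℂ V ((P * K.vol : V →L[ℂ] V) : V →ₗ[ℂ] V) =
      LinearMap.trace ℂ V ((K.vol * P : V →L[ℂ] V) : V →ₗ[ℂ] V) :=
    LinearMap.trace_mul_comm ℂ (P : V →ₗ[ℂ] V) (K.vol : V →ₗ[ℂ] V)
  have h3 := H441.specCl n V K
    (Matrix.of fun i a => (β y).mulVec (fun k => Vale.Agent.P223.H.pd k (f i) y) a)
  have h4 : P = (List.ofFn fun i => ∑ a, rs ((Matrix.of fun i a =>
      (β y).mulVec (fun k => Vale.Agent.P223.H.pd k (f i) y) a) i a) (K.c a)).prod := by
    rw [hP]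
    congr 2
    funext i
    rw [cdf_eq]
    rfl
  have h5 : (Matrix.of fun i a => (β y).mulVec (fun k => Vale.Agent.P223.H.pd k (f i) y) a) =
      (Matrix.of fun i j => Vale.Agent.P223.H.pd j (f i) y) * (β y).transpose := by
    ext i a
    simp only [Matrix.of_apply, Matrix.mul_apply, Matrix.transpose_apply, Matrix.mulVec, dotProduct]
    exact Finset.sum_congr rfl fun k _ => mul_comm _ _
  rw [← h4, h5, Matrix.det_mul, Matrix.det_transpose] at h3
  rw [← h2, h1] at h3
  exact h3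

omit [FiniteDimensional ℂ V] in
theorem q2_eq_sq2 (co : Coef n V) {G β : E n → Matrix (Fin n) (Fin n) ℝ}
    (hco : co.g = fun y => (G y)⁻¹) (hF : Fr G β) (y k : E n) :
    co.q2 k y = sq2 ((β y).mulVec k) := by
  have h1 : (G y)⁻¹ = (β y).transpose * β y := by
    refine Matrix.inv_eq_right_inv ?_
    have h2 := hF.orth y
    rw [mul_assoc] at h2
    have h3 := mul_eq_one_comm.1 h2
    rwa [mul_assoc] at h3
  rw [← co.q2_eq, hco]
  dsimp only
  rw [h1, ← Matrix.mulVec_mulVec, star_trivial, Matrix.dotProduct_mulVec, Matrix.vecMul_transpose]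
  unfold sq2 dotProduct
  exact Finset.sum_congr rfl fun j _ => (sq _).symm

end lin

section glob
variable {n : ℕ} {M X Γ I : Type} [TopologicalSpace M] [TopologicalSpace X] [Group Γ]
    [MulAction Γ X] {C : Cov n M X Γ I} {G : I → E n → Matrix (Fin n) (Fin n) ℝ}

/-- lower bound of the scalar curvature -/
theorem scal_lb [Finite I] (hG : MetX C G) :
    ∃ s : ℝ, ∀ i y, s ≤ Vale.Agent.P223.H.scal (G i) y / 4 := by
  have h1 : ∀ i, ∃ b : ℝ, ∀ y ∈ Metric.closedBall (0 : E n) 1,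
      b ≤ Vale.Agent.P223.H.scal (G i) y := by
    intro i
    obtain ⟨b, hb⟩ := (isCompact_closedBall (0 : E n) 1).exists_bound_of_continuousOn
      (f := fun y => Vale.Agent.P223.H.scal (G i) y)
      (Vale.Agent.P223.H.Min.cont_scal (hG.smooth i) (hG.pos i)).continuous.continuousOn
    exact ⟨-b, fun y hy => neg_le_of_abs_le (hb y hy)⟩
  choose b hb using h1
  have : Fintype I := Fintype.ofFinite I
  refine ⟨-(∑ i, |b i|) / 4, fun i y => ?_⟩
  obtain ⟨γ, j, z, hz, h⟩ := Vale.Agent.P223.X.exists_chart C (C.ψ i y)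
  have h2 : Vale.Agent.P223.H.scal (G j) z = Vale.Agent.P223.H.scal (G i) y := by
    refine scal_chart hG (γ := γ) (γ' := 1) ?_
    rw [h, one_smul]
  have h3 := hb j z (by simpa using hz.le)
  rw [h2] at h3
  have h4 : |b j| ≤ ∑ i, |b i| :=
    Finset.single_le_sum (f := fun i => |b i|) (fun _ _ => abs_nonneg _) (Finset.mem_univ j)
  have h5 := neg_abs_le (b j)
  linarith

theorem gst_one [Finite I] (hG : MetX C G) : ∃ s : ℝ, Gst C G s (fun _ => 1) := by
  obtain ⟨s, hs⟩ := scal_lb hG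
  refine ⟨s, fun γ i => contDiff_const, fun _ => one_pos, ⟨0, fun x => ?_⟩, fun γ i y => ?_⟩
  · obtain ⟨γ, i, y, -, rfl⟩ := Vale.Agent.P223.X.exists_chart C x
    rw [gsX_eq hG]
    have : C.rep (fun _ : X => (1 : ℝ)) γ i = fun _ => 1 := rfl
    rw [this]
    simp [Vale.Agent.P223.H.gradSq, Vale.Agent.P223.H.gradIp, Vale.Agent.P223.H.pd]
  · have h1 : Vale.Agent.P223.H.lap (G i) (C.rep (fun _ : X => (1 : ℝ)) γ i) y = 0 := by
      have : C.rep (fun _ : X => (1 : ℝ)) γ i = fun _ => 1 := rfl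
      rw [this]
      simp [Vale.Agent.P223.H.lap, Vale.Agent.P223.H.pd]
    rw [h1, mul_one, mul_one, neg_zero, zero_add]
    exact hs i y

end glob

end Vale.Agent.P223.H765
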