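import Vale.Agent.P223.H765.AsyC

/-! P223, asymptotics: local data in a chart. -/

namespace Vale.Agent.P223.H765

open scoped ContDiff InnerProductSpace Topology
open Complex MeasureTheory Vale.Agent.P223.X
open Vale.Agent.P223.H566 (SpX Core Raw IsCore Cliff Ctx Emb Rsv SpecIntS SpecLocal mulR Fr WB nm
  SpecSup Gst OpA cdf cl rs rs_eq rs_apply contDiff_cl SpecCl Alg Dec Nuc trH bas wrd rK Coc volR)
open Vale.Agent.P223.H (E jdet)
open Vale.Agent.P223.H691 (Coef LocRep Ph CS vv uu pw locE locE_eq locE_coe locRep locRes loc_WB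
  pw_pair mC_lC mulCS_mem loc_of_vanish)

section chart
variable {n : ℕ} {M X Γ I V H : Type} [TopologicalSpace M] [TopologicalSpace X] [Group Γ]
  [MulAction Γ X] [T2Space X]
  [MeasurableSpace X] [NormedAddCommGroup V] [InnerProductSpace ℂ V]
  [NormedAddCommGroup H] [InnerProductSpace ℂ H]
  (c : Ctx n M X Γ I V H) {ι : Type} [Fintype ι] {P : PUX c.C ι} {a h : Γ × ι → H →L[ℂ] H}
  {W : H →L[ℂ] H}

/-- local expression of Clifford multiplication by `d (P.fn l)` -/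
noncomputable def Hs (P : PUX c.C ι) (γ : Γ) (i : I) (l : Γ × ι) : E n → V →L[ℂ] V :=
  cdf c.K (c.S.β i) (c.C.rep (P.fn l) γ i)

omit [T2Space X] in
theorem Hs_smooth (hO : ∀ i, c.C.Ck ∞ (P.φ i)) (γ : Γ) (i : I) (l : Γ × ι) :
    ContDiff ℝ ∞ (Hs c P γ i l) :=
  contDiff_cdf c.K (c.S.fr i).smooth (H391.ck_fn hO l γ i)

omit [T2Space X] in
theorem Hs_fin {K : Set (E n)} (hK : IsCompact K) (γ : Γ) (i : I) :
    ∃ Λ₀ : Finset (Γ × ι), ∀ l, l ∉ Λ₀ → ∀ y ∈ K, c.C.rep (P.fn l) γ i =ᶠ[𝓝 y] fun _ => 0 := by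
  obtain ⟨T, hT, -⟩ := WtX.near P (hK.image (Bas3.chart_emb c.C γ i).continuous)
  refine ⟨T, fun l hl y hy => ?_⟩
  exact (Bas3.chart_emb c.C γ i).continuous.continuousAt.eventually (hT l hl _ ⟨y, hy, rfl⟩)

theorem lC_self (γ : Γ) (i : I) {K : Set (E n)} (hK : IsCompact K) :
    ∀ g ∈ CS K V, ∃ φ : Core c.S, c.E.e φ = locE c γ i g ∧ (φ : Raw Γ I n V) γ i = g := by
  intro g hg
  refine ⟨c.S.lC γ i ⟨g, H691.CS.mem566 hK hg⟩, (locE_eq c γ i _).symm, ?_⟩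
  funext y
  exact c.S.loc_self γ i y

theorem cC_lC {f : X → ℝ} (hf : c.C.Ck ∞ f) (γ : Γ) (i : I) (b : H566.CS n V)
    (hb : (fun y => cdf c.K (c.S.β i) (c.C.rep f γ i) y ((b : E n → V) y)) ∈ H566.CS n V) :
    c.S.cC f hf (c.S.lC γ i b) = c.S.lC γ i ⟨_, hb⟩ := by
  refine Subtype.ext ?_
  have h1 := loc_of_vanish c.S ((c.S.isCore_loc γ i b.2.1 b.2.2).cl hf) γ i ?_
  · change c.S.clR f (c.S.loc γ i b) = c.S.loc γ i _
    rw [h1]
    congr 1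
    funext y
    change cdf _ _ _ y (c.S.loc γ i b γ i y) = _
    rw [c.S.loc_self]
  · intro γ' j y hy
    have : c.S.loc γ i b γ' j y = 0 := c.S.loc_zero fun z _ h => hy ⟨z, h.symm⟩
    change cdf _ _ _ y (c.S.loc γ i b γ' j y) = 0
    rw [this, map_zero]

theorem vC_lC (γ : Γ) (i : I) (b : H566.CS n V)
    (hb : (fun y => c.K.vol ((b : E n → V) y)) ∈ H566.CS n V) :
    c.S.vC (c.S.lC γ i b) = c.S.lC γ i ⟨_, hb⟩ := by
  refine Subtype.ext ?_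
  have h1 := loc_of_vanish c.S ((c.S.isCore_loc γ i b.2.1 b.2.2).vol) γ i ?_
  · change volR c.K (c.S.loc γ i b) = c.S.loc γ i _
    rw [h1]
    congr 1
    funext y
    change c.K.vol (c.S.loc γ i b γ i y) = _
    rw [c.S.loc_self]
  · intro γ' j y hy
    have : c.S.loc γ i b γ' j y = 0 := c.S.loc_zero fun z _ h => hy ⟨z, h.symm⟩
    change c.K.vol (c.S.loc γ i b γ' j y) = 0
    rw [this, map_zero]

theorem hres_h (hO : OpA c.E P a h W) {K : Set (E n)} (hK : IsCompact K) (γ : Γ) (i : I) :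
    HRes K (fun l => (h l : H →ₗ[ℂ] H)) (locE c γ i) (Hs c P γ i) := by
  intro l f hf
  have hm : (fun y => Hs c P γ i l y (f y)) ∈ CS K V := by
    refine ⟨H566.contDiff_clm_apply' (Hs_smooth c hO.sm γ i l) hf.1, fun x hx => ?_⟩
    dsimp only
    rw [hf.2 x hx, map_zero]
  rw [locE_eq c γ i (H691.CS.mem566 hK hf), locE_eq c γ i (H691.CS.mem566 hK hm)]
  change h l (c.E.e _) = _
  rw [hO.h_e l (H391.ck_fn hO.sm l)]
  congr 1
  exact cC_lC c (H391.ck_fn hO.sm l) γ i ⟨f, H691.CS.mem566 hK hf⟩ (H691.CS.mem566 hK hm)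

theorem hres_W (hO : OpA c.E P a h W) {K : Set (E n)} (hK : IsCompact K) (γ : Γ) (i : I) :
    ∀ f ∈ CS K V, W (locE c γ i f) = locE c γ i fun y => c.K.vol (f y) := by
  intro f hf
  have hm : (fun y => c.K.vol (f y)) ∈ CS K V := by
    refine ⟨(c.K.vol.restrictScalars ℝ).contDiff.comp hf.1, fun x hx => ?_⟩
    dsimp only
    rw [hf.2 x hx, map_zero]
  rw [locE_eq c γ i (H691.CS.mem566 hK hf), locE_eq c γ i (H691.CS.mem566 hK hm), hO.W_e]
  congr 1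
  exact vC_lC c γ i _ (H691.CS.mem566 hK hm)

/-- the cutoff function in the chart `γ • ψ i` -/
noncomputable def cut (χ : I → E n → ℝ) (P : PUX c.C ι) (l : Γ × ι) (γ : Γ) (i : I) (y : E n) : ℝ :=
  χ i y * c.C.rep (P.fn l) γ i y

variable [Fintype I] {χ : I → E n → ℝ}

omit [T2Space X] in
theorem cut_smooth (hO : ∀ i, c.C.Ck ∞ (P.φ i)) (hχ : Part c.C χ) (l : Γ × ι) (γ : Γ) (i : I) :
    ContDiff ℝ ∞ (cut c χ P l γ i) := (hχ.smooth i).mul (H391.ck_fn hO l γ i)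

omit [T2Space X] in
theorem cut_zero (hχ : Part c.C χ) (l : Γ × ι) (γ : Γ) (i : I) {y : E n} (hy : 2 ≤ ‖y‖) :
    cut c χ P l γ i y = 0 := by
  unfold cut
  rw [hχ.supp i y hy, zero_mul]

/-- multiplication by a function of the partition of unity -/
theorem exists_U [BorelSpace X] [CompleteSpace H] (hχ : Part c.C χ) (γ : Γ) (i : I) :
    ∃ U : H →L[ℂ] H, ∀ φ, U (c.E.e φ) = c.E.e (c.S.mC (DensX.uu c.C χ i γ) (DensX.Ck_uu hχ i γ) φ) := by
  obtain ⟨b, hb⟩ := (hχ.smooth i).continuous.bounded_above_of_compact_support (DensX.hcs_χ hχ i)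
  have hb' : ∀ x, |DensX.uu c.C χ i γ x| ≤ |b| := by
    intro x
    by_cases h0 : DensX.uu c.C χ i γ x = 0
    · rw [h0, abs_zero]; exact abs_nonneg _
    · obtain ⟨y, -, rfl⟩ := DensX.uu_supp hχ h0
      rw [DensX.uu_chart]
      exact (hb y).trans (le_abs_self _)
  obtain ⟨U, hU, -⟩ := c.E.mul_op c.vol (DensX.Ck_uu hχ i γ) hb'
  exact ⟨U, hU⟩

theorem U_a [BorelSpace X] (hO : OpA c.E P a h W) (hχ : Part c.C χ) {γ : Γ} {i : I}
    {U : H →L[ℂ] H} (hU : ∀ φ, U (c.E.e φ) =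
      c.E.e (c.S.mC (DensX.uu c.C χ i γ) (DensX.Ck_uu hχ i γ) φ)) (l : Γ × ι) (φ : Core c.S) :
    (U * a l) (c.E.e φ) = locE c γ i fun y => (cut c χ P l γ i y : ℂ) • (φ : Raw Γ I n V) γ i y := by
  rw [mul_apply_eq_comp, hO.a_e l (H391.ck_fn hO.sm l), hU,
    mC_lC c.S γ i (DensX.Ck_uu hχ i γ) (hχ.smooth i) (DensX.hcs_χ hχ i)
      (fun y => DensX.uu_chart i γ y) (fun x hx => by
        by_contra h0
        obtain ⟨y, -, rfl⟩ := DensX.uu_supp hχ h0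
        exact hx ⟨y, rfl⟩)]
  have e : (fun y => (cut c χ P l γ i y : ℂ) • (φ : Raw Γ I n V) γ i y) =
      fun y => (χ i y : ℂ) • (c.S.mC (P.fn l) (H391.ck_fn hO.sm l) φ : Raw Γ I n V) γ i y := by
    funext y
    change _ = (χ i y : ℂ) • ((P.fn l (γ • c.C.ψ i y) : ℝ) : ℂ) • _
    rw [smul_smul, ← ofReal_mul]
    rfl
  rw [e, locE_eq c γ i (mulCS_mem c.S _ γ i (hχ.smooth i) (DensX.hcs_χ hχ i))]

/-- decomposition of `a l` -/
theorem a_decomp [BorelSpace X] (hO : OpA c.E P a h W) (hχ : Part c.C χ)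
    {U : Γ → I → H →L[ℂ] H} (hU : ∀ γ i φ, U γ i (c.E.e φ) =
      c.E.e (c.S.mC (DensX.uu c.C χ i γ) (DensX.Ck_uu hχ i γ) φ)) (l : Γ × ι)
    {T : Finset Γ} (hT : ∀ γ, γ ∉ T → ∀ i (y : E n), ‖y‖ ≤ 2 → γ • c.C.ψ i y ∉ tsupport (P.fn l)) :
    ∑ i, ∑ γ ∈ T, U γ i * a l = a l := by
  refine H391.ext_core c.E fun φ => ?_
  simp only [sum_apply, mul_apply_eq_comp, hO.a_e l (H391.ck_fn hO.sm l), hU]
  simp only [← map_sum]
  congr 1
  refine Subtype.ext ?_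
  funext γ' j y
  simp only [AddSubmonoidClass.coe_finsetSum, Finset.sum_apply]
  change ∑ i, ∑ γ ∈ T, (DensX.uu c.C χ i γ (γ' • c.C.ψ j y) : ℂ) •
    ((P.fn l (γ' • c.C.ψ j y) : ℝ) : ℂ) • _ = ((P.fn l (γ' • c.C.ψ j y) : ℝ) : ℂ) • _
  simp only [← Finset.sum_smul]
  by_cases hx : γ' • c.C.ψ j y ∈ tsupport (P.fn l)
  · have h1 := DensX.uu_sum hχ hT hx
    have h2 : ∑ i, ∑ γ ∈ T, (DensX.uu c.C χ i γ (γ' • c.C.ψ j y) : ℂ) = 1 := by
      exact_mod_cast congrArg (fun r : ℝ => (r : ℂ)) h1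
    rw [h2, one_smul]
  · rw [image_eq_zero_of_notMem_tsupport hx]
    simp

end chart

end Vale.Agent.P223.H765
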