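import Vale.Agent.P223.H765.AsyD

/-! P223, asymptotics: the contribution of a chart. -/

namespace Vale.Agent.P223.H765

open scoped ContDiff InnerProductSpace Topology
open Complex MeasureTheory Vale.Agent.P223.X
open Vale.Agent.P223.H566 (SpX Core Raw IsCore Cliff Ctx Emb Rsv SpecIntS SpecLocal mulR Fr WB nm
  SpecSup Gst OpA cdf cl rs rs_eq rs_apply contDiff_cl SpecCl Alg Dec Nuc trH bas wrd rK Coc volR onb)
open Vale.Agent.P223.H (E jdet)
open Vale.Agent.P223.H691 (Coef LocRep Ph CS vv uu pw locE locE_eq locE_coe locRep locRes loc_WB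
  pw_pair mC_lC mulCS_mem loc_of_vanish WB_add WB_mono)
open Vale.Agent.P223.H391 (trI supW)

section nuc
variable {H : Type} [NormedAddCommGroup H] [InnerProductSpace ℂ H] [CompleteSpace H]

theorem nuc_zero : (trI H).nuc 0 ∧ trH (0 : H →L[ℂ] H) = 0 := by
  constructor
  · refine ⟨0, Unit, inferInstance, 0, fun _ => 0, fun _ => 0, stronglyMeasurable_const,
      stronglyMeasurable_const, by simp, by simp, fun x y => by simp⟩
  · simp [trH]

theorem nuc_sum {ι : Type} (T : Finset ι) (A : ι → H →L[ℂ] H) (h : ∀ i ∈ T, (trI H).nuc (A i)) :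
    (trI H).nuc (∑ i ∈ T, A i) ∧ trH (∑ i ∈ T, A i) = ∑ i ∈ T, trH (A i) := by
  classical
  induction T using Finset.induction_on with
  | empty => simpa using nuc_zero
  | insert i T hi ih =>
    obtain ⟨⟨b, hb⟩, h2⟩ := ih fun j hj => h j (Finset.mem_insert_of_mem hj)
    obtain ⟨b', hb'⟩ := h i (Finset.mem_insert_self _ _)
    obtain ⟨h3, h4⟩ := (H691.specTC H).2.1 _ _ _ _ hb' hb
    rw [Finset.sum_insert hi, Finset.sum_insert hi, h4, h2]
    exact ⟨⟨_, h3⟩, rfl⟩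

theorem nuc_of_intRep {α : Type} [MeasurableSpace α] {ν : Measure α} {u v : α → H}
    {T : H →L[ℂ] H} (h : H691.IntRep ν u v T) : (trI H).nuc T := ⟨_, h.nu.nuc⟩

end nuc

section chart
variable {n : ℕ} {M X Γ I V H : Type} [TopologicalSpace M] [TopologicalSpace X] [Group Γ]
  [MulAction Γ X] [Fintype I] [T2Space X] [ConnectedSpace X] [T2Space M]
  [MeasurableSpace X] [BorelSpace X] [NormedAddCommGroup V] [InnerProductSpace ℂ V]
  [FiniteDimensional ℂ V] [NormedAddCommGroup H] [InnerProductSpace ℂ H] [CompleteSpace H]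
  (c : Ctx n M X Γ I V H) {ι : Type} [Fintype ι] {P : PUX c.C ι} {a h : Γ × ι → H →L[ℂ] H}
  {W : H →L[ℂ] H} {χ : I → E n → ℝ}

omit [T2Space X] [ConnectedSpace X] [T2Space M] [BorelSpace X] [CompleteSpace H] [Fintype I] in
theorem main_term (l₀ : Γ × ι) (l : Fin n → Γ × ι) (γ : Γ) (i : I)
    {κ : Type} [Fintype κ] (b : OrthonormalBasis κ ℂ V) :
    ∫ y, ((|(c.S.β i y).det|⁻¹ : ℝ) : ℂ) * ∑ s, dn b (cut c χ P l₀ γ i) c.K.vol (Hs c P γ i) l s y =
      (Module.finrank ℂ V : ℂ) * ((∫ y, χ i y * (c.C.rep (P.fn l₀) γ i y *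
            jdet (fun k => c.C.rep (P.fn (l k)) γ i) y) : ℝ) : ℂ) := by
  rw [← integral_complex_ofReal, ← integral_const_mul]
  refine integral_congr_ae (Filter.Eventually.of_forall fun y => ?_)
  have hd := (c.S.fr i).pos y
  have h1 := tr_lead c.K (c.S.β i) (fun k => c.C.rep (P.fn (l k)) γ i) y b
  simp only [dn]
  rw [← Finset.mul_sum]
  have h2 : ∑ s, ⟪b s, (List.ofFn fun k => Hs c P γ i (l k) y).prod (c.K.vol (b s))⟫_ℂ =
    ((jdet (fun k => c.C.rep (P.fn (l k)) γ i) y * (c.S.β i y).det : ℝ) : ℂ) *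
      Module.finrank ℂ V := h1
  rw [h2, abs_of_pos hd]
  have h3 : ((c.S.β i y).det : ℂ) ≠ 0 := by exact_mod_cast hd.ne'
  unfold cut
  push_cast
  field_simp

theorem chart_asy (hI : SpecIntS) (hL : SpecLocal) (hS : SpecSup) (hn : 1 ≤ n)
    (hO : OpA c.E P a h W) (hχ : Part c.C χ) (γ : Γ) (i : I) (l₀ : Γ × ι) {U : H →L[ℂ] H}
    (hU : ∀ φ, U (c.E.e φ) = c.E.e (c.S.mC (DensX.uu c.C χ i γ) (DensX.Ck_uu hχ i γ) φ))
    (j : Fin (n + 1) → ℕ) (hJ : n < 2 * ∑ i, j i) :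
    ∃ D m₁ : ℝ, 0 ≤ D ∧ 1 ≤ m₁ ∧ ∀ m : ℝ, m₁ ≤ m → ∀ g p : H →L[ℂ] H, Rsv c.E m g p →
      (∀ l, (trI H).nuc (wlC g h n j l * W * (U * a l₀))) ∧
      ∀ T : Finset (Fin n → Γ × ι), ∑ l ∈ T, ‖trH (wlC g h n j l * W * (U * a l₀)) -
        ((((2 * Real.pi) ^ n)⁻¹ * (m ^ ((n : ℤ) - 2 * (∑ i, j i : ℕ)) * cJ n (∑ i, j i)) : ℝ) : ℂ) *
          ((Module.finrank ℂ V : ℂ) * ((∫ y, χ i y * (c.C.rep (P.fn l₀) γ i y *
            jdet (fun k => c.C.rep (P.fn (l k)) γ i) y) : ℝ) : ℂ))‖ ≤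
        D * m ^ ((n : ℤ) - (2 * (∑ i, j i : ℕ) + 1)) := by
  classical
  obtain ⟨χ', hχ', hχ'0, hχ'le, hχ'2, hχ'3⟩ := H691.exists_cut n
  set K := Metric.closedBall (0 : E n) 3 with hKdef
  have hK : IsCompact K := isCompact_closedBall _ _
  have hKn : ∀ y : E n, y ∉ K → 3 < ‖y‖ := fun y hy => by
    rw [hKdef, mem_closedBall_zero_iff, not_le] at hy
    exact hy
  have hs' : ∀ y, y ∉ K → χ' y = 0 := fun y hy => hχ'3 y (hKn y hy).le
  have hcs := cut_smooth c hO.sm hχ l₀ γ i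
  have hs : ∀ y, y ∉ K → cut c χ P l₀ γ i y = 0 := fun y hy =>
    cut_zero c hχ l₀ γ i (by linarith [hKn y hy])
  have hcc : ∀ y, χ' y * cut c χ P l₀ γ i y = cut c χ P l₀ γ i y := fun y => by
    by_cases hy : ‖y‖ ≤ 2
    · rw [hχ'2 y hy, one_mul]
    · rw [cut_zero c hχ l₀ γ i (not_le.1 hy).le, mul_zero]
  have hl := locRep c hI hn hK γ i
  obtain ⟨co, hco, hres⟩ := locRes c hL i
  set b := stdOrthonormalBasis ℂ V with hb
  obtain ⟨s, hs1⟩ := gst_one (C := c.C) c.S.met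
  have hw0 : ∀ x : X, (0 : ℝ) < (fun _ : X => (1 : ℝ)) x := fun _ => one_pos
  obtain ⟨Lh, hLh, hrh⟩ := H391.row_h hI hL hn c.vol c.E (w := fun _ : X => (1 : ℝ))
    continuous_const hw0 hO
  obtain ⟨N, hN, hN'⟩ := loc_WB c hI hn (w := fun _ : X => (1 : ℝ)) continuous_const hw0 hK γ i
  choose Np hNp hNp' using fun s => pw_pair c (w := fun _ : X => (1 : ℝ)) hw0 hK γ i
    (vv_mem b hcs hs hl s)
  obtain ⟨Λ₀, hΛ₀⟩ := Hs_fin c (P := P) hK γ i
  have hpi : (0 : ℝ) < ((2 * Real.pi) ^ n)⁻¹ := by positivity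
  set d : ℝ := ∑ s, ((2 * Real.pi) ^ n)⁻¹ * (N * Np s) with hd
  have hd0 : 0 ≤ d := Finset.sum_nonneg fun s _ =>
    mul_nonneg hpi.le (mul_nonneg hN (hNp s))
  have hβc : Continuous fun y => (c.S.β i y).det := by
    refine Continuous.matrix_det ?_
    exact continuous_matrix fun a k => ((c.S.fr i).smooth a k).continuous
  obtain ⟨D, hD, hD'⟩ := pair_asy b hl (lC_self c γ i hK) co (Hs_smooth c hO.sm γ i) Λ₀
    (fun l hl y hy => cdf_zero _ _ (hΛ₀ l hl y hy)) (β := c.S.β i)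
    (fun y k => q2_eq_sq2 co hco (c.S.fr i) y k) (fun y => ((c.S.fr i).pos y).ne') hβc hcs hχ' hs
    hs' hcc c.K.vol hLh hd0 n j hJ
  refine ⟨D, max 1 (1 + |s|), hD, le_max_left _ _, fun m hm g p hR => ?_⟩
  have hm1 : 1 ≤ m := (le_max_left _ _).trans hm
  have hm2 : 1 + |s| ≤ m := (le_max_right _ _).trans hm
  have hm0 : 0 < m := by linarith
  have hm4 : 1 ≤ m ^ 2 + s := by
    have h1 := neg_abs_le s
    have h2 := abs_nonneg s
    nlinarith
  have hg1 : ‖g‖ ≤ 1 := g.opNorm_le_bound zero_le_one fun x => by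
    rw [one_mul]; exact H691.Rsv.norm_le hm1 hR x
  have hGr := hres K hK γ m g p hm0 hR
  have hhr := hres_h c hO hK γ i
  have hWr := hres_W c hO hK γ i
  have hM := U_a c hO hχ hU l₀
  have hint : ∀ l s, Integrable fun k => ‖(wlC g h n j l * W) (uu (locE c γ i) χ' b s k)‖ :=
    fun l s => word_int b hl co (Hs_smooth c hO.sm γ i) hχ' hs' c.K.vol n j hJ hm1 g h W hGr hhr
      hg1 hWr l s
  constructor
  · intro l
    obtain ⟨T, hT1, hT2⟩ := hl.nuclear b hcs hχ' hs hs' hcc (A := wlC g h n j l * W) hM (hint l)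
    rw [hT1]
    exact (nuc_sum _ _ fun s _ => nuc_of_intRep (hT2 s)).1
  intro T
  have hSB : SBd K Lh (g : H →ₗ[ℂ] H) (fun l => (h l : H →ₗ[ℂ] H)) (locE c γ i)
      (fun a u => WB c.E (fun _ : X => (1 : ℝ)) (N * a) u) := by
    refine ⟨?_, fun a b x y hx hy => ?_, fun a x z ha hz hx => ?_, fun a x ha hx => ?_,
      fun T a u ha hu => ?_, fun f hf a ha hfa => hN' f hf a ha hfa⟩
    · rw [mul_zero]
      exact (supW c.E _ hw0).zero 0 le_rfl
    · rw [mul_add]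
      exact WB_add hx hy
    · exact (supW c.E _ hw0).smul _ _ z (mul_nonneg hN ha) hz hx
    · have h1 := H391.op_g hS c hn hs1 hm0 (by linarith) hR (N * a) x (mul_nonneg hN ha) hx
      refine (supW c.E _ hw0).mono _ _ _ ?_ h1
      have h2 : (m ^ 2 + s)⁻¹ ≤ 1 := inv_le_one_of_one_le₀ hm4
      exact mul_le_of_le_one_left (mul_nonneg hN ha) h2
    · have h1 := hrh T (N * a) u (mul_nonneg hN ha) hu
      have h2 : N * (Lh * a) = Lh * (N * a) := by ring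
      rw [h2]
      exact h1
  have hPB : ∀ s k a u, 0 ≤ a → WB c.E (fun _ : X => (1 : ℝ)) (N * a) u →
      ‖⟪vv (Vale.Agent.P223.H.dens (c.G i)) (locE c γ i) (cut c χ P l₀ γ i) b s k, u⟫_ℂ‖ ≤ d * a := by
    intro s k a u ha hu
    have h1 := hNp' s k (N * a) u hu
    simp only [vv]
    rw [inner_smul_left, norm_mul, Complex.conj_ofReal, Complex.norm_real,
      Real.norm_of_nonneg hpi.le]
    calc ((2 * Real.pi) ^ n)⁻¹ * _ ≤ ((2 * Real.pi) ^ n)⁻¹ * (N * a * Np s) := by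
          gcongr
      _ = ((2 * Real.pi) ^ n)⁻¹ * (N * Np s) * a := by ring
      _ ≤ d * a := by
          refine mul_le_mul_of_nonneg_right ?_ ha
          exact Finset.single_le_sum (f := fun s => ((2 * Real.pi) ^ n)⁻¹ * (N * Np s))
            (fun s _ => mul_nonneg hpi.le (mul_nonneg hN (hNp s))) (Finset.mem_univ s)
  have h1 := hD' m hm1 g h W _ hGr hhr hSB hWr hPB T
  refine le_trans (le_of_eq (Finset.sum_congr rfl fun l _ => ?_)) h1
  have h2 := (word_trace b hl co (Hs_smooth c hO.sm γ i) hcs hχ' hs hs' hcc c.K.vol n j hJ hm1 g h W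
    (U * a l₀) hGr hhr hg1 hWr hM l (bas H)).tsum_eq
  have h3 : trH (wlC g h n j l * W * (U * a l₀)) = ∑ s, ∫ k,
      ⟪vv (Vale.Agent.P223.H.dens (c.G i)) (locE c γ i) (cut c χ P l₀ γ i) b s k,
        wlC g h n j l (W (uu (locE c γ i) χ' b s k))⟫_ℂ := h2
  rw [h3, main_term c l₀ l γ i b]

end chart

end Vale.Agent.P223.H765
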