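import Vale.Agent.P223.H765.AsyE
import Vale.Agent.P223.X.Form

/-! P223, asymptotics: cyclicity of the trace, summation over the charts. -/

namespace Vale.Agent.P223.H765

open scoped ContDiff InnerProductSpace Topology
open Complex MeasureTheory Vale.Agent.P223.X
open Vale.Agent.P223.H566 (SpX Core Raw IsCore Cliff Ctx Emb Rsv SpecIntS SpecLocal mulR Fr WB nm
  SpecSup Gst OpA Alg Dec Nuc trH bas wrd rK Coc SpecAlg SpecDec SpecAsy)
open Vale.Agent.P223.H (E jdet)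
open Vale.Agent.P223.H391 (trI nuc_kg)

section words
variable {H : Type} [NormedAddCommGroup H] [InnerProductSpace ℂ H] {Λ : Type}

theorem wlC_eq (g : H →L[ℂ] H) (h : Λ → H →L[ℂ] H) : ∀ (q : ℕ) (j : Fin (q + 1) → ℕ)
    (l : Fin q → Λ), wlC g h q j l =
      g ^ j 0 * (List.ofFn fun i : Fin q => h (l i) * g ^ j i.succ).prod := by
  intro q
  induction q with
  | zero => intro j l; simp [wlC]
  | succ q ih =>
    intro j l
    rw [wlC, ih, List.ofFn_succ, List.prod_cons, mul_assoc (h (l 0))]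

variable {Γ ι : Type}

theorem wrd_wlC {n : ℕ} (a h : Γ × ι → H →L[ℂ] H) (g : H →L[ℂ] H) (j : Fin (n + 1) → ℕ)
    (l : Fin (n + 1) → Γ × ι) :
    wrd a h g j l = a (l 0) * wlC g h n (fun i => j i + 1) (fun i => l i.succ) := by
  rw [wlC_eq, wrd, mul_assoc]

end words

section cyc
variable {H : Type} [NormedAddCommGroup H] [InnerProductSpace ℂ H] [CompleteSpace H]
  {Γ ι : Type} [Group Γ] {n : ℕ} {m : ℝ} {a h : Γ × ι → H →L[ℂ] H} {W g p : H →L[ℂ] H}

theorem nuc_kw [Countable Γ] [Fintype ι] {k : Γ × ι → H →L[ℂ] H} {w : Γ → ℝ} {A : ℕ → ℝ}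
    (hA : Alg n m a h W g p) (hD : Dec n m a h g p k w A) (hw : ∀ γ, 0 ≤ w γ) (hs : Summable w)
    {j : Fin (n + 1) → ℕ} {q : Fin (n + 1)} (hj : n < 2 * j q) (l₀ : Γ × ι)
    (l : Fin n → Γ × ι) : (trI H).nuc (k l₀ * wlC g h n j l) := by
  rw [wlC_eq, ← mul_assoc]
  induction q using Fin.cases with
  | zero => exact (trI H).right _ _ (nuc_kg hA hD hw hs hj l₀)
  | succ q =>
    refine (trI H).left _ _ ((trI H).prod_mem (x := h (l q) * g ^ j q.succ)
      ((List.mem_ofFn' _ _).2 ⟨q, rfl⟩) ?_)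
    have e : h (l q) * g ^ j q.succ = h (l q) * (k (l q) * g ^ j q.succ) := by
      rw [← mul_assoc, (hD.kh (l q)).2]
    rw [e]
    exact (trI H).left _ _ (nuc_kg hA hD hw hs hj (l q))

theorem tr_cyc [Countable Γ] [Fintype ι] {k : Γ × ι → H →L[ℂ] H} {w : Γ → ℝ} {A : ℕ → ℝ}
    (hA : Alg n m a h W g p) (hD : Dec n m a h g p k w A) (hw : ∀ γ, 0 ≤ w γ) (hs : Summable w)
    {j : Fin (n + 1) → ℕ} {q : Fin (n + 1)} (hj : n < 2 * j q) (l₀ : Γ × ι)
    (l : Fin n → Γ × ι) {τ : Type} (T : Finset τ) (U : τ → H →L[ℂ] H)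
    (hU : ∑ i ∈ T, U i * a l₀ = a l₀)
    (hn : ∀ i ∈ T, (trI H).nuc (wlC g h n j l * W * (U i * a l₀))) :
    trH (W * (a l₀ * wlC g h n j l)) = ∑ i ∈ T, trH (wlC g h n j l * W * (U i * a l₀)) := by
  set Y := wlC g h n j l with hY
  have h1 : (trI H).nuc (k l₀ * Y) := nuc_kw hA hD hw hs hj l₀ l
  have h2 : W * (a l₀ * Y) = ∑ i ∈ T, (W * (U i * a l₀)) * (k l₀ * Y) := by
    have e : ∀ i, (W * (U i * a l₀)) * (k l₀ * Y) = W * ((U i * a l₀) * Y) := by
      intro i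
      calc (W * (U i * a l₀)) * (k l₀ * Y) = W * (U i * (a l₀ * k l₀) * Y) := by
            simp only [mul_assoc]
        _ = W * ((U i * a l₀) * Y) := by rw [(hD.ka l₀).2]
    simp only [e]
    rw [← Finset.mul_sum, ← Finset.sum_mul, hU]
  rw [h2, (nuc_sum T _ fun i _ => (trI H).left _ _ h1).2]
  refine Finset.sum_congr rfl fun i hi => ?_
  have h3 := (trI H).comm (W * (U i * a l₀)) _ h1
  have h4 := (trI H).comm (k l₀) _ (hn i hi)
  change trH _ = trH _ at h3 h4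
  rw [h3]
  have e1 : k l₀ * Y * (W * (U i * a l₀)) = k l₀ * (Y * W * (U i * a l₀)) := by
    simp only [mul_assoc]
  have e2 : Y * W * (U i * a l₀) * k l₀ = Y * W * (U i * a l₀) := by
    calc Y * W * (U i * a l₀) * k l₀ = Y * W * (U i * (a l₀ * k l₀)) := by simp only [mul_assoc]
      _ = _ := by rw [(hD.ka l₀).2]
  rw [e1, h4, e2]

end cyc

/-- pigeonhole -/
theorem exists_big {n k : ℕ} (hk : (n + 1) * n ≤ k) {j : Fin (n + 1) → ℕ}
    (hj : j ∈ Finset.Nat.antidiagonalTuple (n + 1) k) : ∃ q, n < 2 * (j q + 1) := by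
  by_contra hc
  push Not at hc
  have h1 := Finset.Nat.mem_antidiagonalTuple.1 hj
  have h2 : ∑ i, (j i + 1) ≤ (n + 1) * n := by
    calc ∑ i, (j i + 1) ≤ ∑ _i : Fin (n + 1), n := Finset.sum_le_sum fun i _ => by
          have := hc i
          omega
      _ = (n + 1) * n := by simp
  rw [Finset.sum_add_distrib, h1] at h2
  simp at h2
  omega

theorem sum_succ {n k : ℕ} {j : Fin (n + 1) → ℕ}
    (hj : j ∈ Finset.Nat.antidiagonalTuple (n + 1) k) : ∑ i, (j i + 1) = k + (n + 1) := by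
  rw [Finset.sum_add_distrib, Finset.Nat.mem_antidiagonalTuple.1 hj]
  simp

end Vale.Agent.P223.H765
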