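import Vale.Agent.P223.H440.GA2
import Vale.Agent.P223.H765.Cut1

/-! BLOCK V3c: cut-off functions. -/

namespace Vale.Agent.P223.H765.Cut

open scoped ContDiff Topology
open MeasureTheory Set
open H566.NV

/-- BLOCK V3c -/
theorem specCut (hD : SpecDst) : SpecCut := by
  intro n X _ _ c g x r e hn hc hg hr he s s' hs hss' hs'r
  obtain ⟨-, hbal⟩ := hD n X c g x r e hn hc hg hr he
  obtain ⟨k, hk, hk01, hk1, hk0, hkL⟩ := exists_cut hss'
  have hd : 0 < s' - s := by linarith
  obtain ⟨u, hu1, hu2, hu3, -, hu5, hu6⟩ := H440.NL.rad hn hc hg hr he hk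
    (a := s + (s' - s) / 8) (r' := s' - (s' - s) / 8) (by linarith) hk1 (by linarith) hk0 hkL
  have hval : ∀ z, 0 ≤ u z ∧ u z ≤ 1 := by
    intro z
    by_cases hz : z ∈ e '' {w | nrm c g x w ≤ s' - (s' - s) / 8}
    · obtain ⟨w, hw, rfl⟩ := hz
      have hw' : nrm c g x w ≤ s' - (s' - s) / 8 := hw
      rw [hu2 w (by linarith)]
      exact hk01 _
    · rw [hu3 z hz]
      exact ⟨le_rfl, zero_le_one⟩
  refine ⟨u, hu1, hval, fun z hz => ?_, ?_, hu5⟩
  · rw [hbal s hs (by linarith)] at hz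
    obtain ⟨w, hw, rfl⟩ := hz
    have hw' : nrm c g x w < s := hw
    rw [hu2 w (by linarith)]
    exact hk1 _ (by linarith)
  · rw [hbal s' (by linarith) hs'r.le]
    have h1 : tsupport u ⊆ e '' {w | nrm c g x w ≤ s' - (s' - s) / 8} := by
      refine closure_minimal (fun z hz => ?_) hu6
      by_contra h
      exact hz (hu3 z h)
    refine h1.trans ?_
    rintro _ ⟨w, hw, rfl⟩
    have hw' : nrm c g x w ≤ s' - (s' - s) / 8 := hw
    exact ⟨w, show nrm c g x w < s' by linarith, rfl⟩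

end Vale.Agent.P223.H765.Cut
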