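import Vale.Agent.P223.H691.Iter

/-! P223, asymptotics: words in the resolvent and local operators, applied to plane waves. -/

namespace Vale.Agent.P223.H765

open scoped ContDiff
open H691

section
variable {n : ℕ} {V : Type} [NormedAddCommGroup V] [NormedSpace ℂ V] {Λ : Type}
  {H : Type} [AddCommGroup H] [Module ℂ H]

/-- `SB c u` means `|u| ≤ c`. -/
structure SBd (K : Set (E n)) (L : ℝ) (G : H →ₗ[ℂ] H) (h : Λ → H →ₗ[ℂ] H)
    (loc : (E n → V) → H) (SB : ℝ → H → Prop) : Prop where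
  zero : SB 0 0
  add : ∀ a b x y, SB a x → SB b y → SB (a + b) (x + y)
  smul : ∀ a x (z : ℂ), 0 ≤ a → ‖z‖ ≤ 1 → SB a x → SB a (z • x)
  op : ∀ a x, 0 ≤ a → SB a x → SB a (G x)
  row : ∀ (T : Finset Λ) a (u : Λ → H), 0 ≤ a → (∀ l ∈ T, SB a (u l)) →
    SB (L * a) (∑ l ∈ T, h l (u l))
  loc : ∀ f ∈ CS K V, ∀ a, 0 ≤ a → (∀ x, ‖f x‖ ≤ a) → SB a (loc f)

/-- nested bounds -/
def NBd (SB : ℝ → H → Prop) {q : ℕ} (c : ℝ) (R : (Fin q → Λ) → H) : Prop :=
  ∀ (T : Finset (Fin q → Λ)) (z : (Fin q → Λ) → ℂ), (∀ l, ‖z l‖ ≤ 1) →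
    SB c (∑ l ∈ T, z l • R l)

variable {K : Set (E n)} {L : ℝ} {G : H →ₗ[ℂ] H} {h : Λ → H →ₗ[ℂ] H} {loc : (E n → V) → H}
  {SB : ℝ → H → Prop}

theorem NBd.add (hS : SBd K L G h loc SB) {q : ℕ} {a b : ℝ} {R R' : (Fin q → Λ) → H}
    (h1 : NBd SB a R) (h2 : NBd SB b R') : NBd SB (a + b) (fun l => R l + R' l) := by
  intro T z hz
  simp only [smul_add, Finset.sum_add_distrib]
  exact hS.add _ _ _ _ (h1 T z hz) (h2 T z hz)

theorem NBd.op (hS : SBd K L G h loc SB) {q : ℕ} {a : ℝ} (ha : 0 ≤ a) {R : (Fin q → Λ) → H}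
    (h1 : NBd SB a R) : NBd SB a (fun l => G (R l)) := by
  intro T z hz
  have h2 := hS.op _ _ ha (h1 T z hz)
  simp only [map_sum, map_smul] at h2
  exact h2

theorem NBd.pow (hS : SBd K L G h loc SB) {q : ℕ} {a : ℝ} (ha : 0 ≤ a) {R : (Fin q → Λ) → H}
    (h1 : NBd SB a R) (j : ℕ) : NBd SB a (fun l => (G ^ j) (R l)) := by
  induction j with
  | zero => simpa using h1
  | succ j ih =>
    simp only [pow_succ', Module.End.mul_apply]
    exact ih.op hS ha

theorem NBd.row (hS : SBd K L G h loc SB) {q : ℕ} {a : ℝ} (ha : 0 ≤ a) {R : (Fin q → Λ) → H}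
    (h1 : NBd SB a R) : NBd SB (L * a) (fun l : Fin (q + 1) → Λ => h (l 0) (R fun i => l i.succ)) := by
  classical
  intro T z hz
  let T' : Λ → Finset (Fin q → Λ) := fun a =>
    (T.filter fun l => l 0 = a).image fun l i => l i.succ
  have h2 : ∑ l ∈ T, z l • h (l 0) (R fun i => l i.succ) = ∑ a ∈ T.image (fun l => l 0),
      h a (∑ l ∈ T' a, z (Fin.cons a l) • R l) := by
    rw [← Finset.sum_fiberwise_of_maps_to (s := T) (t := T.image (fun l => l 0))
      (g := fun l => l 0) (fun l hl => Finset.mem_image_of_mem _ hl)]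
    refine Finset.sum_congr rfl fun a _ => ?_
    have hinj : Set.InjOn (fun (l : Fin (q + 1) → Λ) (i : Fin q) => l i.succ)
        (T.filter fun l => l 0 = a) := by
      intro l hl l' hl' h
      simp only [Finset.coe_filter, Set.mem_ofPred_eq] at hl hl'
      funext i
      refine Fin.cases ?_ (fun i => ?_) i
      · rw [hl.2, hl'.2]
      · exact congrFun h i
    rw [Finset.sum_image hinj, map_sum]
    refine Finset.sum_congr rfl fun l hl => ?_
    have hl0 : l 0 = a := (Finset.mem_filter.1 hl).2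
    have hc : (Fin.cons a (fun i => l i.succ) : Fin (q + 1) → Λ) = l := by
      rw [← hl0]
      exact Fin.cons_self_tail l
    rw [hc, hl0, map_smul]
  rw [h2]
  exact hS.row _ _ _ ha fun b _ => h1 (T' b) (fun l => z (Fin.cons b l)) fun l => hz _

/-- families with finite support -/
theorem NBd.of_fin (hS : SBd K L G h loc SB) {q : ℕ} (T₀ : Finset (Fin q → Λ))
    {a : (Fin q → Λ) → ℝ} (ha : ∀ l, 0 ≤ a l) {R : (Fin q → Λ) → H}
    (h0 : ∀ l, l ∉ T₀ → R l = 0) (h1 : ∀ l, SB (a l) (R l)) : NBd SB (∑ l ∈ T₀, a l) R := by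
  classical
  intro T z hz
  have h2 : ∑ l ∈ T, z l • R l = ∑ l ∈ T₀, (if l ∈ T then z l else 0) • R l := by
    have e1 : ∑ l ∈ T₀, (if l ∈ T then z l else 0) • R l = ∑ l ∈ T₀ ∪ T,
        (if l ∈ T then z l else 0) • R l := by
      refine Finset.sum_subset Finset.subset_union_left fun l _ hl => ?_
      rw [h0 l hl, smul_zero]
    rw [e1]
    have e2 : ∑ l ∈ T, z l • R l = ∑ l ∈ T, (if l ∈ T then z l else 0) • R l :=
      Finset.sum_congr rfl fun l hl => by rw [if_pos hl]
    rw [e2]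
    refine Finset.sum_subset Finset.subset_union_right fun l _ hl => ?_
    rw [if_neg hl, zero_smul]
  rw [h2]
  have h3 : ∀ S : Finset (Fin q → Λ), SB (∑ l ∈ S, a l)
      (∑ l ∈ S, (if l ∈ T then z l else 0) • R l) := by
    intro S
    induction S using Finset.induction_on with
    | empty => simpa using hS.zero
    | insert b S hb ih =>
      rw [Finset.sum_insert hb, Finset.sum_insert hb]
      refine hS.add _ _ _ _ (hS.smul _ _ _ (ha b) ?_ (h1 b)) ih
      split_ifs
      · exact hz b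
      · simp
  exact h3 T₀

/-- the word `G^{j 0} h_{l 0} G^{j 1} h_{l 1} ⋯ h_{l (q-1)} G^{j q}` -/
def wl (G : H →ₗ[ℂ] H) (h : Λ → H →ₗ[ℂ] H) : ∀ q : ℕ, (Fin (q + 1) → ℕ) → (Fin q → Λ) → H →ₗ[ℂ] H
  | 0, j, _ => G ^ j 0
  | q + 1, j, l => G ^ j 0 * (h (l 0) * wl G h q (fun i => j i.succ) fun i => l i.succ)

/-- the leading symbol -/
noncomputable def ld (c : Coef n V) (Hh : Λ → E n → V →L[ℂ] V) : ∀ q : ℕ, (Fin (q + 1) → ℕ) →
    (Fin q → Λ) → (Ph n × E n → V) → Ph n × E n → V
  | 0, j, _, B => c.mh^[j 0] B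
  | q + 1, j, l, B => c.mh^[j 0] fun z => Hh (l 0) z.2
      (ld c Hh q (fun i => j i.succ) (fun i => l i.succ) B z)

theorem mh_add (c : Coef n V) (B B' : Ph n × E n → V) (m : ℕ) :
    c.mh^[m] (B + B') = c.mh^[m] B + c.mh^[m] B' := by
  induction m with
  | zero => rfl
  | succ m ih =>
    rw [Function.iterate_succ_apply', Function.iterate_succ_apply', Function.iterate_succ_apply',
      ih]
    funext q
    simp only [Coef.mh, Pi.add_apply, smul_add]

theorem symGe_mh (c : Coef n V) {r : ℤ} {B : Ph n × E n → V} (hB : SymGe K r B) (m : ℕ) :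
    SymGe K (r + 2 * m) (c.mh^[m] B) := by
  induction m with
  | zero => simpa using hB
  | succ m ih =>
    rw [Function.iterate_succ_apply']
    exact (ih.mh c).mono (by push_cast; omega)

theorem symGe_ld (c : Coef n V) {Hh : Λ → E n → V →L[ℂ] V} (hH : ∀ l, ContDiff ℝ ∞ (Hh l))
    {r : ℤ} {B : Ph n × E n → V} (hB : SymGe K r B) : ∀ (q : ℕ) (j : Fin (q + 1) → ℕ)
    (l : Fin q → Λ), SymGe K (r + 2 * ((∑ i, j i : ℕ) : ℤ)) (ld c Hh q j l B) := by
  intro q
  induction q with
  | zero =>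
    intro j l
    simpa [ld] using symGe_mh c hB (j 0)
  | succ q ih =>
    intro j l
    have h1 := ((ih (fun i => j i.succ) (fun i => l i.succ)).clm (hH (l 0)))
    refine (symGe_mh c h1 (j 0)).mono ?_
    rw [Fin.sum_univ_succ]
    push_cast
    omega

theorem mh_apply (c : Coef n V) (B : Ph n × E n → V) (m : ℕ) (z : Ph n × E n) :
    (c.mh^[m] B) z = c.h z ^ m • B z := by
  induction m with
  | zero => simp
  | succ m ih =>
    rw [Function.iterate_succ_apply', Coef.mh, ih, smul_smul, pow_succ']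

/-- The leading symbol. -/
theorem ld_apply (c : Coef n V) (Hh : Λ → E n → V →L[ℂ] V) (B : Ph n × E n → V) :
    ∀ (q : ℕ) (j : Fin (q + 1) → ℕ) (l : Fin q → Λ) (z : Ph n × E n), ld c Hh q j l B z =
      c.h z ^ (∑ i, j i) • (List.ofFn fun i => Hh (l i) z.2).prod (B z) := by
  intro q
  induction q with
  | zero =>
    intro j l z
    simp [ld, mh_apply]
  | succ q ih =>
    intro j l z
    rw [ld, mh_apply, ih, Fin.sum_univ_succ j, List.ofFn_succ, List.prod_cons, pow_add, mul_smul]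
    have h1 : ∀ (t : ℝ) (v : V), Hh (l 0) z.2 (t • v) = t • Hh (l 0) z.2 v := fun t v => by
      rw [← Complex.coe_smul, map_smul, Complex.coe_smul]
    rw [h1]
    rfl

theorem el_zero_of (p : Ph n) {B : Ph n × E n → V} (h : ∀ x, B (p, x) = 0) :
    el B p = 0 := by
  funext x
  unfold el pw
  simp [h]

/-- the labels which meet `K` -/
def Good (Λ₀ : Finset Λ) {q : ℕ} (l : Fin q → Λ) : Prop := ∀ i, l i ∈ Λ₀

theorem ld_bad (c : Coef n V) {Hh : Λ → E n → V →L[ℂ] V} {Λ₀ : Finset Λ}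
    (h0 : ∀ l, l ∉ Λ₀ → ∀ y ∈ K, Hh l y = 0) {r : ℤ} {B : Ph n × E n → V} (hB : SymGe K r B)
    {q : ℕ} (j : Fin (q + 1) → ℕ) (l : Fin q → Λ) (hl : ¬ Good Λ₀ l) {p : Ph n} (hp : p ≠ 0)
    (x : E n) : ld c Hh q j l B (p, x) = 0 := by
  rw [ld_apply]
  by_cases hx : x ∈ K
  · unfold Good at hl
    push Not at hl
    obtain ⟨i, hi⟩ := hl
    have h1 : (List.ofFn fun i => Hh (l i) x).prod = 0 := by
      refine List.prod_eq_zero ?_
      rw [List.mem_ofFn]
      exact ⟨i, h0 _ hi x hx⟩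
    simp only [h1, zero_apply, smul_zero]
  · simp only [hB.supp hp hx, map_zero, smul_zero]

/-- Compatibility of the local operators with `loc`. -/
def HRes (K : Set (E n)) (h : Λ → H →ₗ[ℂ] H) (loc : (E n → V) → H)
    (Hh : Λ → E n → V →L[ℂ] V) : Prop :=
  ∀ l, ∀ f ∈ CS K V, h l (loc f) = loc fun y => Hh l y (f y)

/-- Expansion of words applied to plane waves. -/
theorem expand (c : Coef n V) (hK : IsCompact K) {Hh : Λ → E n → V →L[ℂ] V}
    (hH : ∀ l, ContDiff ℝ ∞ (Hh l)) (Λ₀ : Finset Λ) (h0 : ∀ l, l ∉ Λ₀ → ∀ y ∈ K, Hh l y = 0)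
    (N : ℤ) (L : ℝ) (hL : 0 ≤ L) {r : ℤ} {B : Ph n × E n → V} (hB : SymGe K r B) :
    ∀ (q : ℕ) (j : Fin (q + 1) → ℕ), ∃ (B' : (Fin q → Λ) → Ph n × E n → V) (D : ℝ), 0 ≤ D ∧
      (∀ l, SymGe K (r + 2 * ((∑ i, j i : ℕ) : ℤ) + 1) (B' l)) ∧
      (∀ l, ¬ Good Λ₀ l → B' l = 0) ∧
      ∀ p : Ph n, 1 ≤ p.1 → ∀ (H : Type) [AddCommGroup H] [Module ℂ H] (G : H →ₗ[ℂ] H)
        (h : Λ → H →ₗ[ℂ] H) (loc : (E n → V) → H) (SB : ℝ → H → Prop), c.Res K p.1 G loc →
        HRes K h loc Hh → SBd K L G h loc SB →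
        ∃ R : (Fin q → Λ) → H, NBd SB (D * ‖p‖ ^ (-N)) R ∧
          ∀ l, wl G h q j l (loc (el B p)) = loc (el (ld c Hh q j l B) p) +
            loc (el (B' l) p) + R l := by
  classical
  have hadd : ∀ (H : Type) [AddCommGroup H] [Module ℂ H] (G : H →ₗ[ℂ] H) (loc : (E n → V) → H)
      (μ : ℝ), c.Res K μ G loc → loc 0 = 0 := by
    intro H _ _ G loc μ hG
    have := hG.1 0 0 (CS K V).zero_mem (CS K V).zero_mem
    rw [add_zero] at this
    exact left_eq_add.1 this
  have hp1 : ∀ p : Ph n, 1 ≤ p.1 → p ≠ 0 ∧ 1 ≤ ‖p‖ := by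
    intro p hp
    have h1 : 1 ≤ ‖p‖ := hp.trans ((le_abs_self _).trans (norm_fst_le p))
    refine ⟨?_, h1⟩
    rintro rfl
    simp at h1
    linarith
  intro q
  induction q with
  | zero =>
    intro j
    obtain ⟨B₁, R, h1, h2, h3⟩ := c.iterate hK.isClosed hB N (j 0)
    choose D hD hb using fun i => (h2 i).bound hK
    refine ⟨fun _ => B₁, ∑ i ∈ Finset.range (j 0), D i, Finset.sum_nonneg fun i _ => hD i,
      fun l => ?_, fun l hl => absurd (fun i => i.elim0) hl, fun p hp H _ _ G h loc SB hG hh hS => ?_⟩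
    · refine h1.mono ?_
      simp
    · obtain ⟨hp0, hp1⟩ := hp1 p hp
      refine ⟨fun _ => ∑ i ∈ Finset.range (j 0), (G ^ (i + 1)) (loc (el (R i) p)), ?_, fun l =>
        h3 p hp0 H G loc hG⟩
      have hz : (0 : ℝ) ≤ ‖p‖ ^ (-N) := zpow_nonneg (norm_nonneg _) _
      have hpow : ∀ (j : ℕ) x a, 0 ≤ a → SB a x → SB a ((G ^ j) x) := by
        intro j
        induction j with
        | zero => intro x a _ hx; simpa using hx
        | succ j ih =>
          intro x a ha hx
          rw [pow_succ', Module.End.mul_apply]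
          exact hS.op _ _ ha (ih x a ha hx)
      have hsum : ∀ J : ℕ, SB (∑ i ∈ Finset.range J, D i * ‖p‖ ^ (-N))
          (∑ i ∈ Finset.range J, (G ^ (i + 1)) (loc (el (R i) p))) := by
        intro J
        induction J with
        | zero => simpa using hS.zero
        | succ J ih =>
          rw [Finset.sum_range_succ, Finset.sum_range_succ]
          refine hS.add _ _ _ _ ih (hpow _ _ _ (mul_nonneg (hD J) hz) ?_)
          refine hS.loc _ ((h2 J).mem hp0) _ (mul_nonneg (hD J) hz) fun x => ?_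
          rw [norm_el]
          exact hb J p x hp1
      rw [Finset.sum_mul]
      have h7 := NBd.of_fin hS (q := 0) Finset.univ
        (a := fun _ => ∑ i ∈ Finset.range (j 0), D i * ‖p‖ ^ (-N))
        (fun _ => Finset.sum_nonneg fun i _ => mul_nonneg (hD i) hz)
        (R := fun _ => ∑ i ∈ Finset.range (j 0), (G ^ (i + 1)) (loc (el (R i) p)))
        (fun l hl => absurd (Finset.mem_univ l) hl) (fun _ => hsum (j 0))
      simpa using h7
  | succ q ih =>
    intro j
    obtain ⟨B', D', hD', h1, h2, h3⟩ := ih fun i => j i.succ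
    set s : ℤ := r + 2 * ((∑ i : Fin (q + 1), j i.succ : ℕ) : ℤ) with hs
    -- the symbol to which `G^(j 0)` is applied
    let B₂ : (Fin (q + 1) → Λ) → Ph n × E n → V := fun l z =>
      Hh (l 0) z.2 (B' (fun i => l i.succ) z)
    let B₃ : (Fin (q + 1) → Λ) → Ph n × E n → V := fun l z =>
      Hh (l 0) z.2 (ld c Hh q (fun i => j i.succ) (fun i => l i.succ) B z)
    have hB₂ : ∀ l, SymGe K (s + 1) (B₂ l) := fun l => (h1 _).clm (hH _)
    have hB₃ : ∀ l, SymGe K s (B₃ l) := fun l => (symGe_ld c hH hB _ _ _).clm (hH _)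
    have hB₄ : ∀ l, SymGe K s (B₃ l + B₂ l) := fun l => (hB₃ l).add ((hB₂ l).mono (by omega))
    choose B₅ R h4 h5 h6 using fun l => c.iterate hK.isClosed (hB₄ l) N (j 0)
    choose D hD hb using fun l i => (h5 l i).bound hK
    let T₀ : Finset (Fin (q + 1) → Λ) := Fintype.piFinset fun _ => Λ₀
    have hT₀ : ∀ l : Fin (q + 1) → Λ, l ∈ T₀ ↔ Good Λ₀ l := fun l => Fintype.mem_piFinset
    have hsum : r + 2 * ((∑ i, j i : ℕ) : ℤ) = s + 2 * (j 0 : ℤ) := by
      rw [Fin.sum_univ_succ, hs]; push_cast; ring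
    refine ⟨fun l => if Good Λ₀ l then c.mh^[j 0] (B₂ l) + B₅ l else 0,
      (∑ l ∈ T₀, ∑ i ∈ Finset.range (j 0), D l i) + L * D', ?_, fun l => ?_, fun l hl => if_neg hl,
      fun p hp H _ _ G h loc SB hG hh hS => ?_⟩
    · exact add_nonneg (Finset.sum_nonneg fun l _ => Finset.sum_nonneg fun i _ => hD l i)
        (mul_nonneg hL hD')
    · rw [hsum]
      dsimp only
      split_ifs
      · exact ((symGe_mh c (hB₂ l) (j 0)).mono (by omega)).add (h4 l)
      · exact SymGe.zero
    obtain ⟨hp0, hp1⟩ := hp1 p hp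
    obtain ⟨R', hR', hw⟩ := h3 p hp H G h loc SB hG hh hS
    have hz : (0 : ℝ) ≤ ‖p‖ ^ (-N) := zpow_nonneg (norm_nonneg _) _
    have hloc0 := hadd H G loc _ hG
    have hpow : ∀ (j : ℕ) x a, 0 ≤ a → SB a x → SB a ((G ^ j) x) := by
      intro j
      induction j with
      | zero => intro x a _ hx; simpa using hx
      | succ j ih =>
        intro x a ha hx
        rw [pow_succ', Module.End.mul_apply]
        exact hS.op _ _ ha (ih x a ha hx)
    -- local operators applied to plane waves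
    have e1 : ∀ (a : Λ) (b : Ph n × E n → V) (r' : ℤ), SymGe K r' b →
        h a (loc (el b p)) = loc (el (fun z => Hh a z.2 (b z)) p) := by
      intro a b r' hb'
      rw [hh a _ (hb'.mem hp0)]
      congr 1
      funext y
      unfold el pw
      rw [map_smul]
    have e2 : ∀ l : Fin (q + 1) → Λ, h (l 0) (wl G h q (fun i => j i.succ) (fun i => l i.succ)
        (loc (el B p))) = loc (el (B₃ l) p) + loc (el (B₂ l) p) +
          h (l 0) (R' fun i => l i.succ) := by
      intro l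
      rw [hw, map_add, map_add, e1 _ _ _ (symGe_ld c hH hB _ _ _), e1 _ _ _ (h1 _)]
    refine ⟨fun l => (if Good Λ₀ l then ∑ i ∈ Finset.range (j 0), (G ^ (i + 1)) (loc (el (R l i) p))
      else 0) + (G ^ j 0) (h (l 0) (R' fun i => l i.succ)), ?_, fun l => ?_⟩
    · rw [add_mul]
      refine NBd.add hS ?_ ?_
      · rw [Finset.sum_mul]
        refine NBd.of_fin hS T₀ (a := fun l => (∑ i ∈ Finset.range (j 0), D l i) * ‖p‖ ^ (-N))
          (fun l => mul_nonneg (Finset.sum_nonneg fun i _ => hD l i) hz) (fun l hl => ?_)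
          fun l => ?_
        · rw [if_neg fun h => hl ((hT₀ l).2 h)]
        · have hsum : ∀ J : ℕ, SB ((∑ i ∈ Finset.range J, D l i) * ‖p‖ ^ (-N))
              (∑ i ∈ Finset.range J, (G ^ (i + 1)) (loc (el (R l i) p))) := by
            intro J
            induction J with
            | zero => simpa using hS.zero
            | succ J ih =>
              rw [Finset.sum_range_succ, Finset.sum_range_succ, add_mul]
              refine hS.add _ _ _ _ ih (hpow _ _ _ (mul_nonneg (hD l J) hz) ?_)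
              refine hS.loc _ ((h5 l J).mem hp0) _ (mul_nonneg (hD l J) hz) fun x => ?_
              rw [norm_el]
              exact hb l J p x hp1
          split_ifs
          · exact hsum (j 0)
          · have h8 := hS.smul _ _ (0 : ℂ) (mul_nonneg (Finset.sum_nonneg fun i _ => hD l i) hz)
              (by simp) (hsum (j 0))
            rwa [zero_smul] at h8
      · have h9 : 0 ≤ D' * ‖p‖ ^ (-N) := mul_nonneg hD' hz
        have h10 := (hR'.row hS h9).pow hS (mul_nonneg hL h9) (j 0)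
        rwa [← mul_assoc] at h10
    · dsimp only
      rw [wl, Module.End.mul_apply, Module.End.mul_apply, e2, map_add]
      by_cases hl : Good Λ₀ l
      · rw [if_pos hl, if_pos hl]
        have m1 := (hB₃ l).mem hp0
        have m2 := (hB₂ l).mem hp0
        have m3 : el (c.mh^[j 0] (B₃ l)) p ∈ CS K V := (symGe_mh c (hB₃ l) (j 0)).mem hp0
        have m4 : el (c.mh^[j 0] (B₂ l)) p ∈ CS K V := (symGe_mh c (hB₂ l) (j 0)).mem hp0
        rw [← hG.1 _ _ m1 m2, ← el_add, h6 l p hp0 H G loc hG, mh_add, el_add, hG.1 _ _ m3 m4,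
          el_add, hG.1 _ _ m4 ((h4 l).mem hp0)]
        have e3 : ld c Hh (q + 1) j l B = c.mh^[j 0] (B₃ l) := rfl
        rw [e3]
        abel
      · rw [if_neg hl, if_neg hl]
        have z1 : el (ld c Hh (q + 1) j l B) p = 0 :=
          el_zero_of p fun x => ld_bad c h0 hB j l hl hp0 x
        have hbad : ∀ (b : Ph n × E n → V) (r' : ℤ), SymGe K r' b →
            (¬ Good Λ₀ (fun i : Fin q => l i.succ) → ∀ x, b (p, x) = 0) →
            el (fun z => Hh (l 0) z.2 (b z)) p = 0 := by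
          intro b r' hb' hbz
          refine el_zero_of p fun x => ?_
          dsimp only
          by_cases hl' : Good Λ₀ (fun i : Fin q => l i.succ)
          · have hl0 : l 0 ∉ Λ₀ := fun h => hl fun i => Fin.cases h hl' i
            by_cases hx : x ∈ K
            · rw [h0 _ hl0 x hx]; rfl
            · rw [hb'.supp hp0 hx, map_zero]
          · rw [hbz hl' x, map_zero]
        have z2 : el (B₃ l) p = 0 := hbad _ _ (symGe_ld c hH hB _ _ _) fun h x =>
          ld_bad c h0 hB _ _ h hp0 x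
        have z3 : el (B₂ l) p = 0 := hbad _ _ (h1 _) fun h x => by rw [h2 _ h]; rfl
        have z4 : el (0 : Ph n × E n → V) p = 0 := el_zero_of p fun x => rfl
        rw [z1, z2, z3, z4, hloc0]
        simp

end

end Vale.Agent.P223.H765
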