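import Vale.Agent.P223.H765.NC
import Mathlib.Analysis.MeanInequalities
import Mathlib.Analysis.Matrix.PosDef
import Mathlib.Analysis.SpecialFunctions.Trigonometric.InverseDeriv
import Mathlib.MeasureTheory.Integral.IntervalIntegral.FundThmCalculus

/-! Kazdan's inequality (non-sharp): matrices and functions of one variable. -/

namespace Vale.Agent.P223.H765.Kaz

open scoped ENNReal NNReal Matrix
open MeasureTheory Set

section matrices

variable {n : ℕ}

theorem amgm (hn : 1 ≤ n) (P : Matrix (Fin n) (Fin n) ℝ) (hP : P.PosDef) :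
    (n : ℝ) * P.det ^ ((1 : ℝ) / n) ≤ P.trace := by
  have hn' : (0 : ℝ) < (n : ℝ) := by exact_mod_cast hn
  have hH := hP.isHermitian
  have h1 : P.det = ∏ i, hH.eigenvalues i := by
    have := hH.det_eq_prod_eigenvalues
    simpa only [Real.ringHom_apply] using this
  have h2 : P.trace = ∑ i, hH.eigenvalues i := by
    have := hH.trace_eq_sum_eigenvalues
    simpa only [Real.ringHom_apply] using this
  have h3 := Real.geom_mean_le_arith_mean Finset.univ (fun _ : Fin n => (1 : ℝ)) hH.eigenvalues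
    (fun _ _ => zero_le_one) (by simpa using hn') (fun i _ => (hP.eigenvalues_pos i).le)
  simp only [Real.rpow_one, Finset.sum_const, Finset.card_univ, nsmul_eq_mul, mul_one,
    one_mul, Fintype.card_fin] at h3
  rw [h1, h2, one_div]
  rw [le_div_iff₀ hn'] at h3
  linarith

theorem exists_factor (A : Matrix (Fin n) (Fin n) ℝ) (hA : A.PosDef) :
    ∃ B : Matrix (Fin n) (Fin n) ℝ, A = Bᵀ * B ∧ B.det ≠ 0 := by
  open scoped MatrixOrder in
  have h0 : 0 ≤ A := hA.posSemidef.nonneg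
  have h1 : CFC.sqrt A * CFC.sqrt A = A := CFC.sqrt_mul_sqrt_self A h0
  have h2 : (CFC.sqrt A).PosSemidef := Matrix.nonneg_iff_posSemidef.mp (CFC.sqrt_nonneg A)
  have h3 : (CFC.sqrt A)ᵀ = CFC.sqrt A := by
    have := h2.isHermitian
    simpa [Matrix.IsHermitian] using this
  refine ⟨CFC.sqrt A, by rw [h3, h1], fun h => ?_⟩
  have h4 : A.det = 0 := by rw [← h1, Matrix.det_mul, h, zero_mul]
  exact hA.det_pos.ne' h4

theorem posDef_conj {A C : Matrix (Fin n) (Fin n) ℝ} (hA : A.PosDef) (hC : C.det ≠ 0) :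
    (C * A * Cᵀ).PosDef := by
  have hu : IsUnit C := (Matrix.isUnit_iff_isUnit_det C).2 (isUnit_iff_ne_zero.2 hC)
  have h := hA.mul_mul_conjTranspose_same (B := C) (by
    intro x y hxy
    have h1 : (C⁻¹ * C) = 1 := Matrix.nonsing_inv_mul C (isUnit_iff_ne_zero.2 hC)
    have h2 : Matrix.vecMul x C = Matrix.vecMul y C := hxy
    have h3 : Matrix.vecMul (Matrix.vecMul x C) C⁻¹ = Matrix.vecMul (Matrix.vecMul y C) C⁻¹ := by
      rw [h2]
    rwa [Matrix.vecMul_vecMul, Matrix.vecMul_vecMul,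
      Matrix.mul_nonsing_inv C (isUnit_iff_ne_zero.2 hC), Matrix.vecMul_one,
      Matrix.vecMul_one] at h3)
  simpa [Matrix.conjTranspose_eq_transpose_of_trivial] using h

theorem amgm_mul (hn : 1 ≤ n) {A B : Matrix (Fin n) (Fin n) ℝ} (hA : A.PosDef) (hB : B.PosDef) :
    (n : ℝ) * (A.det * B.det) ^ ((1 : ℝ) / n) ≤ (A * B).trace := by
  obtain ⟨C, hC, hd⟩ := exists_factor B hB
  have h1 := amgm hn _ (posDef_conj hA hd)
  have h2 : (C * A * Cᵀ).det = A.det * B.det := by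
    rw [hC, Matrix.det_mul, Matrix.det_mul, Matrix.det_mul, Matrix.det_transpose]
    ring
  have h3 : (C * A * Cᵀ).trace = (A * B).trace := by
    rw [hC, ← Matrix.mul_assoc, Matrix.trace_mul_comm (A * Cᵀ) C, Matrix.mul_assoc]
  rwa [h2, h3] at h1

/-- Minkowski's inequality for determinants. -/
theorem mink (hn : 1 ≤ n) {P : ℝ → Matrix (Fin n) (Fin n) ℝ} {s t : ℝ} (hst : s < t)
    (hc : ContinuousOn P (Icc s t)) (hp : ∀ τ ∈ Icc s t, (P τ).PosDef)
    {Q : Matrix (Fin n) (Fin n) ℝ} (hQ : ∀ i j, Q i j = ∫ τ in s..t, P τ i j) (hQp : Q.PosDef) :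
    ∫ τ in s..t, (P τ).det ^ ((1 : ℝ) / n) ≤ Q.det ^ ((1 : ℝ) / n) := by
  have hn' : (0 : ℝ) < (n : ℝ) := by exact_mod_cast hn
  have hcij : ∀ i j, ContinuousOn (fun τ => P τ i j) (Icc s t) := fun i j =>
    (continuous_apply j).comp_continuousOn ((continuous_apply i).comp_continuousOn hc)
  have hiij : ∀ i j, IntervalIntegrable (fun τ => P τ i j) volume s t := fun i j =>
    (hcij i j).intervalIntegrable_of_Icc hst.le
  have hcd : ContinuousOn (fun τ => (P τ).det) (Icc s t) :=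
    (Continuous.matrix_det continuous_id).comp_continuousOn hc
  have hcp : ContinuousOn (fun τ => (P τ).det ^ ((1 : ℝ) / n)) (Icc s t) :=
    hcd.rpow_const fun τ hτ => Or.inl (hp τ hτ).det_pos.ne'
  have hQd := hQp.det_pos
  have hQi : (Q⁻¹).PosDef := hQp.inv
  have h1 : ∀ τ ∈ Icc s t, (n : ℝ) * (Q.det⁻¹ ^ ((1 : ℝ) / n) * (P τ).det ^ ((1 : ℝ) / n)) ≤
      (Q⁻¹ * P τ).trace := fun τ hτ => by
    have h2 := amgm_mul hn hQi (hp τ hτ)
    rwa [Real.mul_rpow hQi.det_pos.le (hp τ hτ).det_pos.le, Matrix.det_nonsing_inv,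
      Ring.inverse_eq_inv'] at h2
  have hct : ContinuousOn (fun τ => (Q⁻¹ * P τ).trace) (Icc s t) := by
    have : ∀ τ, (Q⁻¹ * P τ).trace = ∑ i, ∑ j, Q⁻¹ i j * P τ j i := fun τ => by
      simp [Matrix.trace, Matrix.mul_apply]
    simp only [this]
    exact continuousOn_finsetSum _ fun i _ => continuousOn_finsetSum _ fun j _ =>
      continuousOn_const.mul (hcij j i)
  have h3 : ∫ τ in s..t, (n : ℝ) * (Q.det⁻¹ ^ ((1 : ℝ) / n) * (P τ).det ^ ((1 : ℝ) / n)) ≤
      ∫ τ in s..t, (Q⁻¹ * P τ).trace :=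
    intervalIntegral.integral_mono_on hst.le
      ((continuousOn_const.mul (continuousOn_const.mul hcp)).intervalIntegrable_of_Icc hst.le)
      (hct.intervalIntegrable_of_Icc hst.le) h1
  have h4 : ∫ τ in s..t, (Q⁻¹ * P τ).trace = (n : ℝ) := by
    have h5 : ∀ τ, (Q⁻¹ * P τ).trace = ∑ i, ∑ j, Q⁻¹ i j * P τ j i := fun τ => by
      simp [Matrix.trace, Matrix.mul_apply]
    simp only [h5]
    have h8 : ∀ i, IntervalIntegrable (fun τ => ∑ j, Q⁻¹ i j * P τ j i) volume s t := fun i =>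
      (continuousOn_finsetSum _ fun j _ =>
        continuousOn_const.mul (hcij j i)).intervalIntegrable_of_Icc hst.le
    rw [intervalIntegral.integral_finsetSum fun i _ => h8 i]
    have h6 : ∀ i, ∫ τ in s..t, ∑ j, Q⁻¹ i j * P τ j i = ∑ j, Q⁻¹ i j * Q j i := fun i => by
      rw [intervalIntegral.integral_finsetSum fun j _ => (hiij j i).const_mul _]
      refine Finset.sum_congr rfl fun j _ => ?_
      rw [intervalIntegral.integral_const_mul, hQ j i]
    simp only [h6]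
    have h7 : (Q⁻¹ * Q).trace = (n : ℝ) := by
      rw [Matrix.nonsing_inv_mul Q (isUnit_iff_ne_zero.2 hQd.ne'), Matrix.trace_one,
        Fintype.card_fin]
    rw [← h7]
    simp [Matrix.trace, Matrix.mul_apply]
  rw [h4, intervalIntegral.integral_const_mul, intervalIntegral.integral_const_mul] at h3
  have h5 : Q.det⁻¹ ^ ((1 : ℝ) / n) * ∫ τ in s..t, (P τ).det ^ ((1 : ℝ) / n) ≤ 1 := by
    have h6 : (n : ℝ) * (Q.det⁻¹ ^ ((1 : ℝ) / n) * ∫ τ in s..t, (P τ).det ^ ((1 : ℝ) / n)) ≤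
      (n : ℝ) * 1 := by rw [mul_one]; exact h3
    exact le_of_mul_le_mul_left h6 hn'
  rw [Real.inv_rpow hQd.le] at h5
  have h7 : 0 < Q.det ^ ((1 : ℝ) / n) := Real.rpow_pos_of_pos hQd _
  rw [inv_mul_le_iff₀ h7, mul_one] at h5
  exact h5

end matrices

end Vale.Agent.P223.H765.Kaz
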