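import Vale.Agent.P223.H765.Kaz1
import Mathlib.MeasureTheory.Integral.IntegralEqImproper

/-! Kazdan's inequality (non-sharp): functions of one variable. -/

namespace Vale.Agent.P223.H765.Kaz

open scoped ENNReal NNReal
open MeasureTheory Set Real

variable {α β : ℝ} {f : ℝ → ℝ}

theorem cube {x l : ℝ} (hx : 0 < x) (hl : 0 < l) : 3 ≤ l ^ 2 * x ^ 2 + 2 / (l * x) := by
  have hy : 0 < l * x := mul_pos hl hx
  have h1 : 0 ≤ (l * x - 1) ^ 2 * (l * x + 2) := by positivity
  have h2 : l ^ 2 * x ^ 2 + 2 / (l * x) - 3 = (l * x - 1) ^ 2 * (l * x + 2) / (l * x) := by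
    field_simp
    ring
  have h3 : 0 ≤ l ^ 2 * x ^ 2 + 2 / (l * x) - 3 := by rw [h2]; positivity
  linarith

/-- the real form on the middle third -/
theorem mid (h : α < β) (hc : Continuous f) (hp : ∀ τ ∈ Icc α β, 0 < f τ) :
    (β - α) ^ 3 / (32 * π ^ 2) ≤ ∫ τ in (α + (β - α) / 3)..(β - (β - α) / 3),
      (∫ s in α..τ, f s) * (∫ t in τ..β, f t) / f τ ^ 2 := by
  set a := α + (β - α) / 3 with ha
  set b := β - (β - α) / 3 with hb
  set A : ℝ → ℝ := fun τ => ∫ s in α..τ, f s with hA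
  set B : ℝ → ℝ := fun τ => ∫ t in τ..β, f t with hB
  set L : ℝ := ∫ s in α..β, f s with hL
  have hab : a < b := by simp only [ha, hb]; linarith
  have haα : α < a := by simp only [ha]; linarith
  have hbβ : b < β := by simp only [hb]; linarith
  have hsub : ∀ τ ∈ Icc a b, τ ∈ Icc α β := fun τ hτ => ⟨haα.le.trans hτ.1, hτ.2.trans hbβ.le⟩
  have hAd : ∀ τ, HasDerivAt A (f τ) τ := fun τ =>
    intervalIntegral.integral_hasDerivAt_right (hc.intervalIntegrable _ _)
      (hc.stronglyMeasurableAtFilter _ _) hc.continuousAt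
  have hABL : ∀ τ, A τ + B τ = L := fun τ =>
    intervalIntegral.integral_add_adjacent_intervals (hc.intervalIntegrable _ _)
      (hc.intervalIntegrable _ _)
  have hBe : ∀ τ, B τ = L - A τ := fun τ => by linarith [hABL τ]
  have hAp : ∀ τ ∈ Icc a b, 0 < A τ := fun τ hτ =>
    intervalIntegral.intervalIntegral_pos_of_pos_on (hc.intervalIntegrable _ _)
      (fun s hs => hp s ⟨hs.1.le, hs.2.le.trans (hτ.2.trans hbβ.le)⟩) (haα.trans_le hτ.1)
  have hBp : ∀ τ ∈ Icc a b, 0 < B τ := fun τ hτ =>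
    intervalIntegral.intervalIntegral_pos_of_pos_on (hc.intervalIntegrable _ _)
      (fun s hs => hp s ⟨(haα.le.trans hτ.1).trans hs.1.le, hs.2.le⟩) (hτ.2.trans_lt hbβ)
  have hAc : Continuous A := continuous_iff_continuousAt.2 fun τ => (hAd τ).continuousAt
  have hBc : Continuous B := by
    have : B = fun τ => L - A τ := funext hBe
    rw [this]; exact continuous_const.sub hAc
  have hLp : 0 < L := by
    have h1 := hABL a
    have h2 := hAp a ⟨le_rfl, hab.le⟩
    have h3 := hBp a ⟨le_rfl, hab.le⟩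
    linarith
  have hcf : ContinuousOn f (Icc a b) := hc.continuousOn
  have hfn : ∀ τ ∈ Icc a b, f τ ≠ 0 := fun τ hτ => (hp τ (hsub τ hτ)).ne'
  have hs0 : ∀ τ ∈ Icc a b, √(A τ * B τ) ≠ 0 := fun τ hτ =>
    (Real.sqrt_pos.2 (mul_pos (hAp τ hτ) (hBp τ hτ))).ne'
  have hc1 : ContinuousOn (fun τ => A τ * B τ / f τ ^ 2) (Icc a b) :=
    (hAc.mul hBc).continuousOn.div (hcf.pow 2) fun τ hτ => pow_ne_zero 2 (hfn τ hτ)
  have hc2 : ContinuousOn (fun τ => f τ / √(A τ * B τ)) (Icc a b) :=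
    hcf.div ((Real.continuous_sqrt.comp (hAc.mul hBc)).continuousOn) hs0
  -- the integral of `f / √(A B)`
  set Θ : ℝ → ℝ := fun τ => Real.arcsin ((A τ - B τ) / L) with hΘ
  have hΘd : ∀ τ ∈ Icc a b, HasDerivAt Θ (f τ / √(A τ * B τ)) τ := fun τ hτ => by
    have hA0 := hAp τ hτ
    have hB0 := hBp τ hτ
    have h1 : HasDerivAt (fun τ => (A τ - B τ) / L) (2 * f τ / L) τ := by
      have h2 : HasDerivAt (fun τ => (A τ - (L - A τ)) / L) ((f τ - (0 - f τ)) / L) τ :=
        ((hAd τ).sub ((hasDerivAt_const τ L).sub (hAd τ))).div_const L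
      have h3 : (fun τ => (A τ - B τ) / L) = fun τ => (A τ - (L - A τ)) / L := by
        funext τ; rw [hBe τ]
      rw [h3]
      convert h2 using 1
      ring
    have hx1 : (A τ - B τ) / L ≠ -1 := by
      intro h4
      rw [div_eq_iff hLp.ne'] at h4
      have := hABL τ
      linarith
    have hx2 : (A τ - B τ) / L ≠ 1 := by
      intro h4
      rw [div_eq_iff hLp.ne'] at h4
      have := hABL τ
      linarith
    have h5 := (Real.hasDerivAt_arcsin hx1 hx2).comp τ h1
    have h6 : 1 / √(1 - ((A τ - B τ) / L) ^ 2) * (2 * f τ / L) = f τ / √(A τ * B τ) := by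
      have h7 : 1 - ((A τ - B τ) / L) ^ 2 = (2 / L) ^ 2 * (A τ * B τ) := by
        have h8 : L = A τ + B τ := (hABL τ).symm
        field_simp
        rw [h8]
        ring
      rw [h7, Real.sqrt_mul (by positivity), Real.sqrt_sq (by positivity)]
      have := hs0 τ hτ
      field_simp
    rw [← h6]
    exact h5
  have hI : ∫ τ in a..b, f τ / √(A τ * B τ) = Θ b - Θ a := by
    refine intervalIntegral.integral_eq_sub_of_hasDerivAt (fun τ hτ => hΘd τ ?_)
      (hc2.intervalIntegrable_of_Icc hab.le)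
    rwa [uIcc_of_le hab.le] at hτ
  have hI2 : ∫ τ in a..b, f τ / √(A τ * B τ) ≤ π := by
    rw [hI]
    have h1 := Real.arcsin_le_pi_div_two ((A b - B b) / L)
    have h2 := Real.neg_pi_div_two_le_arcsin ((A a - B a) / L)
    simp only [hΘ]
    linarith
  -- the pointwise inequality
  set l : ℝ := 4 * π / (β - α) with hl
  have hβα : 0 < β - α := by linarith
  have hl0 : 0 < l := by positivity
  have hpt : ∀ τ ∈ Icc a b, (3 : ℝ) ≤ l ^ 2 * (A τ * B τ / f τ ^ 2) +
      2 / l * (f τ / √(A τ * B τ)) := fun τ hτ => by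
    have hA0 := hAp τ hτ
    have hB0 := hBp τ hτ
    have hf0 := hp τ (hsub τ hτ)
    have hq : 0 < √(A τ * B τ) := Real.sqrt_pos.2 (mul_pos hA0 hB0)
    have h1 := cube (x := √(A τ * B τ) / f τ) (l := l) (by positivity) hl0
    have h2 : (√(A τ * B τ) / f τ) ^ 2 = A τ * B τ / f τ ^ 2 := by
      rw [div_pow, Real.sq_sqrt (by positivity)]
    rw [h2] at h1
    have h3 : 2 / (l * (√(A τ * B τ) / f τ)) = 2 / l * (f τ / √(A τ * B τ)) := by
      field_simp
    rwa [h3] at h1
  have hkey := intervalIntegral.integral_mono_on (μ := volume) hab.le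
    (continuous_const.intervalIntegrable a b)
    (((hc1.intervalIntegrable_of_Icc hab.le).const_mul _).add
      ((hc2.intervalIntegrable_of_Icc hab.le).const_mul _)) hpt
  rw [intervalIntegral.integral_const,
    intervalIntegral.integral_add ((hc1.intervalIntegrable_of_Icc hab.le).const_mul _)
      ((hc2.intervalIntegrable_of_Icc hab.le).const_mul _),
    intervalIntegral.integral_const_mul, intervalIntegral.integral_const_mul, smul_eq_mul] at hkey
  have hab' : (b - a) * 3 = β - α := by simp only [ha, hb]; ring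
  rw [hab'] at hkey
  set Q := ∫ τ in a..b, A τ * B τ / f τ ^ 2 with hQ
  have h1 : 2 / l * ∫ τ in a..b, f τ / √(A τ * B τ) ≤ 2 / l * π :=
    mul_le_mul_of_nonneg_left hI2 (by positivity)
  have h2 : 2 / l * π = (β - α) / 2 := by
    simp only [hl]
    field_simp
    norm_num
  have h3 : (β - α) / 2 ≤ l ^ 2 * Q := by linarith
  have h4 : l ^ 2 = 16 * π ^ 2 / (β - α) ^ 2 := by
    rw [hl, div_pow, mul_pow]
    norm_num
  rw [h4] at h3
  have h5 : (β - α) ^ 3 / (32 * π ^ 2) = (β - α) / 2 * ((β - α) ^ 2 / (16 * π ^ 2)) := by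
    field_simp
    ring
  rw [h5]
  calc (β - α) / 2 * ((β - α) ^ 2 / (16 * π ^ 2))
      ≤ 16 * π ^ 2 / (β - α) ^ 2 * Q * ((β - α) ^ 2 / (16 * π ^ 2)) :=
        mul_le_mul_of_nonneg_right h3 (by positivity)
    _ = Q := by field_simp

end Vale.Agent.P223.H765.Kaz
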