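import Vale.Agent.P223.H765.Kaz2

/-! Kazdan's inequality (non-sharp): iterated integrals. -/

namespace Vale.Agent.P223.H765.Kaz

open scoped ENNReal NNReal
open MeasureTheory Set Real

variable {α β : ℝ} {f : ℝ → ℝ}

/-- Tonelli for the region `α < s < τ < t < β`. -/
theorem ton {F H : ℝ → ℝ≥0∞} (hF : Measurable F) (hH : Measurable H) :
    ∫⁻ s in Ioo α β, ∫⁻ t in Ioo s β, ∫⁻ τ in Ioo s t, F s * F t * H τ =
      ∫⁻ τ in Ioo α β, (∫⁻ s in Ioo α τ, F s) * (∫⁻ t in Ioo τ β, F t) * H τ := by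
  set S : Set (ℝ × ℝ × ℝ) := {x | α < x.1 ∧ x.1 < x.2.2 ∧ x.2.2 < x.2.1 ∧ x.2.1 < β} with hS
  have hSm : MeasurableSet S := by
    refine ((isOpen_lt continuous_const continuous_fst).inter
      ((isOpen_lt continuous_fst (continuous_snd.comp continuous_snd)).inter
      ((isOpen_lt (continuous_snd.comp continuous_snd) (continuous_fst.comp continuous_snd)).inter
      (isOpen_lt (continuous_fst.comp continuous_snd) continuous_const)))).measurableSet
  set k : ℝ → ℝ → ℝ → ℝ≥0∞ := fun s t τ => S.indicator (fun x => F x.1 * F x.2.1 * H x.2.2)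
    (s, t, τ) with hk
  have hkm : Measurable fun x : ℝ × ℝ × ℝ => k x.1 x.2.1 x.2.2 := by
    have : (fun x : ℝ × ℝ × ℝ => k x.1 x.2.1 x.2.2) =
        S.indicator (fun x => F x.1 * F x.2.1 * H x.2.2) := by
      funext x; rfl
    rw [this]
    exact (((hF.comp measurable_fst).mul (hF.comp (measurable_fst.comp measurable_snd))).mul
      (hH.comp (measurable_snd.comp measurable_snd))).indicator hSm
  -- left side
  have h1 : ∫⁻ s in Ioo α β, ∫⁻ t in Ioo s β, ∫⁻ τ in Ioo s t, F s * F t * H τ =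
      ∫⁻ s, ∫⁻ t, ∫⁻ τ, k s t τ := by
    rw [← lintegral_indicator measurableSet_Ioo]
    refine lintegral_congr fun s => ?_
    by_cases hs : s ∈ Ioo α β
    · rw [indicator_of_mem hs, ← lintegral_indicator measurableSet_Ioo]
      refine lintegral_congr fun t => ?_
      by_cases ht : t ∈ Ioo s β
      · rw [indicator_of_mem ht, ← lintegral_indicator measurableSet_Ioo]
        refine lintegral_congr fun τ => ?_
        by_cases hτ : τ ∈ Ioo s t
        · rw [indicator_of_mem hτ]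
          have : (s, t, τ) ∈ S := ⟨hs.1, hτ.1, hτ.2, ht.2⟩
          simp only [hk, indicator_of_mem this]
        · rw [indicator_of_notMem hτ]
          have : (s, t, τ) ∉ S := fun h => hτ ⟨h.2.1, h.2.2.1⟩
          simp only [hk, indicator_of_notMem this]
      · rw [indicator_of_notMem ht]
        have : ∀ τ, k s t τ = 0 := fun τ => by
          have : (s, t, τ) ∉ S := fun h => ht ⟨h.2.1.trans h.2.2.1, h.2.2.2⟩
          simp only [hk, indicator_of_notMem this]
        simp [this]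
    · rw [indicator_of_notMem hs]
      have : ∀ t τ, k s t τ = 0 := fun t τ => by
        have : (s, t, τ) ∉ S := fun h => hs ⟨h.1, h.2.1.trans (h.2.2.1.trans h.2.2.2)⟩
        simp only [hk, indicator_of_notMem this]
      simp [this]
  have h2 : ∀ s, ∫⁻ t, ∫⁻ τ, k s t τ = ∫⁻ τ, ∫⁻ t, k s t τ := fun s =>
    lintegral_lintegral_swap ((hkm.comp (measurable_const.prodMk
      (measurable_fst.prodMk measurable_snd))).aemeasurable)
  have h3 : ∫⁻ s, ∫⁻ t, ∫⁻ τ, k s t τ = ∫⁻ τ, ∫⁻ s, ∫⁻ t, k s t τ := by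
    simp only [h2]
    refine lintegral_lintegral_swap (Measurable.aemeasurable ?_)
    have : Measurable fun x : (ℝ × ℝ) × ℝ => k x.1.1 x.2 x.1.2 :=
      hkm.comp ((measurable_fst.comp measurable_fst).prodMk
        (measurable_snd.prodMk (measurable_snd.comp measurable_fst)))
    exact this.lintegral_prod_right'
  rw [h1, h3, ← lintegral_indicator measurableSet_Ioo]
  refine lintegral_congr fun τ => ?_
  by_cases hτ : τ ∈ Ioo α β
  · rw [indicator_of_mem hτ]
    have h4 : ∀ s t, k s t τ = (Ioo α τ).indicator F s * ((Ioo τ β).indicator F t * H τ) := by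
      intro s t
      by_cases hs : s ∈ Ioo α τ
      · by_cases ht : t ∈ Ioo τ β
        · have : (s, t, τ) ∈ S := ⟨hs.1, hs.2, ht.1, ht.2⟩
          simp only [hk, indicator_of_mem this, indicator_of_mem hs, indicator_of_mem ht]
          ring
        · have : (s, t, τ) ∉ S := fun h => ht ⟨h.2.2.1, h.2.2.2⟩
          simp only [hk, indicator_of_notMem this, indicator_of_notMem ht, zero_mul, mul_zero]
      · have : (s, t, τ) ∉ S := fun h => hs ⟨h.1, h.2.1⟩
        simp only [hk, indicator_of_notMem this, indicator_of_notMem hs, zero_mul]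
    simp only [h4]
    have h5 : ∀ s, ∫⁻ t, (Ioo α τ).indicator F s * ((Ioo τ β).indicator F t * H τ) =
        (Ioo α τ).indicator F s * ((∫⁻ t in Ioo τ β, F t) * H τ) := fun s => by
      rw [lintegral_const_mul _ ((hF.indicator measurableSet_Ioo).mul_const _),
        lintegral_mul_const _ (hF.indicator measurableSet_Ioo),
        lintegral_indicator measurableSet_Ioo]
    simp only [h5]
    rw [lintegral_mul_const _ (hF.indicator measurableSet_Ioo),
      lintegral_indicator measurableSet_Ioo, mul_assoc]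
  · rw [indicator_of_notMem hτ]
    have : ∀ s t, k s t τ = 0 := fun s t => by
      have : (s, t, τ) ∉ S := fun h => hτ ⟨h.1.trans h.2.1, h.2.2.1.trans h.2.2.2⟩
      simp only [hk, indicator_of_notMem this]
    simp [this]

theorem lint_ioo {a b : ℝ} (hab : a ≤ b) {g : ℝ → ℝ} (hi : IntervalIntegrable g volume a b)
    (h0 : ∀ x ∈ Ioo a b, 0 ≤ g x) :
    ∫⁻ x in Ioo a b, ENNReal.ofReal (g x) = ENNReal.ofReal (∫ x in a..b, g x) := by
  rw [intervalIntegral.integral_of_le hab, ← setIntegral_congr_set Ioo_ae_eq_Ioc,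
    ofReal_integral_eq_lintegral_ofReal]
  · rw [intervalIntegrable_iff_integrableOn_Ioo_of_le hab] at hi
    exact hi
  · exact (ae_restrict_iff' measurableSet_Ioo).2 (Filter.Eventually.of_forall h0)

theorem kaz3 (h : α < β) (hc : Continuous f) (hp : ∀ τ ∈ Icc α β, 0 < f τ) :
    ENNReal.ofReal ((β - α) ^ 3 / (32 * π ^ 2)) ≤ ∫⁻ s in Ioo α β, ∫⁻ t in Ioo s β,
      ENNReal.ofReal (f s * f t * ∫ τ in s..t, (f τ ^ 2)⁻¹) := by
  have hcI : ∀ s t, s ∈ Icc α β → t ∈ Icc α β → IntervalIntegrable (fun τ => (f τ ^ 2)⁻¹)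
      volume s t := fun s t hs ht => by
    refine ContinuousOn.intervalIntegrable ?_
    refine (hc.continuousOn.pow 2).inv₀ fun τ hτ => pow_ne_zero 2 (hp τ ?_).ne'
    exact (uIcc_subset_Icc hs ht) hτ
  have h1 : ∫⁻ s in Ioo α β, ∫⁻ t in Ioo s β, ENNReal.ofReal (f s * f t *
      ∫ τ in s..t, (f τ ^ 2)⁻¹) = ∫⁻ s in Ioo α β, ∫⁻ t in Ioo s β, ∫⁻ τ in Ioo s t,
        ENNReal.ofReal (f s) * ENNReal.ofReal (f t) * ENNReal.ofReal ((f τ ^ 2)⁻¹) := by
    refine setLIntegral_congr_fun measurableSet_Ioo fun s hs => ?_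
    refine setLIntegral_congr_fun measurableSet_Ioo fun t ht => ?_
    have hsI : s ∈ Icc α β := ⟨hs.1.le, hs.2.le⟩
    have htI : t ∈ Icc α β := ⟨(hs.1.trans ht.1).le, ht.2.le⟩
    have hmeas : Measurable fun τ => ENNReal.ofReal ((f τ ^ 2)⁻¹) :=
      ((hc.measurable.pow_const 2).inv).ennreal_ofReal
    rw [lintegral_const_mul _ hmeas, lint_ioo ht.1.le (hcI s t hsI htI)
      fun x _ => inv_nonneg.2 (sq_nonneg _), ENNReal.ofReal_mul
      (mul_nonneg (hp s hsI).le (hp t htI).le), ENNReal.ofReal_mul (hp s hsI).le]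
  rw [h1, ton (F := fun s => ENNReal.ofReal (f s)) (H := fun τ => ENNReal.ofReal ((f τ ^ 2)⁻¹))
    hc.measurable.ennreal_ofReal ((hc.measurable.pow_const 2).inv).ennreal_ofReal]
  set a := α + (β - α) / 3 with ha
  set b := β - (β - α) / 3 with hb
  have haα : α < a := by simp only [ha]; linarith
  have hbβ : b < β := by simp only [hb]; linarith
  have hab : a ≤ b := by simp only [ha, hb]; linarith
  have hsub : Ioo a b ⊆ Ioo α β := fun τ hτ => ⟨haα.trans hτ.1, hτ.2.trans hbβ⟩
  have h2 := mid h hc hp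
  refine (ENNReal.ofReal_le_ofReal h2).trans ?_
  have hAc : Continuous fun τ => ∫ s in α..τ, f s :=
    intervalIntegral.continuous_primitive (fun _ _ => hc.intervalIntegrable _ _) α
  have hBc : Continuous fun τ => ∫ t in τ..β, f t := by
    have : (fun τ => ∫ t in τ..β, f t) = fun τ => -∫ t in β..τ, f t := by
      funext τ
      exact intervalIntegral.integral_symm _ _
    rw [this]
    exact (intervalIntegral.continuous_primitive (fun _ _ => hc.intervalIntegrable _ _) β).neg
  have hA0 : ∀ τ ∈ Icc α β, 0 ≤ ∫ s in α..τ, f s := fun τ hτ =>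
    intervalIntegral.integral_nonneg hτ.1 fun s hs => (hp s ⟨hs.1, hs.2.trans hτ.2⟩).le
  have hB0 : ∀ τ ∈ Icc α β, 0 ≤ ∫ t in τ..β, f t := fun τ hτ =>
    intervalIntegral.integral_nonneg hτ.2 fun s hs => (hp s ⟨hτ.1.trans hs.1, hs.2⟩).le
  have hi : IntervalIntegrable (fun τ => (∫ s in α..τ, f s) * (∫ t in τ..β, f t) / f τ ^ 2)
      volume a b := by
    refine ContinuousOn.intervalIntegrable_of_Icc hab ?_
    refine (hAc.mul hBc).continuousOn.div (hc.continuousOn.pow 2) fun τ hτ =>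
      pow_ne_zero 2 (hp τ ⟨haα.le.trans hτ.1, hτ.2.trans hbβ.le⟩).ne'
  rw [← lint_ioo hab hi fun τ hτ => ?_]
  · refine (lintegral_mono_ae ?_).trans (lintegral_mono_set hsub)
    refine (ae_restrict_iff' measurableSet_Ioo).2 (Filter.Eventually.of_forall fun τ hτ => ?_)
    have hτI : τ ∈ Icc α β := ⟨(hsub hτ).1.le, (hsub hτ).2.le⟩
    rw [lint_ioo (hsub hτ).1.le (hc.intervalIntegrable _ _) fun s hs =>
      (hp s ⟨hs.1.le, hs.2.le.trans hτI.2⟩).le, lint_ioo (hsub hτ).2.le
      (hc.intervalIntegrable _ _) fun s hs => (hp s ⟨hτI.1.trans hs.1.le, hs.2.le⟩).le,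
      ← ENNReal.ofReal_mul (hA0 τ hτI), ← ENNReal.ofReal_mul (mul_nonneg (hA0 τ hτI) (hB0 τ hτI)),
      div_eq_mul_inv]
  · have hτI : τ ∈ Icc α β := ⟨(hsub hτ).1.le, (hsub hτ).2.le⟩
    exact div_nonneg (mul_nonneg (hA0 τ hτI) (hB0 τ hτI)) (sq_nonneg _)

end Vale.Agent.P223.H765.Kaz
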