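import Vale.Agent.P223.H765.Kaz3

/-! Kazdan's inequality (non-sharp): the one-dimensional inequality. -/

namespace Vale.Agent.P223.H765.Kaz

open scoped ENNReal NNReal
open MeasureTheory Set Real

variable {α β : ℝ} {f : ℝ → ℝ}

/-- the constant -/
noncomputable def kc : ℝ := 1 / (32 * π ^ 2)

theorem kc_pos : 0 < kc := by unfold kc; positivity

theorem bern {n : ℕ} (hn : 1 ≤ n) {x c : ℝ} (hx : 0 ≤ x) (hc : 0 < c) :
    n * c ^ (n - 1) * x ≤ x ^ n + (n - 1 : ℝ) * c ^ n := by
  have h1 := one_add_mul_le_pow (a := x / c - 1) (by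
    have : 0 ≤ x / c := by positivity
    linarith) n
  have h2 : 1 + (x / c - 1) = x / c := by ring
  rw [h2, div_pow, le_div_iff₀ (pow_pos hc n)] at h1
  have h3 : c ^ n = c ^ (n - 1) * c := by
    rw [← pow_succ]
    congr 1
    omega
  have h4 : (1 + n * (x / c - 1)) * c ^ n = c ^ n + n * c ^ (n - 1) * x - n * c ^ n := by
    rw [h3]
    field_simp
    ring
  rw [h4] at h1
  linarith

theorem kaz_one {n : ℕ} (hn : 1 ≤ n) (h : α < β) (hc : Continuous f)
    (hp : ∀ τ ∈ Icc α β, 0 < f τ) {b : ℝ → ℝ → ℝ}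
    (hb : ∀ s t, α < s → s < t → t < β → (f s * f t * ∫ τ in s..t, (f τ ^ 2)⁻¹) ^ n ≤ b s t) :
    ENNReal.ofReal (kc ^ n * (β - α) ^ (n + 1)) ≤
      ∫⁻ s in Ioo α β, ∫⁻ t in Ioo s β, ENNReal.ofReal (b s t / (t - s)) := by
  set l := β - α with hl
  have hl0 : 0 < l := by simp only [hl]; linarith
  have hk := kc_pos
  set c := kc * l with hcc
  have hc0 : 0 < c := mul_pos hk hl0
  have hn0 : (0 : ℝ) ≤ n - 1 := by
    have : (1 : ℝ) ≤ n := by exact_mod_cast hn
    linarith
  set φ : ℝ → ℝ → ℝ := fun s t => f s * f t * ∫ τ in s..t, (f τ ^ 2)⁻¹ with hφ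
  have h1 : ENNReal.ofReal (kc * l ^ 3) ≤ ∫⁻ s in Ioo α β, ∫⁻ t in Ioo s β,
      ENNReal.ofReal (φ s t) := by
    have := kaz3 h hc hp
    have h2 : kc * l ^ 3 = (β - α) ^ 3 / (32 * π ^ 2) := by
      unfold kc
      ring
    rw [h2]
    exact this
  have hφ0 : ∀ s t, α < s → s < t → t < β → 0 ≤ φ s t := fun s t hs hst ht => by
    refine mul_nonneg (mul_nonneg (hp s ⟨hs.le, (hst.trans ht).le⟩).le
      (hp t ⟨(hs.trans hst).le, ht.le⟩).le) ?_
    exact intervalIntegral.integral_nonneg hst.le fun τ _ => inv_nonneg.2 (sq_nonneg _)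
  have hpt : ∀ s t, α < s → s < t → t < β → n * c ^ (n - 1) / l * φ s t ≤
      b s t / (t - s) + (n - 1 : ℝ) * c ^ n / l := fun s t hs hst ht => by
    have h2 := bern hn (hφ0 s t hs hst ht) hc0
    have h3 := hb s t hs hst ht
    have h4 : 0 ≤ b s t := (pow_nonneg (hφ0 s t hs hst ht) n).trans h3
    have h5 : b s t / l ≤ b s t / (t - s) := by
      refine div_le_div_of_nonneg_left h4 (by linarith) ?_
      simp only [hl]
      linarith
    have h6 : n * c ^ (n - 1) / l * φ s t = n * c ^ (n - 1) * φ s t / l := by ring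
    rw [h6]
    have h7 : n * c ^ (n - 1) * φ s t / l ≤ (b s t + (n - 1 : ℝ) * c ^ n) / l := by
      refine div_le_div_of_nonneg_right (h2.trans ?_) hl0.le
      linarith
    rw [add_div] at h7
    linarith
  set c1 : ℝ := n * c ^ (n - 1) / l with hc1
  set c2 : ℝ := (n - 1 : ℝ) * c ^ n / l with hc2
  have hc10 : 0 ≤ c1 := by positivity
  have hc20 : 0 ≤ c2 := div_nonneg (mul_nonneg hn0 (pow_nonneg hc0.le n)) hl0.le
  have h2 : ∫⁻ s in Ioo α β, ∫⁻ t in Ioo s β, ENNReal.ofReal (c1 * φ s t) ≤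
      (∫⁻ s in Ioo α β, ∫⁻ t in Ioo s β, ENNReal.ofReal (b s t / (t - s))) +
        ENNReal.ofReal (c2 * l * l) := by
    calc ∫⁻ s in Ioo α β, ∫⁻ t in Ioo s β, ENNReal.ofReal (c1 * φ s t)
        ≤ ∫⁻ s in Ioo α β, ((∫⁻ t in Ioo s β, ENNReal.ofReal (b s t / (t - s))) +
            ENNReal.ofReal (c2 * l)) := by
          refine setLIntegral_mono' measurableSet_Ioo fun s hs => ?_
          calc ∫⁻ t in Ioo s β, ENNReal.ofReal (c1 * φ s t)
              ≤ ∫⁻ t in Ioo s β, (ENNReal.ofReal (b s t / (t - s)) + ENNReal.ofReal c2) := by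
                refine setLIntegral_mono' measurableSet_Ioo fun t ht => ?_
                exact (ENNReal.ofReal_le_ofReal (hpt s t hs.1 ht.1 ht.2)).trans
                  ENNReal.ofReal_add_le
            _ = (∫⁻ t in Ioo s β, ENNReal.ofReal (b s t / (t - s))) +
                  ENNReal.ofReal c2 * ENNReal.ofReal (β - s) := by
                rw [lintegral_add_right _ measurable_const, setLIntegral_const, Real.volume_Ioo]
            _ ≤ _ := by
                refine add_le_add le_rfl ?_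
                rw [ENNReal.ofReal_mul hc20]
                refine mul_le_mul' le_rfl (ENNReal.ofReal_le_ofReal ?_)
                simp only [hl]
                linarith [hs.1]
      _ = (∫⁻ s in Ioo α β, ∫⁻ t in Ioo s β, ENNReal.ofReal (b s t / (t - s))) +
            ENNReal.ofReal (c2 * l * l) := by
          rw [lintegral_add_right _ measurable_const, setLIntegral_const, Real.volume_Ioo,
            ← ENNReal.ofReal_mul (mul_nonneg hc20 hl0.le)]
  have h3 : ∫⁻ s in Ioo α β, ∫⁻ t in Ioo s β, ENNReal.ofReal (c1 * φ s t) =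
      ENNReal.ofReal c1 * ∫⁻ s in Ioo α β, ∫⁻ t in Ioo s β, ENNReal.ofReal (φ s t) := by
    rw [← lintegral_const_mul' _ _ ENNReal.ofReal_ne_top]
    refine lintegral_congr fun s => ?_
    rw [← lintegral_const_mul' _ _ ENNReal.ofReal_ne_top]
    refine lintegral_congr fun t => ?_
    rw [ENNReal.ofReal_mul hc10]
  rw [h3] at h2
  have h4 : ENNReal.ofReal (c1 * (kc * l ^ 3)) ≤ (∫⁻ s in Ioo α β, ∫⁻ t in Ioo s β,
      ENNReal.ofReal (b s t / (t - s))) + ENNReal.ofReal (c2 * l * l) := by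
    rw [ENNReal.ofReal_mul hc10]
    exact (mul_le_mul' le_rfl h1).trans h2
  have hcn : c ^ n = c ^ (n - 1) * c := by
    rw [← pow_succ]
    congr 1
    omega
  have h5 : c1 * (kc * l ^ 3) = kc ^ n * l ^ (n + 1) + c2 * l * l := by
    have h6 : kc ^ n * l ^ n = c ^ n := by rw [hcc, mul_pow]
    have h7 : kc ^ n * l ^ (n + 1) = c ^ n * l := by rw [pow_succ, ← mul_assoc, h6]
    rw [h7, hc1, hc2]
    field_simp
    rw [hcn, hcc]
    ring
  rw [h5, ENNReal.ofReal_add (by positivity) (by positivity)] at h4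
  exact (ENNReal.add_le_add_iff_right ENNReal.ofReal_ne_top).1 h4

end Vale.Agent.P223.H765.Kaz
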