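import Vale.Agent.P223.H765.NC
import Vale.Agent.P223.H.B25c
import Mathlib.Analysis.Calculus.FDeriv.Symmetric

/-! The Hamiltonian vector field and the symplectic form. -/

namespace Vale.Agent.P223.H765.Kaz

open scoped ContDiff
open Set NC

variable {n : ℕ} {G : J.Mtx n}

/-- the symplectic form -/
noncomputable def om (u v : J.E n × J.E n) : ℝ := ∑ i, (u.1 i * v.2 i - u.2 i * v.1 i)

theorem om_anti (u v : J.E n × J.E n) : om u v = -om v u := by
  unfold om
  rw [← Finset.sum_neg_distrib]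
  exact Finset.sum_congr rfl fun i _ => by ring

/-- `om` as a continuous bilinear map -/
theorem om_add_left (u u' v : J.E n × J.E n) : om (u + u') v = om u v + om u' v := by
  unfold om
  rw [← Finset.sum_add_distrib]
  exact Finset.sum_congr rfl fun i _ => by simp only [Prod.fst_add, Prod.snd_add, Pi.add_apply]; ring

theorem om_smul_left (c : ℝ) (u v : J.E n × J.E n) : om (c • u) v = c * om u v := by
  unfold om
  rw [Finset.mul_sum]
  exact Finset.sum_congr rfl fun i _ => by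
    simp only [Prod.smul_fst, Prod.smul_snd, Pi.smul_apply, smul_eq_mul]; ring

/-- `om · v` as a continuous linear map -/
noncomputable def omL (v : J.E n × J.E n) : (J.E n × J.E n) →L[ℝ] ℝ :=
  LinearMap.toContinuousLinearMap
    { toFun := fun u => om u v
      map_add' := fun u u' => om_add_left u u' v
      map_smul' := fun c u => om_smul_left c u v }

theorem omL_apply (u v : J.E n × J.E n) : omL v u = om u v := rfl

theorem hd_om {a b : ℝ → J.E n × J.E n} {a' b' : J.E n × J.E n} {t : ℝ} (ha : HasDerivAt a a' t)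
    (hb : HasDerivAt b b' t) : HasDerivAt (fun s => om (a s) (b s)) (om a' (b t) + om (a t) b') t := by
  have h1 : ∀ i, HasDerivAt (fun s => (a s).1 i) (a'.1 i) t := fun i =>
    (hasDerivAt_pi.1 ((hasFDerivAt_fst (p := a t)).comp_hasDerivAt t ha)) i
  have h2 : ∀ i, HasDerivAt (fun s => (a s).2 i) (a'.2 i) t := fun i =>
    (hasDerivAt_pi.1 ((hasFDerivAt_snd (p := a t)).comp_hasDerivAt t ha)) i
  have h3 : ∀ i, HasDerivAt (fun s => (b s).1 i) (b'.1 i) t := fun i =>
    (hasDerivAt_pi.1 ((hasFDerivAt_fst (p := b t)).comp_hasDerivAt t hb)) i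
  have h4 : ∀ i, HasDerivAt (fun s => (b s).2 i) (b'.2 i) t := fun i =>
    (hasDerivAt_pi.1 ((hasFDerivAt_snd (p := b t)).comp_hasDerivAt t hb)) i
  have h5 : HasDerivAt (fun s => ∑ i, ((a s).1 i * (b s).2 i - (a s).2 i * (b s).1 i))
      (∑ i, ((a'.1 i * (b t).2 i + (a t).1 i * b'.2 i) -
        (a'.2 i * (b t).1 i + (a t).2 i * b'.1 i))) t :=
    HasDerivAt.fun_sum fun i _ => ((h1 i).mul (h4 i)).sub ((h2 i).mul (h3 i))
  unfold om
  convert h5 using 1
  rw [← Finset.sum_add_distrib]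
  exact Finset.sum_congr rfl fun i _ => by ring

theorem hd_line {W : Type*} [NormedAddCommGroup W] [NormedSpace ℝ W] {F : J.E n × J.E n → W}
    {z : J.E n × J.E n} (hF : DifferentiableAt ℝ F z) (v : J.E n) :
    HasDerivAt (fun t : ℝ => F (z.1, z.2 + t • v)) (fderiv ℝ F z (0, v)) 0 := by
  have h2 : HasDerivAt (fun t : ℝ => (z.1, z.2 + t • v)) ((0 : J.E n), v) 0 := by
    refine HasDerivAt.prodMk (hasDerivAt_const _ _) ?_
    have := ((hasDerivAt_id (0 : ℝ)).smul_const v).const_add z.2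
    simpa using this
  have h3 : (z.1, z.2 + (0 : ℝ) • v) = z := by simp
  have h1 : HasFDerivAt F (fderiv ℝ F z) (z.1, z.2 + (0 : ℝ) • v) := by
    rw [h3]; exact hF.hasFDerivAt
  exact h1.comp_hasDerivAt (0 : ℝ) h2

section smooth

variable (hs : ∀ i j, ContDiff ℝ ∞ fun x => G x i j) (hp : ∀ x, (G x).PosDef)
include hs hp

theorem cd_gi (i j : Fin n) : ContDiff ℝ ∞ fun x => (G x)⁻¹ i j :=
  Vale.Agent.P223.H.B25c.cd_inv (M := G) hs (fun x => (hp x).det_pos.ne') i j

theorem cd_ham : ContDiff ℝ ∞ (ham G) := by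
  have h2 : ∀ i, ContDiff ℝ ∞ fun z : J.E n × J.E n => z.2 i := fun i =>
    (contDiff_apply ℝ ℝ i).comp contDiff_snd
  unfold ham
  refine contDiff_const.mul (ContDiff.sum fun i _ => ContDiff.sum fun j _ => ?_)
  exact (((cd_gi hs hp i j).comp contDiff_fst).mul (h2 i)).mul (h2 j)

theorem pd_ham (z : J.E n × J.E n) (k : Fin n) :
    J.pd k (fun q => ham G (q, z.2)) z.1 = fderiv ℝ (ham G) z (Pi.single k 1, 0) := by
  unfold J.pd
  have h1 : HasFDerivAt (ham G) (fderiv ℝ (ham G) z) z :=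
    ((cd_ham hs hp).differentiable (by simp) z).hasFDerivAt
  have h2 : HasFDerivAt (fun q : J.E n => (q, z.2)) (ContinuousLinearMap.inl ℝ (J.E n) (J.E n)) z.1 :=
    hasFDerivAt_prodMk_left z.1 z.2
  have h3 := (show HasFDerivAt (ham G) (fderiv ℝ (ham G) z) (z.1, z.2) from h1).comp z.1 h2
  have h4 : fderiv ℝ (fun q => ham G (q, z.2)) z.1 = (fderiv ℝ (ham G) z).comp
      (ContinuousLinearMap.inl ℝ (J.E n) (J.E n)) := h3.fderiv
  rw [h4]
  rfl

theorem cd_hv : ContDiff ℝ ∞ (hv G) := by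
  have h2 : ∀ i, ContDiff ℝ ∞ fun z : J.E n × J.E n => z.2 i := fun i =>
    (contDiff_apply ℝ ℝ i).comp contDiff_snd
  unfold hv
  refine ContDiff.prodMk (contDiff_pi.2 fun i => ContDiff.sum fun j _ =>
    ((cd_gi hs hp i j).comp contDiff_fst).mul (h2 j)) (contDiff_pi.2 fun k => ContDiff.neg ?_)
  have h3 : (fun z : J.E n × J.E n => J.pd k (fun q => ham G (q, z.2)) z.1) =
      fun z => fderiv ℝ (ham G) z (Pi.single k 1, 0) := funext fun z => pd_ham hs hp z k
  rw [h3]
  exact ((cd_ham hs hp).fderiv_right (m := ∞) (by simp)).clm_apply contDiff_const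

/-- derivative of the Hamiltonian in the direction of the momenta -/
theorem ham_snd (z : J.E n × J.E n) (v : J.E n) :
    fderiv ℝ (ham G) z (0, v) = ∑ i, (∑ j, (G z.1)⁻¹ i j * z.2 j) * v i := by
  have h3 : HasDerivAt (fun t : ℝ => ham G (z.1, z.2 + t • v)) (fderiv ℝ (ham G) z (0, v)) 0 :=
    hd_line ((cd_ham hs hp).differentiable (by simp) z) v
  have hsy : ∀ i j, (G z.1)⁻¹ i j = (G z.1)⁻¹ j i := fun i j => by
    have := (hp z.1).isHermitian.inv
    exact (this.apply i j).symm.trans (by simp)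
  have h4 : HasDerivAt (fun t : ℝ => ham G (z.1, z.2 + t • v))
      (1 / 2 * ∑ i, ∑ j, (((G z.1)⁻¹ i j * v i) * z.2 j + ((G z.1)⁻¹ i j * z.2 i) * v j)) 0 := by
    unfold ham
    refine HasDerivAt.const_mul _ (HasDerivAt.fun_sum fun i _ => HasDerivAt.fun_sum fun j _ => ?_)
    have h5 : ∀ k, HasDerivAt (fun t : ℝ => (z.2 + t • v) k) (v k) 0 := fun k => by
      have := ((hasDerivAt_id (0 : ℝ)).mul_const (v k)).const_add (z.2 k)
      simpa using this
    have h6 : HasDerivAt (fun t : ℝ => (G z.1)⁻¹ i j * (z.2 + t • v) i * (z.2 + t • v) j)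
        (((G z.1)⁻¹ i j * v i) * (z.2 + (0 : ℝ) • v) j +
          ((G z.1)⁻¹ i j * (z.2 + (0 : ℝ) • v) i) * v j) 0 :=
      ((h5 i).const_mul ((G z.1)⁻¹ i j)).mul (h5 j)
    have h7 : z.2 + (0 : ℝ) • v = z.2 := by simp
    rwa [h7] at h6
  rw [h3.unique h4]
  have h7 : ∑ i, ∑ j, (((G z.1)⁻¹ i j * v i) * z.2 j + ((G z.1)⁻¹ i j * z.2 i) * v j) =
      2 * ∑ i, (∑ j, (G z.1)⁻¹ i j * z.2 j) * v i := by
    have h8 : ∑ i, ∑ j, ((G z.1)⁻¹ i j * z.2 i) * v j = ∑ i, ∑ j, ((G z.1)⁻¹ i j * v i) * z.2 j := by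
      rw [Finset.sum_comm]
      refine Finset.sum_congr rfl fun i _ => Finset.sum_congr rfl fun j _ => ?_
      rw [hsy j i]
      ring
    simp only [Finset.sum_add_distrib]
    rw [h8, ← two_mul]
    congr 1
    refine Finset.sum_congr rfl fun i _ => ?_
    rw [Finset.sum_mul]
    exact Finset.sum_congr rfl fun j _ => by ring
  rw [h7]
  ring

/-- the Hamiltonian vector field is the symplectic gradient -/
theorem om_hv (z v : J.E n × J.E n) : om (hv G z) v = fderiv ℝ (ham G) z v := by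
  have h1 : v = (v.1, 0) + (0, v.2) := by simp
  have h2 : (v.1, (0 : J.E n)) = ∑ k, v.1 k • ((Pi.single k (1 : ℝ) : J.E n), (0 : J.E n)) := by
    ext i
    · simp [Finset.sum_apply, Prod.fst_sum, Pi.single_apply]
    · simp [Finset.sum_apply, Prod.snd_sum]
  conv_rhs => rw [h1]
  rw [map_add, ham_snd hs hp, h2, map_sum]
  simp only [map_smul, smul_eq_mul]
  unfold om hv
  simp only [pd_ham hs hp]
  rw [← Finset.sum_add_distrib]
  exact Finset.sum_congr rfl fun i _ => by ring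

theorem om_fderiv (z u v : J.E n × J.E n) :
    om (fderiv ℝ (hv G) z u) v = fderiv ℝ (fderiv ℝ (ham G)) z u v := by
  have h1 : HasFDerivAt (fun z => omL v (hv G z)) ((omL v).comp (fderiv ℝ (hv G) z)) z :=
    (omL v).hasFDerivAt.comp z ((cd_hv hs hp).differentiable (by simp) z).hasFDerivAt
  have h2 : (fun z => omL v (hv G z)) = fun z => fderiv ℝ (ham G) z v :=
    funext fun z => om_hv hs hp z v
  rw [h2] at h1
  have h3 : HasFDerivAt (fun z => fderiv ℝ (ham G) z v)
      ((fderiv ℝ (fderiv ℝ (ham G)) z).flip v) z := by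
    have h4 : HasFDerivAt (fderiv ℝ (ham G)) (fderiv ℝ (fderiv ℝ (ham G)) z) z :=
      (((cd_ham hs hp).fderiv_right (m := ∞) (by simp)).differentiable (by simp) z).hasFDerivAt
    have := h4.clm_apply (hasFDerivAt_const v z)
    simpa using this
  have h4 := congrArg (fun L : (J.E n × J.E n) →L[ℝ] ℝ => L u) (h1.unique h3)
  exact h4

theorem om_sym (z u v : J.E n × J.E n) :
    om (fderiv ℝ (hv G) z u) v + om u (fderiv ℝ (hv G) z v) = 0 := by
  rw [om_anti u, om_fderiv hs hp, om_fderiv hs hp]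
  have h1 : IsSymmSndFDerivAt ℝ (ham G) z :=
    ((cd_ham hs hp).contDiffAt.of_le
      (WithTop.coe_le_coe.2 le_top : ((2 : ℕ∞) : WithTop ℕ∞) ≤ ∞)).isSymmSndFDerivAt
      (by simp [minSmoothness_of_isRCLikeNormedField])
  rw [h1 u v]
  ring

/-- derivative of the first component in the direction of the momenta -/
theorem hv_fst (z : J.E n × J.E n) (v : J.E n) :
    (fderiv ℝ (hv G) z (0, v)).1 = (G z.1)⁻¹.mulVec v := by
  have h3 : HasDerivAt (fun t : ℝ => hv G (z.1, z.2 + t • v)) (fderiv ℝ (hv G) z (0, v)) 0 :=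
    hd_line ((cd_hv hs hp).differentiable (by simp) z) v
  have h4 : HasDerivAt (fun t : ℝ => (hv G (z.1, z.2 + t • v)).1) (fderiv ℝ (hv G) z (0, v)).1 0 :=
    h3.fst
  funext i
  have h5 : HasDerivAt (fun t : ℝ => ∑ j, (G z.1)⁻¹ i j * (z.2 + t • v) j)
      (∑ j, (G z.1)⁻¹ i j * v j) 0 := by
    refine HasDerivAt.fun_sum fun j _ => HasDerivAt.const_mul _ ?_
    have := ((hasDerivAt_id (0 : ℝ)).mul_const (v j)).const_add (z.2 j)
    simpa using this
  exact (hasDerivAt_pi.1 h4 i).unique h5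

end smooth

end Vale.Agent.P223.H765.Kaz
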