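import Vale.Agent.P223.H765.Kaz4
import Vale.Agent.P223.H765.Kaz6

/-! Kazdan's inequality (block T4). -/

namespace Vale.Agent.P223.H765.Kaz

open scoped ContDiff Matrix Topology ENNReal
open Set NC MeasureTheory

variable {n : ℕ} {G : J.Mtx n} {Φ : ℝ → J.E n × J.E n → J.E n × J.E n}

/-- integrals of positive definite matrices -/
theorem posDef_int {P : ℝ → Matrix (Fin n) (Fin n) ℝ} {s t : ℝ} (hst : s < t)
    (hc : ContinuousOn P (Icc s t)) (hp : ∀ τ ∈ Icc s t, (P τ).PosDef)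
    {Q : Matrix (Fin n) (Fin n) ℝ} (hQ : ∀ i j, Q i j = ∫ τ in s..t, P τ i j) : Q.PosDef := by
  have hcij : ∀ i j, ContinuousOn (fun τ => P τ i j) (Icc s t) := fun i j =>
    (continuous_apply j).comp_continuousOn ((continuous_apply i).comp_continuousOn hc)
  have hiij : ∀ i j, IntervalIntegrable (fun τ => P τ i j) volume s t := fun i j =>
    (hcij i j).intervalIntegrable_of_Icc hst.le
  refine Matrix.PosDef.of_dotProduct_mulVec_pos ?_ fun x hx => ?_
  · refine Matrix.IsHermitian.ext fun i j => ?_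
    rw [star_trivial, hQ j i, hQ i j]
    refine intervalIntegral.integral_congr fun τ hτ => ?_
    rw [uIcc_of_le hst.le] at hτ
    have := (hp τ hτ).isHermitian.apply i j
    simpa using this
  · have h1 : star x ⬝ᵥ Q *ᵥ x = ∫ τ in s..t, star x ⬝ᵥ P τ *ᵥ x := by
      simp only [star_trivial, dotProduct, Matrix.mulVec]
      have h2 : ∀ i, IntervalIntegrable (fun τ => x i * ∑ j, P τ i j * x j) volume s t := fun i =>
        (continuousOn_const.mul (continuousOn_finsetSum _ fun j _ =>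
          (hcij i j).mul continuousOn_const)).intervalIntegrable_of_Icc hst.le
      rw [intervalIntegral.integral_finsetSum fun i _ => h2 i]
      refine Finset.sum_congr rfl fun i _ => ?_
      rw [intervalIntegral.integral_const_mul,
        intervalIntegral.integral_finsetSum fun j _ => (hiij i j).mul_const _]
      congr 1
      refine Finset.sum_congr rfl fun j _ => ?_
      rw [intervalIntegral.integral_mul_const, hQ]
    rw [h1]
    refine intervalIntegral.intervalIntegral_pos_of_pos_on ?_ (fun τ hτ =>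
      (hp τ ⟨hτ.1.le, hτ.2.le⟩).dotProduct_mulVec_pos hx) hst
    refine ContinuousOn.intervalIntegrable_of_Icc hst.le ?_
    simp only [star_trivial, dotProduct, Matrix.mulVec]
    exact continuousOn_finsetSum _ fun i _ => continuousOn_const.mul
      (continuousOn_finsetSum _ fun j _ => (hcij i j).mul continuousOn_const)

section flow

variable (hg : Geo G Φ) (hF : SpecFlow) (z : J.E n × J.E n) (c : ℝ)
include hg hF

theorem cont_Y (i j : Fin n) : Continuous fun t => bk1 (Mt Φ z c t) i j := by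
  have h1 : Continuous (Mt Φ z c) :=
    continuous_iff_continuousAt.2 fun τ => (hd_Mt hg hF z c τ).continuousAt
  have h2 : Continuous fun t => Mt Φ z c t (0, Pi.single j 1) := h1.clm_apply continuous_const
  exact (continuous_apply i).comp (continuous_fst.comp h2)

theorem cont_orb : Continuous fun t => Φ t z :=
  (fl hg hF).1.continuous.comp (continuous_id.prodMk continuous_const)

theorem hd_B (s : ℝ) (k l : Fin n) : HasDerivAt (fun t => bk1 (fderiv ℝ (Φ (t - s)) (Φ s z)) k l)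
    ((G (Φ s z).1)⁻¹ k l) s := by
  have h1 := (fl hg hF).2.2 0 (Φ s z)
  rw [hg.zero, fder_zero hg hF] at h1
  have h1' : HasDerivAt (fun r => fderiv ℝ (Φ r) (Φ s z)) ((fderiv ℝ (hv G) (Φ s z)).comp
      (ContinuousLinearMap.id ℝ (J.E n × J.E n))) (s - s) := by
    rw [sub_self]; exact h1
  have h2 : HasDerivAt (fun t : ℝ => t - s) 1 s := (hasDerivAt_id s).sub_const s
  have h3 : HasDerivAt (fun t => fderiv ℝ (Φ (t - s)) (Φ s z)) ((1 : ℝ) •
      (fderiv ℝ (hv G) (Φ s z)).comp (ContinuousLinearMap.id ℝ (J.E n × J.E n))) s :=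
    HasDerivAt.scomp (h := fun t : ℝ => t - s) s h1' h2
  rw [one_smul, ContinuousLinearMap.comp_id] at h3
  have h4 : HasDerivAt (fun t => fderiv ℝ (Φ (t - s)) (Φ s z) (0, Pi.single l 1))
      (fderiv ℝ (hv G) (Φ s z) (0, Pi.single l 1)) s := by
    have := h3.clm_apply (hasDerivAt_const s ((0 : J.E n), (Pi.single l (1 : ℝ) : J.E n)))
    simpa using this
  have h5 := hasDerivAt_pi.1 h4.fst k
  have h6 : (fderiv ℝ (hv G) (Φ s z) (0, Pi.single l 1)).1 k = (G (Φ s z).1)⁻¹ k l := by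
    rw [hv_fst hg.smooth hg.pos]
    simp [Matrix.mulVec, dotProduct, Pi.single_apply]
  rw [h6] at h5
  exact h5

/-- the derivative of `-S` -/
noncomputable def Pm (G : J.Mtx n) (Φ : ℝ → J.E n × J.E n → J.E n × J.E n) (z : J.E n × J.E n)
    (c τ : ℝ) : Matrix (Fin n) (Fin n) ℝ :=
  (bk1 (Mt Φ z c τ))⁻¹ * (G (Φ τ z).1)⁻¹ * ((bk1 (Mt Φ z c τ))⁻¹)ᵀ

theorem B_zero (s : ℝ) (k l : Fin n) : bk1 (fderiv ℝ (Φ (s - s)) (Φ s z)) k l = 0 := by
  rw [sub_self, fder_zero hg hF]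
  simp [bk1]

theorem hd_S {s : ℝ} (hs : (bk1 (Mt Φ z c s)).det ≠ 0) (i j : Fin n) :
    HasDerivAt (fun t => St Φ z c t i j) (-(Pm G Φ z c s i j)) s := by
  have hsu : IsUnit (bk1 (Mt Φ z c s)).det := isUnit_iff_ne_zero.2 hs
  have hcd : Continuous fun t => (bk1 (Mt Φ z c t)).det := by
    have : Continuous fun t => bk1 (Mt Φ z c t) :=
      continuous_pi fun i => continuous_pi fun j => cont_Y hg hF z c i j
    exact this.matrix_det
  have hev : ∀ᶠ t in 𝓝 s, (bk1 (Mt Φ z c t)).det ≠ 0 := hcd.continuousAt.eventually_ne hs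
  have h1 : ∀ᶠ t in 𝓝 s, St Φ z c t i j = St Φ z c s i j - ∑ l, ∑ k,
      ((bk1 (Mt Φ z c t))⁻¹ i k * bk1 (fderiv ℝ (Φ (t - s)) (Φ s z)) k l) *
        ((bk1 (Mt Φ z c s))⁻¹)ᵀ l j := by
    filter_upwards [hev] with t ht
    have htu : IsUnit (bk1 (Mt Φ z c t)).det := isUnit_iff_ne_zero.2 ht
    have h2 := wron hg hF z c hs ht
    have h3 : (bk1 (Mt Φ z c t))⁻¹ * bk1 (fderiv ℝ (Φ (t - s)) (Φ s z)) *
        ((bk1 (Mt Φ z c s))⁻¹)ᵀ = St Φ z c s - St Φ z c t := by
      rw [h2, Matrix.transpose_nonsing_inv, ← Matrix.mul_assoc, ← Matrix.mul_assoc,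
        Matrix.nonsing_inv_mul _ htu, Matrix.one_mul, Matrix.mul_assoc,
        Matrix.mul_nonsing_inv _ (by rwa [Matrix.det_transpose]), Matrix.mul_one]
    have h4 : ((bk1 (Mt Φ z c t))⁻¹ * bk1 (fderiv ℝ (Φ (t - s)) (Φ s z)) *
        ((bk1 (Mt Φ z c s))⁻¹)ᵀ) i j = St Φ z c s i j - St Φ z c t i j := by
      rw [h3]; rfl
    rw [Matrix.mul_apply] at h4
    simp only [Matrix.mul_apply, Finset.sum_mul] at h4
    rw [h4]
    ring
  have h2 : HasDerivAt (fun t => St Φ z c s i j - ∑ l, ∑ k,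
      ((bk1 (Mt Φ z c t))⁻¹ i k * bk1 (fderiv ℝ (Φ (t - s)) (Φ s z)) k l) *
        ((bk1 (Mt Φ z c s))⁻¹)ᵀ l j)
      (0 - ∑ l, ∑ k, ((bk1 (Mt Φ z c s))⁻¹ i k * (G (Φ s z).1)⁻¹ k l) *
        ((bk1 (Mt Φ z c s))⁻¹)ᵀ l j) s := by
    refine (hasDerivAt_const s _).sub (HasDerivAt.fun_sum fun l _ => HasDerivAt.fun_sum fun k _ =>
      HasDerivAt.mul_const ?_ _)
    exact hd_mul_zero (cont_inv (fun i j => (cont_Y hg hF z c i j).continuousAt) hs i k)
      (hd_B hg hF z s k l) (B_zero hg hF z s k l)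
  have h3 := h2.congr_of_eventuallyEq h1
  have h4 : (0 - ∑ l, ∑ k, ((bk1 (Mt Φ z c s))⁻¹ i k * (G (Φ s z).1)⁻¹ k l) *
        ((bk1 (Mt Φ z c s))⁻¹)ᵀ l j) = -(Pm G Φ z c s i j) := by
    unfold Pm
    rw [Matrix.mul_apply, zero_sub]
    simp only [Matrix.mul_apply, Finset.sum_mul]
  rwa [h4] at h3

theorem cont_Pm {s t : ℝ} (h : ∀ τ ∈ Icc s t, (bk1 (Mt Φ z c τ)).det ≠ 0) :
    ContinuousOn (Pm G Φ z c) (Icc s t) := by
  intro τ hτ
  refine ContinuousAt.continuousWithinAt ?_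
  have h1 : ContinuousAt (fun t => (bk1 (Mt Φ z c t))⁻¹) τ :=
    continuousAt_pi.2 fun i => continuousAt_pi.2 fun j =>
      cont_inv (fun i j => (cont_Y hg hF z c i j).continuousAt) (h τ hτ) i j
  have h2 : ContinuousAt (fun t => (G (Φ t z).1)⁻¹) τ :=
    continuousAt_pi.2 fun i => continuousAt_pi.2 fun j =>
      ((cd_gi hg.smooth hg.pos i j).continuous.comp
        (continuous_fst.comp (cont_orb hg hF z))).continuousAt
  have h3 : ContinuousAt (fun t => ((bk1 (Mt Φ z c t))⁻¹)ᵀ) τ :=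
    (continuous_id.matrix_transpose).continuousAt.comp h1
  have h4 : ∀ {A B : ℝ → Matrix (Fin n) (Fin n) ℝ}, ContinuousAt A τ → ContinuousAt B τ →
      ContinuousAt (fun t => A t * B t) τ := fun {A B} hA hB => by
    refine continuousAt_pi.2 fun i => continuousAt_pi.2 fun j => ?_
    simp only [Matrix.mul_apply]
    exact tendsto_finsetSum _ fun k _ => (continuousAt_pi.1 (continuousAt_pi.1 hA i) k).mul
      (continuousAt_pi.1 (continuousAt_pi.1 hB k) j)
  exact h4 (h4 h1 h2) h3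

theorem S_int {s t : ℝ} (hst : s ≤ t) (h : ∀ τ ∈ Icc s t, (bk1 (Mt Φ z c τ)).det ≠ 0)
    (i j : Fin n) : (St Φ z c s - St Φ z c t) i j = ∫ τ in s..t, Pm G Φ z c τ i j := by
  have hcP : ContinuousOn (fun τ => Pm G Φ z c τ i j) (Icc s t) :=
    (continuous_apply j).comp_continuousOn
      ((continuous_apply i).comp_continuousOn (cont_Pm hg hF z c h))
  have h1 : ∫ τ in s..t, -(Pm G Φ z c τ i j) = St Φ z c t i j - St Φ z c s i j := by
    refine intervalIntegral.integral_eq_sub_of_hasDerivAt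
      (f := fun τ => St Φ z c τ i j) (f' := fun τ => -(Pm G Φ z c τ i j)) (fun τ hτ => ?_)
      ((show ContinuousOn (fun τ => -(Pm G Φ z c τ i j)) (Icc s t) from
        hcP.neg).intervalIntegrable_of_Icc hst)
    rw [uIcc_of_le hst] at hτ
    exact hd_S hg hF z c (h τ hτ) i j
  rw [intervalIntegral.integral_neg] at h1
  rw [Matrix.sub_apply]
  linarith

end flow

/-- BLOCK T4 -/
theorem specKaz (hF : SpecFlow) (hL : SpecLiou) : SpecKaz := by
  intro n hn
  refine ⟨kc ^ n, pow_pos kc_pos n, fun G Φ hg z α β hαβ => ?_⟩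
  have hn' : (n : ℝ) ≠ 0 := by
    have : (1 : ℝ) ≤ n := by exact_mod_cast hn
    linarith
  set c := α - 1 with hc
  set Y : ℝ → Matrix (Fin n) (Fin n) ℝ := fun τ => bk1 (Mt Φ z c τ) with hY
  have hYd : ∀ τ ∈ Icc α β, (Y τ).det ≠ 0 := fun τ hτ => by
    have h1 := (hL n G Φ hg).2.2.2 (τ - c) (by
      simp only [hc]
      have := hτ.1
      intro h
      linarith) (Φ c z).1
    have h2 := h1.2 (Φ c z).2
    have h3 := det_bk (diffΦ hg hF (τ - c) (Φ c z))
    rw [h3] at h2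
    exact h2
  set g : ℝ → ℝ := fun τ => (G (Φ τ z).1).det with hgd
  have hg0 : ∀ τ, 0 < g τ := fun τ => (hg.pos _).det_pos
  have hcY : Continuous fun τ => (Y τ).det := by
    have : Continuous fun t => bk1 (Mt Φ z c t) :=
      continuous_pi fun i => continuous_pi fun j => cont_Y hg hF z c i j
    exact this.matrix_det
  have hcg : Continuous g := by
    have h1 : Continuous fun t => G (Φ t z).1 :=
      continuous_pi fun i => continuous_pi fun j => (hg.smooth i j).continuous.comp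
        (continuous_fst.comp (cont_orb hg hF z))
    exact h1.matrix_det
  set r : ℝ → ℝ := fun τ => |(Y τ).det| * √(g τ) with hr
  have hr0 : ∀ τ, 0 ≤ r τ := fun τ => by positivity
  have hrp : ∀ τ ∈ Icc α β, 0 < r τ := fun τ hτ =>
    mul_pos (abs_pos.2 (hYd τ hτ)) (Real.sqrt_pos.2 (hg0 τ))
  set f : ℝ → ℝ := fun τ => r τ ^ ((1 : ℝ) / n) with hf
  have hcf : Continuous f :=
    (hcY.abs.mul (Real.continuous_sqrt.comp hcg)).rpow_const fun τ => Or.inr (by positivity)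
  have hfp : ∀ τ ∈ Icc α β, 0 < f τ := fun τ hτ => Real.rpow_pos_of_pos (hrp τ hτ) _
  have hfn : ∀ τ, f τ ^ n = r τ := fun τ => by
    simp only [hf]
    rw [← Real.rpow_natCast, ← Real.rpow_mul (hr0 τ), one_div, inv_mul_cancel₀ hn', Real.rpow_one]
  refine kaz_one hn hαβ hcf hfp fun s t hs hst ht => ?_
  have hsI : s ∈ Icc α β := ⟨hs.le, (hst.trans ht).le⟩
  have htI : t ∈ Icc α β := ⟨(hs.trans hst).le, ht.le⟩
  have hsub : ∀ τ ∈ Icc s t, τ ∈ Icc α β := fun τ hτ => ⟨hs.le.trans hτ.1, hτ.2.trans ht.le⟩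
  have hdet : ∀ τ ∈ Icc s t, (bk1 (Mt Φ z c τ)).det ≠ 0 := fun τ hτ => hYd τ (hsub τ hτ)
  have hPp : ∀ τ ∈ Icc s t, (Pm G Φ z c τ).PosDef := fun τ hτ => by
    refine posDef_conj (hg.pos _).inv ?_
    rw [Matrix.det_nonsing_inv, Ring.inverse_eq_inv']
    exact inv_ne_zero (hdet τ hτ)
  have hPd : ∀ τ ∈ Icc s t, (Pm G Φ z c τ).det ^ ((1 : ℝ) / n) = (f τ ^ 2)⁻¹ := fun τ hτ => by
    have h1 : (Pm G Φ z c τ).det = (r τ ^ 2)⁻¹ := by
      have h2 := hdet τ hτ
      have h3 := (hg0 τ).ne'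
      simp only [Pm, Matrix.det_mul, Matrix.det_transpose, Matrix.det_nonsing_inv,
        Ring.inverse_eq_inv']
      simp only [hr, hY, hgd, mul_pow, sq_abs, Real.sq_sqrt (hg.pos (Φ τ z).1).det_pos.le]
      field_simp
    rw [h1, Real.inv_rpow (by positivity)]
    congr 1
    simp only [hf]
    rw [← Real.rpow_natCast, ← Real.rpow_natCast, ← Real.rpow_mul (hr0 τ),
      ← Real.rpow_mul (hr0 τ), mul_comm]
  have hcP := cont_Pm hg hF z c hdet
  have hQ := S_int hg hF z c hst.le hdet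
  have hQp := posDef_int hst hcP hPp hQ
  have h1 := mink hn hst hcP hPp hQ hQp
  have h2 : ∫ τ in s..t, (Pm G Φ z c τ).det ^ ((1 : ℝ) / n) = ∫ τ in s..t, (f τ ^ 2)⁻¹ := by
    refine intervalIntegral.integral_congr fun τ hτ => ?_
    rw [uIcc_of_le hst.le] at hτ
    exact hPd τ hτ
  rw [h2] at h1
  set Q := St Φ z c s - St Φ z c t with hQdef
  have h3 : (∫ τ in s..t, (f τ ^ 2)⁻¹) ^ n ≤ Q.det := by
    have h4 : 0 ≤ ∫ τ in s..t, (f τ ^ 2)⁻¹ :=
      intervalIntegral.integral_nonneg hst.le fun τ _ => inv_nonneg.2 (sq_nonneg _)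
    have h5 := pow_le_pow_left₀ h4 h1 n
    rwa [← Real.rpow_natCast (Q.det ^ ((1 : ℝ) / n)), ← Real.rpow_mul hQp.det_pos.le, one_div,
      inv_mul_cancel₀ hn', Real.rpow_one] at h5
  have h4 : bb G Φ (t - s) (Φ s z) = r s * r t * Q.det := by
    unfold bb
    rw [det_bk (diffΦ hg hF (t - s) (Φ s z)), orb hg hF z s t,
      wron hg hF z c (hYd s hsI) (hYd t htI), Matrix.det_mul, Matrix.det_mul,
      Matrix.det_transpose, abs_mul, abs_mul, abs_of_pos hQp.det_pos]
    simp only [hr, hY, hgd]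
    ring
  rw [h4, mul_pow, mul_pow, hfn, hfn]
  exact mul_le_mul_of_nonneg_left h3 (mul_nonneg (hr0 s) (hr0 t))

end Vale.Agent.P223.H765.Kaz
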