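import Vale.Agent.P223.H765.Kaz5
import Vale.Agent.P223.H566.NV
import Mathlib.MeasureTheory.Integral.IntervalIntegral.FundThmCalculus

/-! The linearised geodesic flow, for complete flows (no poles). -/

namespace Vale.Agent.P223.H765.KazL

open scoped ContDiff Matrix Topology
open Set NC MeasureTheory Kaz

variable {n : ℕ} {G : J.Mtx n} {Φ : ℝ → J.E n × J.E n → J.E n × J.E n}

/-- blocks of a linear map -/
noncomputable def bk1 (L : (J.E n × J.E n) →L[ℝ] (J.E n × J.E n)) : Matrix (Fin n) (Fin n) ℝ :=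
  fun i j => (L (0, Pi.single j 1)).1 i

/-- blocks of a linear map -/
noncomputable def bk0 (L : (J.E n × J.E n) →L[ℝ] (J.E n × J.E n)) : Matrix (Fin n) (Fin n) ℝ :=
  fun i j => (L (Pi.single j 1, 0)).1 i

theorem bk1_mulVec (L : (J.E n × J.E n) →L[ℝ] (J.E n × J.E n)) (v : J.E n) :
    bk1 L *ᵥ v = (L (0, v)).1 := by
  have h2 : ((0 : J.E n), v) = ∑ k, v k • ((0 : J.E n), (Pi.single k (1 : ℝ) : J.E n)) := by
    ext i
    · simp [Finset.sum_apply, Prod.fst_sum]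
    · simp [Finset.sum_apply, Prod.snd_sum, Pi.single_apply]
  funext i
  rw [h2, map_sum]
  simp only [map_smul, Prod.fst_sum, Prod.smul_fst, Finset.sum_apply, Pi.smul_apply, smul_eq_mul,
    Matrix.mulVec, dotProduct, bk1]
  exact Finset.sum_congr rfl fun j _ => mul_comm _ _

theorem bk0_mulVec (L : (J.E n × J.E n) →L[ℝ] (J.E n × J.E n)) (v : J.E n) :
    bk0 L *ᵥ v = (L (v, 0)).1 := by
  have h2 : (v, (0 : J.E n)) = ∑ k, v k • ((Pi.single k (1 : ℝ) : J.E n), (0 : J.E n)) := by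
    ext i
    · simp [Finset.sum_apply, Prod.fst_sum, Pi.single_apply]
    · simp [Finset.sum_apply, Prod.snd_sum]
  funext i
  rw [h2, map_sum]
  simp only [map_smul, Prod.fst_sum, Prod.smul_fst, Finset.sum_apply, Pi.smul_apply, smul_eq_mul,
    Matrix.mulVec, dotProduct, bk0]
  exact Finset.sum_congr rfl fun j _ => mul_comm _ _

theorem bk_mulVec (L : (J.E n × J.E n) →L[ℝ] (J.E n × J.E n)) (a v : J.E n) :
    (L (a, v)).1 = bk0 L *ᵥ a + bk1 L *ᵥ v := by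
  rw [bk0_mulVec, bk1_mulVec, ← Prod.fst_add, ← map_add]
  simp

theorem det_bk {F : J.E n × J.E n → J.E n × J.E n} {z : J.E n × J.E n}
    (hF : DifferentiableAt ℝ F z) :
    (fderiv ℝ (fun p => (F (z.1, p)).1) z.2).det = (bk1 (fderiv ℝ F z)).det := by
  have h1 : HasFDerivAt F (fderiv ℝ F z) (z.1, z.2) := hF.hasFDerivAt
  have h2 : HasFDerivAt (fun p : J.E n => (z.1, p)) (ContinuousLinearMap.inr ℝ (J.E n) (J.E n))
      z.2 := hasFDerivAt_prodMk_right z.1 z.2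
  have h3 : HasFDerivAt (fun p => (F (z.1, p)).1)
      ((ContinuousLinearMap.fst ℝ (J.E n) (J.E n)).comp ((fderiv ℝ F z).comp
        (ContinuousLinearMap.inr ℝ (J.E n) (J.E n)))) z.2 :=
    hasFDerivAt_fst.comp z.2 (h1.comp z.2 h2)
  rw [h3.fderiv]
  unfold ContinuousLinearMap.det
  rw [← LinearMap.det_toMatrix']
  congr 1

/-- `u v` is differentiable where `v = 0` and `u` is continuous. -/
theorem hd_mul_zero {u v : ℝ → ℝ} {s v' : ℝ} (hu : ContinuousAt u s) (hv : HasDerivAt v v' s)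
    (h0 : v s = 0) : HasDerivAt (fun t => u t * v t) (u s * v') s := by
  rw [hasDerivAt_iff_tendsto_slope] at hv ⊢
  have h1 : slope (fun t => u t * v t) s = fun t => u t * slope v s t := by
    funext t
    simp only [slope, vsub_eq_sub, smul_eq_mul, h0, mul_zero, sub_zero]
    ring
  rw [h1]
  exact (hu.tendsto.mono_left nhdsWithin_le_nhds).mul hv

theorem cont_inv {A : ℝ → Matrix (Fin n) (Fin n) ℝ} {s : ℝ}
    (h : ∀ i j, ContinuousAt (fun t => A t i j) s) (h0 : (A s).det ≠ 0) (i j : Fin n) :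
    ContinuousAt (fun t => (A t)⁻¹ i j) s := by
  have hA : ContinuousAt A s := continuousAt_pi.2 fun i => continuousAt_pi.2 fun j => h i j
  have hd : ContinuousAt (fun t => (A t).det) s :=
    (Continuous.matrix_det continuous_id).continuousAt.comp hA
  have ha : ContinuousAt (fun t => (A t).adjugate) s :=
    (Continuous.matrix_adjugate continuous_id).continuousAt.comp hA
  have e : (fun t => (A t)⁻¹ i j) = fun t => ((A t).det)⁻¹ * (A t).adjugate i j := by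
    funext x
    rw [Matrix.inv_def, Ring.inverse_eq_inv', Matrix.smul_apply, smul_eq_mul]
  rw [e]
  exact (hd.inv₀ h0).mul (continuousAt_pi.1 (continuousAt_pi.1 ha i) j)

section flow

/-- the linearised flow from the time `c` to the time `τ` along the orbit of `z` -/
noncomputable def Mt (Φ : ℝ → J.E n × J.E n → J.E n × J.E n) (z : J.E n × J.E n) (c τ : ℝ) :
    (J.E n × J.E n) →L[ℝ] (J.E n × J.E n) := fderiv ℝ (Φ (τ - c)) (Φ c z)

variable (hg : H566.NV.Flo G Φ) (hF : SpecFlow) (z : J.E n × J.E n) (c : ℝ)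
include hg hF

theorem fl : ContDiff ℝ 1 (fun q : ℝ × (J.E n × J.E n) => Φ q.1 q.2) ∧
    (∀ s t z, Φ (s + t) z = Φ s (Φ t z)) ∧
    ∀ t z, HasDerivAt (fun s => fderiv ℝ (Φ s) z)
      ((fderiv ℝ (hv G) (Φ t z)).comp (fderiv ℝ (Φ t) z)) t :=
  hF (J.E n × J.E n) (hv G) Φ (cd_hv hg.smooth hg.pos) hg.zero hg.flow

theorem diffΦ (t : ℝ) : Differentiable ℝ (Φ t) := by
  have h1 := (fl hg hF).1
  have h2 : Φ t = (fun q : ℝ × (J.E n × J.E n) => Φ q.1 q.2) ∘ fun z => (t, z) := rfl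
  rw [h2]
  exact (h1.comp (contDiff_const.prodMk contDiff_id)).differentiable (by simp)

theorem orb (τ : ℝ) : Φ (τ - c) (Φ c z) = Φ τ z := by
  rw [← (fl hg hF).2.1]
  congr 1
  ring

theorem fder_zero (z : J.E n × J.E n) :
    fderiv ℝ (Φ 0) z = ContinuousLinearMap.id ℝ (J.E n × J.E n) := by
  have h1 : Φ 0 = id := funext hg.zero
  rw [h1, fderiv_id]

theorem Mt_c : Mt Φ z c c = ContinuousLinearMap.id ℝ (J.E n × J.E n) := by
  unfold Mt
  rw [sub_self, fder_zero hg hF]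

theorem hd_Mt (τ : ℝ) :
    HasDerivAt (Mt Φ z c) ((fderiv ℝ (hv G) (Φ τ z)).comp (Mt Φ z c τ)) τ := by
  have h1 := (fl hg hF).2.2 (τ - c) (Φ c z)
  rw [orb hg hF z c τ] at h1
  have h2 : HasDerivAt (fun s : ℝ => s - c) 1 τ := (hasDerivAt_id τ).sub_const c
  have h3 := HasDerivAt.scomp τ h1 h2
  rw [one_smul] at h3
  exact h3

theorem Mt_mul (s t : ℝ) : Mt Φ z c t = (fderiv ℝ (Φ (t - s)) (Φ s z)).comp (Mt Φ z c s) := by
  have h1 : Φ (t - c) = Φ (t - s) ∘ Φ (s - c) := by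
    funext w
    have h2 : t - c = (t - s) + (s - c) := by ring
    rw [h2, (fl hg hF).2.1]
    rfl
  have h2 : HasFDerivAt (Φ (s - c)) (Mt Φ z c s) (Φ c z) :=
    (diffΦ hg hF (s - c) (Φ c z)).hasFDerivAt
  have h3 : HasFDerivAt (Φ (t - s)) (fderiv ℝ (Φ (t - s)) (Φ s z)) (Φ (s - c) (Φ c z)) := by
    rw [orb hg hF z c s]
    exact (diffΦ hg hF (t - s) (Φ s z)).hasFDerivAt
  have h4 := h3.comp (Φ c z) h2
  rw [← h1] at h4
  exact h4.fderiv

theorem om_Mt (τ : ℝ) (u v : J.E n × J.E n) :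
    Kaz.om (Mt Φ z c τ u) (Mt Φ z c τ v) = Kaz.om u v := by
  have hd : ∀ τ w, HasDerivAt (fun s => Mt Φ z c s w)
      (fderiv ℝ (hv G) (Φ τ z) (Mt Φ z c τ w)) τ := fun τ w => by
    have := (hd_Mt hg hF z c τ).clm_apply (hasDerivAt_const τ w)
    simpa using this
  have h1 : ∀ τ, HasDerivAt (fun s => Kaz.om (Mt Φ z c s u) (Mt Φ z c s v)) 0 τ := fun τ => by
    have := hd_om (hd τ u) (hd τ v)
    rwa [om_sym hg.smooth hg.pos] at this
  have h2 : Kaz.om (Mt Φ z c τ u) (Mt Φ z c τ v) = Kaz.om (Mt Φ z c c u) (Mt Φ z c c v) :=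
    is_const_of_deriv_eq_zero (fun τ => (h1 τ).differentiableAt) (fun τ => (h1 τ).deriv) τ c
  rw [h2, Mt_c hg hF z c]
  rfl

/-- `Y⁻¹ X` -/
noncomputable def St (Φ : ℝ → J.E n × J.E n → J.E n × J.E n) (z : J.E n × J.E n) (c τ : ℝ) :
    Matrix (Fin n) (Fin n) ℝ := (bk1 (Mt Φ z c τ))⁻¹ * bk0 (Mt Φ z c τ)

theorem wron {s t : ℝ} (hs : (bk1 (Mt Φ z c s)).det ≠ 0) (ht : (bk1 (Mt Φ z c t)).det ≠ 0) :
    bk1 (fderiv ℝ (Φ (t - s)) (Φ s z)) =
      bk1 (Mt Φ z c t) * (St Φ z c s - St Φ z c t) * (bk1 (Mt Φ z c s))ᵀ := by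
  have hsu : IsUnit (bk1 (Mt Φ z c s)).det := isUnit_iff_ne_zero.2 hs
  have htu : IsUnit (bk1 (Mt Φ z c t)).det := isUnit_iff_ne_zero.2 ht
  apply Matrix.ext_of_mulVec_single
  intro k
  obtain ⟨β, hβ⟩ : ∃ β : J.E n, β = Pi.single k 1 := ⟨_, rfl⟩
  rw [← hβ]
  obtain ⟨a, ha⟩ : ∃ a : J.E n, a = -((bk1 (Mt Φ z c s))ᵀ *ᵥ β) := ⟨_, rfl⟩
  obtain ⟨α', hα⟩ : ∃ α' : J.E n, α' = -(St Φ z c s *ᵥ a) := ⟨_, rfl⟩
  have h1 : (Mt Φ z c s (a, α')).1 = 0 := by
    rw [bk_mulVec, hα, Matrix.mulVec_neg, Matrix.mulVec_mulVec, St,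
      Matrix.mul_nonsing_inv_cancel_left _ _ hsu, add_neg_cancel]
  have h2 : (Mt Φ z c s (a, α')).2 = β := by
    have h3 : ∀ γ : J.E n, ∑ i, (Mt Φ z c s (a, α')).2 i * (bk1 (Mt Φ z c s) *ᵥ γ) i =
        ∑ i, β i * (bk1 (Mt Φ z c s) *ᵥ γ) i := by
      intro γ
      have h4 := om_Mt hg hF z c s (a, α') (0, γ)
      unfold Kaz.om at h4
      rw [h1] at h4
      simp only [Pi.zero_apply, zero_mul, zero_sub, mul_zero, sub_zero, ← bk1_mulVec] at h4
      have h5 : ∑ i, a i * γ i = -∑ i, β i * (bk1 (Mt Φ z c s) *ᵥ γ) i := by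
        have h6 : a ⬝ᵥ γ = -(β ⬝ᵥ (bk1 (Mt Φ z c s) *ᵥ γ)) := by
          rw [ha, neg_dotProduct, Matrix.mulVec_transpose, ← Matrix.dotProduct_mulVec]
        exact h6
      rw [h5, Finset.sum_neg_distrib] at h4
      exact neg_injective h4
    funext i
    have h4 := h3 ((bk1 (Mt Φ z c s))⁻¹ *ᵥ Pi.single i 1)
    rw [Matrix.mulVec_mulVec, Matrix.mul_nonsing_inv _ hsu, Matrix.one_mulVec] at h4
    simpa [Pi.single_apply] using h4
  have h3 : Mt Φ z c s (a, α') = (0, β) := Prod.ext h1 h2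
  have h4 : bk1 (fderiv ℝ (Φ (t - s)) (Φ s z)) *ᵥ β = (Mt Φ z c t (a, α')).1 := by
    rw [bk1_mulVec, ← h3, Mt_mul hg hF z c s t]
    rfl
  rw [h4, bk_mulVec]
  have h5 : bk0 (Mt Φ z c t) = bk1 (Mt Φ z c t) * St Φ z c t := by
    rw [St, Matrix.mul_nonsing_inv_cancel_left _ _ htu]
  rw [h5, ← Matrix.mulVec_mulVec, ← Matrix.mulVec_add, ← Matrix.mulVec_mulVec,
    ← Matrix.mulVec_mulVec, Matrix.sub_mulVec, hα]
  have h6 : (bk1 (Mt Φ z c s))ᵀ *ᵥ β = -a := by rw [ha, neg_neg]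
  rw [h6, Matrix.mulVec_neg, Matrix.mulVec_neg]
  congr 1
  abel

end flow

end Vale.Agent.P223.H765.KazL
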