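import Vale.Agent.P223.MathlibUsed
import Vale.Agent.P223.H.Defs

/-! P223: Liouville's theorem in light cone form, linear algebra. -/

namespace Vale.Agent.P223.H765

section
variable {n : ℕ}

/-- Minkowski product on `ℝ^(n+2)` -/
def mkp (v w : Fin (n + 2) → ℝ) : ℝ :=
  ∑ k : Fin (n + 1), v k.castSucc * w k.castSucc - v (Fin.last _) * w (Fin.last _)

/-- signs -/
def eps (k : Fin (n + 2)) : ℝ := if k = Fin.last (n + 1) then -1 else 1

theorem mkp_eq (v w : Fin (n + 2) → ℝ) : mkp v w = ∑ k, eps k * (v k * w k) := by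
  rw [Fin.sum_univ_castSucc, mkp]
  have h1 : eps (Fin.last (n + 1)) = -1 := if_pos rfl
  have h2 : ∀ k : Fin (n + 1), eps k.castSucc = 1 := fun k =>
    if_neg (Fin.castSucc_lt_last k).ne
  simp only [h1, h2]
  ring

theorem mkp_comm (v w : Fin (n + 2) → ℝ) : mkp v w = mkp w v := by
  simp only [mkp, mul_comm]

theorem mkp_add_left (v v' w : Fin (n + 2) → ℝ) : mkp (v + v') w = mkp v w + mkp v' w := by
  simp only [mkp_eq, Pi.add_apply, ← Finset.sum_add_distrib]
  exact Finset.sum_congr rfl fun _ _ => by ring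

theorem mkp_smul_left (r : ℝ) (v w : Fin (n + 2) → ℝ) : mkp (r • v) w = r * mkp v w := by
  simp only [mkp_eq, Pi.smul_apply, smul_eq_mul, Finset.mul_sum]
  exact Finset.sum_congr rfl fun _ _ => by ring

theorem mkp_add_right (w v v' : Fin (n + 2) → ℝ) : mkp w (v + v') = mkp w v + mkp w v' := by
  rw [mkp_comm, mkp_add_left, mkp_comm v, mkp_comm v']

theorem mkp_smul_right (r : ℝ) (w v : Fin (n + 2) → ℝ) : mkp w (r • v) = r * mkp w v := by
  rw [mkp_comm, mkp_smul_left, mkp_comm v]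

theorem mkp_neg_left (v w : Fin (n + 2) → ℝ) : mkp (-v) w = -mkp v w := by
  have := mkp_smul_left (-1) v w
  simpa using this

theorem mkp_neg_right (v w : Fin (n + 2) → ℝ) : mkp v (-w) = -mkp v w := by
  rw [mkp_comm, mkp_neg_left, mkp_comm w]

theorem mkp_sub_left (v v' w : Fin (n + 2) → ℝ) : mkp (v - v') w = mkp v w - mkp v' w := by
  rw [sub_eq_add_neg, mkp_add_left, mkp_neg_left, sub_eq_add_neg]

theorem mkp_sub_right (w v v' : Fin (n + 2) → ℝ) : mkp w (v - v') = mkp w v - mkp w v' := by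
  rw [mkp_comm, mkp_sub_left, mkp_comm v, mkp_comm v']

theorem mkp_zero_left (w : Fin (n + 2) → ℝ) : mkp 0 w = 0 := by simp [mkp]

theorem mkp_zero_right (w : Fin (n + 2) → ℝ) : mkp w 0 = 0 := by simp [mkp]

theorem mkp_sum_left {ι : Type} (s : Finset ι) (f : ι → Fin (n + 2) → ℝ) (w : Fin (n + 2) → ℝ) :
    mkp (∑ i ∈ s, f i) w = ∑ i ∈ s, mkp (f i) w := by
  classical
  induction s using Finset.induction_on with
  | empty => simp [mkp_zero_left]
  | insert i s hi ih => rw [Finset.sum_insert hi, Finset.sum_insert hi, mkp_add_left, ih]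

theorem mkp_sum_right {ι : Type} (s : Finset ι) (f : ι → Fin (n + 2) → ℝ) (w : Fin (n + 2) → ℝ) :
    mkp w (∑ i ∈ s, f i) = ∑ i ∈ s, mkp w (f i) := by
  rw [mkp_comm, mkp_sum_left]
  exact Finset.sum_congr rfl fun _ _ => mkp_comm _ _

theorem mkp_single (i j : Fin (n + 2)) (a b : ℝ) :
    mkp (Pi.single i a) (Pi.single j b) = if i = j then eps i * (a * b) else 0 := by
  rw [mkp_eq]
  split_ifs with h
  · subst h
    rw [Finset.sum_eq_single i]
    · simp
    · intro k _ hk
      simp [Pi.single_eq_of_ne hk]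
    · simp
  · refine Finset.sum_eq_zero fun k _ => ?_
    by_cases hk : k = i
    · subst hk
      simp [Pi.single_eq_of_ne h]
    · simp [Pi.single_eq_of_ne hk]

/-- null frames -/
structure NF (p q : Fin (n + 2) → ℝ) (e : Fin n → Fin (n + 2) → ℝ) : Prop where
  pp : mkp p p = 0
  qq : mkp q q = 0
  pq : mkp p q = 1
  pe : ∀ k, mkp p (e k) = 0
  qe : ∀ k, mkp q (e k) = 0
  ee : ∀ k l, mkp (e k) (e l) = if k = l then 1 else 0

/-- the vectors of a frame -/
def fv (p q : Fin (n + 2) → ℝ) (e : Fin n → Fin (n + 2) → ℝ) : Option (Option (Fin n)) →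
    Fin (n + 2) → ℝ
  | none => p
  | some none => q
  | some (some k) => e k

/-- the dual frame -/
def dv (p q : Fin (n + 2) → ℝ) (e : Fin n → Fin (n + 2) → ℝ) : Option (Option (Fin n)) →
    Fin (n + 2) → ℝ := fv q p e

variable {p q : Fin (n + 2) → ℝ} {e : Fin n → Fin (n + 2) → ℝ}

theorem NF.dual (h : NF p q e) (i j : Option (Option (Fin n))) :
    mkp (dv p q e i) (fv p q e j) = if i = j then 1 else 0 := by
  rcases i with _ | _ | i <;> rcases j with _ | _ | j <;>
    simp [dv, fv, h.pp, h.qq, h.pe, h.qe, h.ee, mkp_comm q p, h.pq, mkp_comm (e _) p,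
      mkp_comm (e _) q]

/-- expansion of a vector -/
theorem NF.expand (h : NF p q e) (x : Fin (n + 2) → ℝ) :
    x = mkp x q • p + mkp x p • q + ∑ k, mkp x (e k) • e k := by
  classical
  let Φ : Matrix (Fin (n + 2)) (Option (Option (Fin n))) ℝ := Matrix.of fun a i => fv p q e i a
  let Ψ : Matrix (Option (Option (Fin n))) (Fin (n + 2)) ℝ :=
    Matrix.of fun j a => eps a * dv p q e j a
  have h1 : Ψ * Φ = 1 := by
    ext i j
    rw [Matrix.mul_apply, Matrix.one_apply, ← h.dual i j, mkp_eq]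
    refine Finset.sum_congr rfl fun a _ => ?_
    simp only [Φ, Ψ, Matrix.of_apply]
    ring
  have h2 : Φ * Ψ = 1 := by
    refine (Matrix.mul_eq_one_comm_of_card_eq _ _ _ ?_).1 h1
    simp
  have h3 : x = (Φ * Ψ).mulVec x := by rw [h2, Matrix.one_mulVec]
  rw [← Matrix.mulVec_mulVec] at h3
  have h4 : ∀ i, Ψ.mulVec x i = mkp x (dv p q e i) := by
    intro i
    rw [mkp_eq, Matrix.mulVec, dotProduct]
    refine Finset.sum_congr rfl fun a _ => ?_
    simp only [Ψ, Matrix.of_apply]
    ring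
  conv_lhs => rw [h3]
  funext a
  rw [Matrix.mulVec, dotProduct]
  simp only [h4, Φ, Matrix.of_apply, Fintype.sum_option, dv, fv, Pi.add_apply, Pi.smul_apply,
    smul_eq_mul, Finset.sum_apply]
  rw [Finset.sum_congr rfl fun k _ => mul_comm (e k a) (mkp x (e k))]
  ring

/-- vectors orthogonal to `p` and the `e k` -/
theorem NF.mul (h : NF p q e) {x : Fin (n + 2) → ℝ} (h1 : mkp x p = 0) (h2 : ∀ k, mkp x (e k) = 0) :
    x = mkp x q • p := by
  conv_lhs => rw [h.expand x]
  simp [h1, h2]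

/-- the Lorentz transformation which maps one null frame to another one -/
theorem NF.exists_A (h : NF p q e) {p' q' : Fin (n + 2) → ℝ} {e' : Fin n → Fin (n + 2) → ℝ}
    (h' : NF p' q' e') : ∃ A : Matrix (Fin (n + 2)) (Fin (n + 2)) ℝ,
      (∀ v w, mkp (A.mulVec v) (A.mulVec w) = mkp v w) ∧ A.mulVec p = p' ∧ A.mulVec q = q' ∧
      ∀ k, A.mulVec (e k) = e' k := by
  classical
  let L : (Fin (n + 2) → ℝ) →ₗ[ℝ] (Fin (n + 2) → ℝ) :=
    { toFun := fun x => mkp x q • p' + mkp x p • q' + ∑ k, mkp x (e k) • e' k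
      map_add' := fun x y => by
        simp only [mkp_add_left, add_smul, Finset.sum_add_distrib]
        abel
      map_smul' := fun r x => by
        simp only [mkp_smul_left, RingHom.id_apply, smul_add, Finset.smul_sum, mul_smul] }
  have hL : ∀ x, (LinearMap.toMatrix' L).mulVec x = L x := fun x => by
    rw [← Matrix.toLin'_apply, Matrix.toLin'_toMatrix']
  have hL' : ∀ x, L x = mkp x q • p' + mkp x p • q' + ∑ k, mkp x (e k) • e' k := fun x => rfl
  refine ⟨LinearMap.toMatrix' L, fun v w => ?_, ?_, ?_, fun k => ?_⟩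
  · rw [hL, hL]
    have key : ∀ (p q : Fin (n + 2) → ℝ) (e : Fin n → Fin (n + 2) → ℝ), NF p q e →
        ∀ (a b a' b' : ℝ) (c c' : Fin n → ℝ), mkp (a • p + b • q + ∑ k, c k • e k)
          (a' • p + b' • q + ∑ k, c' k • e k) = a * b' + b * a' + ∑ k, c k * c' k := by
      intro p q e h a b a' b' c c'
      have e1 : ∀ k, mkp (e k) p = 0 := fun k => by rw [mkp_comm, h.pe]
      have e2 : ∀ k, mkp (e k) q = 0 := fun k => by rw [mkp_comm, h.qe]
      have e3 : mkp q p = 1 := by rw [mkp_comm, h.pq]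
      simp only [mkp_add_left, mkp_add_right, mkp_smul_left, mkp_smul_right, mkp_sum_left,
        mkp_sum_right, h.pp, h.qq, h.pq, h.pe, h.qe, h.ee, e1, e2, e3]
      simp only [mul_zero, mul_one, mul_ite, Finset.sum_ite_eq, Finset.mem_univ, if_true,
        Finset.sum_const_zero, add_zero, zero_add, Finset.sum_ite_eq']
      rw [Finset.sum_congr rfl fun k _ => mul_comm (c k) (c' k)]
      ring
    rw [hL', hL', key p' q' e' h']
    conv_rhs => rw [h.expand v, h.expand w, key p q e h]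
  · rw [hL, hL', h.pq, h.pp]
    simp [h.pe]
  · rw [hL, hL', h.qq, mkp_comm q p, h.pq]
    simp [h.qe]
  · rw [hL, hL', mkp_comm (e k) q, h.qe, mkp_comm (e k) p, h.pe]
    simp [h.ee]

end

end Vale.Agent.P223.H765
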