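import Vale.Agent.P223.H765.Liou1
import Mathlib.Analysis.Calculus.FDeriv.Symmetric
import Mathlib.Analysis.Calculus.MeanValue

/-! P223: Liouville's theorem in light cone form, flat metrics. -/

namespace Vale.Agent.P223.H765

open scoped ContDiff Topology

section
variable {n : ℕ}

/-- partial derivatives -/
noncomputable def dd (i : Fin n) {F : Type} [NormedAddCommGroup F] [NormedSpace ℝ F]
    (w : (Fin n → ℝ) → F) (z : Fin n → ℝ) : F := fderiv ℝ w z (Pi.single i 1)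

section gen
variable {F : Type} [NormedAddCommGroup F] [NormedSpace ℝ F]

theorem dd_smooth {k : ℕ} {V : Set (Fin n → ℝ)} {w : (Fin n → ℝ) → F}
    (hw : ∀ z ∈ V, ContDiffAt ℝ (k + 1 : ℕ) w z) (i : Fin n) :
    ∀ z ∈ V, ContDiffAt ℝ (k : ℕ) (dd i w) z := by
  intro z hz
  exact ((hw z hz).fderiv_right (m := (k : ℕ)) (by exact_mod_cast le_rfl)).clm_apply
    contDiffAt_const

theorem dd_comm {w : (Fin n → ℝ) → F} {z : Fin n → ℝ} (hw : ContDiffAt ℝ 2 w z) (i j : Fin n) :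
    dd i (dd j w) z = dd j (dd i w) z := by
  have h1 : DifferentiableAt ℝ (fderiv ℝ w) z :=
    (hw.fderiv_right (m := 1) (by norm_num)).differentiableAt (by norm_num)
  have h2 := hw.isSymmSndFDerivAt (by simp [minSmoothness_of_isRCLikeNormedField])
  have e : ∀ a b : Fin n, dd a (dd b w) z =
      fderiv ℝ (fderiv ℝ w) z (Pi.single a 1) (Pi.single b 1) := by
    intro a b
    unfold dd
    rw [fderiv_clm_apply h1 (differentiableAt_const _)]
    simp
  rw [e, e]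
  exact h2 _ _

theorem dd_congr {V : Set (Fin n → ℝ)} (hV : IsOpen V) {w w' : (Fin n → ℝ) → F}
    (h : ∀ z ∈ V, w z = w' z) (i : Fin n) : ∀ z ∈ V, dd i w z = dd i w' z := by
  intro z hz
  have : w =ᶠ[𝓝 z] w' := by
    filter_upwards [hV.mem_nhds hz] with y hy using h y hy
  unfold dd
  rw [this.fderiv_eq]

theorem dd_const (i : Fin n) (a : F) (z : Fin n → ℝ) : dd i (fun _ => a) z = 0 := by
  simp [dd]

theorem dd_sub {f f' : (Fin n → ℝ) → F} {z : Fin n → ℝ} (hf : DifferentiableAt ℝ f z)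
    (hf' : DifferentiableAt ℝ f' z) (i : Fin n) :
    dd i (fun z => f z - f' z) z = dd i f z - dd i f' z := by
  unfold dd
  rw [fderiv_fun_sub hf hf', sub_apply]

theorem fderiv_eq_dd {w : (Fin n → ℝ) → F} {z : Fin n → ℝ} (h : ∀ i, dd i w z = 0) :
    fderiv ℝ w z = 0 := by
  ext v
  have h2 : v = ∑ k, v k • (Pi.single k (1 : ℝ) : Fin n → ℝ) := by
    ext k
    simp [Finset.sum_apply, Pi.single_apply]
  rw [h2, map_sum]
  refine Finset.sum_eq_zero fun k _ => ?_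
  rw [map_smul]
  have := h k
  unfold dd at this
  rw [this, smul_zero]

end gen

theorem hasFDerivAt_mkp {u v : (Fin n → ℝ) → Fin (n + 2) → ℝ} {z : Fin n → ℝ}
    (hu : DifferentiableAt ℝ u z) (hv : DifferentiableAt ℝ v z) :
    DifferentiableAt ℝ (fun z => mkp (u z) (v z)) z ∧ ∀ x, fderiv ℝ (fun z => mkp (u z) (v z)) z x =
      mkp (fderiv ℝ u z x) (v z) + mkp (u z) (fderiv ℝ v z x) := by
  have h1 : ∀ k, HasFDerivAt (fun z => u z k)
      ((ContinuousLinearMap.proj k).comp (fderiv ℝ u z)) z := fun k =>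
    (ContinuousLinearMap.hasFDerivAt (ContinuousLinearMap.proj (R := ℝ)
      (φ := fun _ : Fin (n + 2) => ℝ) k)).comp z hu.hasFDerivAt
  have h2 : ∀ k, HasFDerivAt (fun z => v z k)
      ((ContinuousLinearMap.proj k).comp (fderiv ℝ v z)) z := fun k =>
    (ContinuousLinearMap.hasFDerivAt (ContinuousLinearMap.proj (R := ℝ)
      (φ := fun _ : Fin (n + 2) => ℝ) k)).comp z hv.hasFDerivAt
  have h3 := HasFDerivAt.fun_sum (u := Finset.univ) fun k (_ : k ∈ Finset.univ) =>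
    ((h1 k).fun_mul (h2 k)).const_mul (eps k)
  have h4 : (fun z => mkp (u z) (v z)) = fun z => ∑ k, eps k * (u z k * v z k) :=
    funext fun z => mkp_eq _ _
  rw [h4]
  refine ⟨h3.differentiableAt, fun x => ?_⟩
  rw [h3.fderiv]
  simp only [sum_apply, smul_apply, add_apply,
    ContinuousLinearMap.comp_apply, ContinuousLinearMap.proj_apply, smul_eq_mul, mkp_eq,
    ← Finset.sum_add_distrib]
  exact Finset.sum_congr rfl fun k _ => by ring

theorem dd_mkp {u v : (Fin n → ℝ) → Fin (n + 2) → ℝ} {z : Fin n → ℝ}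
    (hu : DifferentiableAt ℝ u z) (hv : DifferentiableAt ℝ v z) (i : Fin n) :
    dd i (fun z => mkp (u z) (v z)) z = mkp (dd i u z) (v z) + mkp (u z) (dd i v z) :=
  (hasFDerivAt_mkp hu hv).2 _

/-- solutions for the flat metric -/
structure Fl (V : Set (Fin n → ℝ)) (u : (Fin n → ℝ) → Fin (n + 2) → ℝ) : Prop where
  smooth : ∀ z ∈ V, ContDiffAt ℝ (3 : ℕ) u z
  null : ∀ z ∈ V, mkp (u z) (u z) = 0
  iso : ∀ z ∈ V, ∀ i j, mkp (dd i u z) (dd j u z) = if i = j then 1 else 0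

variable {V : Set (Fin n → ℝ)} {u : (Fin n → ℝ) → Fin (n + 2) → ℝ}

theorem Fl.s1 (h : Fl V u) (i : Fin n) : ∀ z ∈ V, ContDiffAt ℝ (2 : ℕ) (dd i u) z :=
  dd_smooth (k := 2) h.smooth i

theorem Fl.s2 (h : Fl V u) (i j : Fin n) : ∀ z ∈ V, ContDiffAt ℝ (1 : ℕ) (dd i (dd j u)) z :=
  dd_smooth (k := 1) (h.s1 j) i

theorem Fl.d0 (h : Fl V u) : ∀ z ∈ V, DifferentiableAt ℝ u z := fun z hz =>
  (h.smooth z hz).differentiableAt (by norm_num)

theorem Fl.d1 (h : Fl V u) (i : Fin n) : ∀ z ∈ V, DifferentiableAt ℝ (dd i u) z := fun z hz =>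
  (h.s1 i z hz).differentiableAt (by norm_num)

theorem Fl.d2 (h : Fl V u) (i j : Fin n) : ∀ z ∈ V, DifferentiableAt ℝ (dd i (dd j u)) z :=
  fun z hz => (h.s2 i j z hz).differentiableAt (by norm_num)

theorem Fl.sym (h : Fl V u) (i j : Fin n) : ∀ z ∈ V, dd i (dd j u) z = dd j (dd i u) z :=
  fun z hz => dd_comm ((h.smooth z hz).of_le (by norm_num)) i j

/-- `⟨u, u_i⟩ = 0` -/
theorem Fl.a1 (h : Fl V u) (hV : IsOpen V) (i : Fin n) : ∀ z ∈ V, mkp (u z) (dd i u z) = 0 := by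
  intro z hz
  have h1 := dd_congr hV (w := fun z => mkp (u z) (u z)) (w' := fun _ => (0 : ℝ)) h.null i z hz
  rw [dd_mkp (h.d0 z hz) (h.d0 z hz), dd_const, mkp_comm (dd i u z)] at h1
  linarith

/-- `⟨u, u_ij⟩ = -δ_ij` -/
theorem Fl.a2 (h : Fl V u) (hV : IsOpen V) (i j : Fin n) :
    ∀ z ∈ V, mkp (u z) (dd i (dd j u) z) = if i = j then -1 else 0 := by
  intro z hz
  have h1 := dd_congr hV (w := fun z => mkp (u z) (dd j u z)) (w' := fun _ => (0 : ℝ))
    (h.a1 hV j) i z hz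
  rw [dd_mkp (h.d0 z hz) (h.d1 j z hz), dd_const, h.iso z hz] at h1
  split_ifs at h1 ⊢ <;> linarith

/-- `⟨u_ij, u_k⟩ = 0` -/
theorem Fl.a3 (h : Fl V u) (hV : IsOpen V) (i j k : Fin n) :
    ∀ z ∈ V, mkp (dd i (dd j u) z) (dd k u z) = 0 := by
  intro z hz
  have h1 : ∀ i j k, mkp (dd i (dd j u) z) (dd k u z) = -mkp (dd i (dd k u) z) (dd j u z) := by
    intro i j k
    have h1 := dd_congr hV (w := fun z => mkp (dd j u z) (dd k u z))
      (w' := fun _ => if j = k then (1 : ℝ) else 0) (fun z hz => h.iso z hz j k) i z hz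
    rw [dd_mkp (h.d1 j z hz) (h.d1 k z hz), dd_const, mkp_comm (dd j u z)] at h1
    linarith
  have h2 : ∀ i j k, mkp (dd i (dd j u) z) (dd k u z) = mkp (dd j (dd i u) z) (dd k u z) :=
    fun i j k => by rw [h.sym i j z hz]
  have e1 := h1 i j k
  have e2 := h2 i k j
  have e3 := h1 k i j
  have e4 := h2 k j i
  have e5 := h1 j k i
  have e6 := h2 j i k
  linarith

/-- `⟨u_ij, u_kl⟩` is totally symmetric -/
theorem Fl.a4 (h : Fl V u) (hV : IsOpen V) (i j k l : Fin n) :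
    ∀ z ∈ V, mkp (dd i (dd j u) z) (dd l (dd k u) z) = mkp (dd l (dd j u) z) (dd i (dd k u) z) := by
  intro z hz
  have h1 : ∀ i l, mkp (dd l (dd i (dd j u)) z) (dd k u z) +
      mkp (dd i (dd j u) z) (dd l (dd k u) z) = 0 := by
    intro i l
    have h1 := dd_congr hV (w := fun z => mkp (dd i (dd j u) z) (dd k u z))
      (w' := fun _ => (0 : ℝ)) (h.a3 hV i j k) l z hz
    rwa [dd_mkp (h.d2 i j z hz) (h.d1 k z hz), dd_const] at h1
  have h2 := dd_comm (w := dd j u) (z := z) (h.s1 j z hz) i l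
  have h3 := h1 i l
  have h4 := h1 l i
  rw [h2] at h4
  linarith

/-- null frame for each `i` -/
theorem Fl.nf (h : Fl V u) (hV : IsOpen V) (i : Fin n) {z : Fin n → ℝ} (hz : z ∈ V) :
    NF (u z) (-dd i (dd i u) z -
      (mkp (dd i (dd i u) z) (dd i (dd i u) z) / 2) • u z) (fun k => dd k u z) where
  pp := h.null z hz
  qq := by
    have h1 := h.a2 hV i i z hz
    rw [if_pos rfl] at h1
    simp only [mkp_sub_left, mkp_sub_right, mkp_neg_left, mkp_neg_right, mkp_smul_left,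
      mkp_smul_right, h.null z hz, h1, mkp_comm (dd i (dd i u) z) (u z)]
    ring
  pq := by
    have h1 := h.a2 hV i i z hz
    rw [if_pos rfl] at h1
    simp only [mkp_sub_right, mkp_neg_right, mkp_smul_right, h.null z hz, h1]
    ring
  pe := fun k => h.a1 hV k z hz
  qe := fun k => by
    simp only [mkp_sub_left, mkp_neg_left, mkp_smul_left, h.a1 hV k z hz, h.a3 hV i i k z hz]
    ring
  ee := fun k l => h.iso z hz k l

theorem Fl.mul (h : Fl V u) (hV : IsOpen V) (hn : 0 < n) {z : Fin n → ℝ} (hz : z ∈ V)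
    {x : Fin (n + 2) → ℝ} (h1 : mkp x (u z) = 0) (h2 : ∀ k, mkp x (dd k u z) = 0) :
    ∃ c : ℝ, x = c • u z :=
  ⟨_, (h.nf hV ⟨0, hn⟩ hz).mul h1 h2⟩

theorem exists_third (hn : 3 ≤ n) (i j : Fin n) : ∃ k, k ≠ i ∧ k ≠ j := by
  by_contra hc
  push Not at hc
  have h1 : (Finset.univ : Finset (Fin n)) ⊆ {i, j} := fun k _ => by
    by_cases hk : k = i
    · simp [hk]
    · simp [hc k hk]
  have h2 := (Finset.card_le_card h1).trans Finset.card_le_two
  rw [Finset.card_univ, Fintype.card_fin] at h2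
  omega

/-- `u_ij = 0` for `i ≠ j` -/
theorem Fl.b1 (h : Fl V u) (hV : IsOpen V) (hn : 3 ≤ n) {i j : Fin n} (hij : i ≠ j) :
    ∀ z ∈ V, dd i (dd j u) z = 0 := by
  intro z hz
  have key : ∀ i j : Fin n, i ≠ j → ∃ c : ℝ, dd i (dd j u) z = c • u z := by
    intro i j hij
    refine h.mul hV (by omega) hz ?_ (fun k => h.a3 hV i j k z hz)
    rw [mkp_comm, h.a2 hV i j z hz, if_neg hij]
  obtain ⟨l, hli, hlj⟩ := exists_third hn i j
  obtain ⟨c, hc⟩ := key i j hij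
  obtain ⟨c1, hc1⟩ := key l j hlj
  obtain ⟨c2, hc2⟩ := key i l (Ne.symm hli)
  have h1 := h.a4 hV i j l l z hz
  have h2 := h.a2 hV l l z hz
  rw [if_pos rfl] at h2
  rw [hc, hc1, hc2, mkp_smul_left, h2, mkp_smul_left, mkp_smul_right, h.null z hz] at h1
  have h3 : c = 0 := by linarith
  rw [hc, h3, zero_smul]

/-- `⟨u_ii, u_ii⟩ = -⟨u_jj, u_jj⟩` -/
theorem Fl.b2 (h : Fl V u) (hV : IsOpen V) (hn : 3 ≤ n) {i j : Fin n} (hij : i ≠ j) :
    ∀ z ∈ V, ∃ c : ℝ, dd i (dd i u) z - dd j (dd j u) z = c • u z ∧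
      mkp (dd i (dd i u) z) (dd i (dd i u) z) = -c ∧
      mkp (dd j (dd j u) z) (dd j (dd j u) z) = c := by
  intro z hz
  obtain ⟨c, hc⟩ : ∃ c : ℝ, dd i (dd i u) z - dd j (dd j u) z = c • u z := by
    refine h.mul hV (by omega) hz ?_ (fun k => ?_)
    · rw [mkp_comm, mkp_sub_right, h.a2 hV i i z hz, h.a2 hV j j z hz]
      simp
    · rw [mkp_sub_left, h.a3 hV i i k z hz, h.a3 hV j j k z hz, sub_zero]
  have h1 : mkp (dd i (dd i u) z) (dd j (dd j u) z) = 0 := by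
    rw [h.a4 hV i i j j z hz, h.b1 hV hn hij z hz, mkp_zero_right]
  have h2 := h.a2 hV i i z hz
  have h3 := h.a2 hV j j z hz
  rw [if_pos rfl] at h2 h3
  refine ⟨c, hc, ?_, ?_⟩
  · have h4 := congrArg (fun x => mkp x (dd i (dd i u) z)) hc
    simp only [mkp_sub_left, mkp_smul_left] at h4
    rw [h2, mkp_comm (dd j (dd j u) z), h1] at h4
    linarith
  · have h4 := congrArg (fun x => mkp x (dd j (dd j u) z)) hc
    simp only [mkp_sub_left, mkp_smul_left] at h4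
    rw [h3, h1] at h4
    linarith

/-- `u_ii = u_jj` and `⟨u_ii, u_ii⟩ = 0` -/
theorem Fl.b3 (h : Fl V u) (hV : IsOpen V) (hn : 3 ≤ n) (i j : Fin n) :
    ∀ z ∈ V, dd i (dd i u) z = dd j (dd j u) z ∧
      mkp (dd i (dd i u) z) (dd i (dd i u) z) = 0 := by
  intro z hz
  have key : ∀ i j : Fin n, i ≠ j → dd i (dd i u) z = dd j (dd j u) z ∧
      mkp (dd i (dd i u) z) (dd i (dd i u) z) = 0 := by
    intro i j hij
    obtain ⟨k, hki, hkj⟩ := exists_third hn i j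
    obtain ⟨c1, e1, e2, e3⟩ := h.b2 hV hn hij z hz
    obtain ⟨c2, e4, e5, e6⟩ := h.b2 hV hn (Ne.symm hki) z hz
    obtain ⟨c3, e7, e8, e9⟩ := h.b2 hV hn (Ne.symm hkj) z hz
    have h1 : c1 = 0 := by linarith
    rw [h1, zero_smul, sub_eq_zero] at e1
    exact ⟨e1, by rw [e2, h1, neg_zero]⟩
  by_cases hij : i = j
  · subst hij
    obtain ⟨k, hk, -⟩ := exists_third hn i i
    exact ⟨rfl, (key i k (Ne.symm hk)).2⟩
  · exact key i j hij

/-- `u_kii = 0` -/
theorem Fl.b4 (h : Fl V u) (hV : IsOpen V) (hn : 3 ≤ n) (i k : Fin n) :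
    ∀ z ∈ V, dd k (dd i (dd i u)) z = 0 := by
  intro z hz
  obtain ⟨j, hj, -⟩ := exists_third hn k k
  rw [dd_congr hV (fun z hz => (h.b3 hV hn i j z hz).1) k z hz, dd_comm (h.s1 j z hz),
    dd_congr hV (w := dd k (dd j u)) (w' := fun _ => 0) (h.b1 hV hn (Ne.symm hj)) j z hz, dd_const]

theorem const_of_dd {F : Type} [NormedAddCommGroup F] [NormedSpace ℝ F] (hV : IsOpen V)
    (hc : IsPreconnected V) {f : (Fin n → ℝ) → F} (hf : ∀ z ∈ V, DifferentiableAt ℝ f z)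
    (h : ∀ i, ∀ z ∈ V, dd i f z = 0) {x y : Fin n → ℝ} (hx : x ∈ V) (hy : y ∈ V) : f x = f y :=
  hV.is_const_of_fderiv_eq_zero (𝕜 := ℝ) hc (fun z hz => (hf z hz).differentiableWithinAt)
    (fun z hz => fderiv_eq_dd fun i => h i z hz) hx hy

theorem fderiv_mulVec (A : Matrix (Fin (n + 2)) (Fin (n + 2)) ℝ) {u : (Fin n → ℝ) → Fin (n + 2) → ℝ}
    {z : Fin n → ℝ} (hu : DifferentiableAt ℝ u z) :
    DifferentiableAt ℝ (fun z => A.mulVec (u z)) z ∧
      ∀ x, fderiv ℝ (fun z => A.mulVec (u z)) z x = A.mulVec (fderiv ℝ u z x) := by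
  have h1 := (A.mulVecLin.toContinuousLinearMap.hasFDerivAt (x := u z)).comp z hu.hasFDerivAt
  have h2 : (fun z => A.mulVec (u z)) = (A.mulVecLin.toContinuousLinearMap ∘ u) := rfl
  rw [h2]
  refine ⟨h1.differentiableAt, fun x => ?_⟩
  rw [h1.fderiv]
  rfl

theorem dd_mulVec (A : Matrix (Fin (n + 2)) (Fin (n + 2)) ℝ) {u : (Fin n → ℝ) → Fin (n + 2) → ℝ}
    {z : Fin n → ℝ} (hu : DifferentiableAt ℝ u z) (i : Fin n) :
    dd i (fun z => A.mulVec (u z)) z = A.mulVec (dd i u z) := (fderiv_mulVec A hu).2 _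

/-- Liouville's theorem: solutions for the flat metric are unique up to Lorentz
transformations. -/
theorem Fl.unique (hn : 3 ≤ n) {u' : (Fin n → ℝ) → Fin (n + 2) → ℝ} (hV : IsOpen V)
    (hc : IsPreconnected V) {z₀ : Fin n → ℝ} (hz₀ : z₀ ∈ V) (h : Fl V u) (h' : Fl V u') :
    ∃ A : Matrix (Fin (n + 2)) (Fin (n + 2)) ℝ,
      (∀ v w, mkp (A.mulVec v) (A.mulVec w) = mkp v w) ∧ ∀ z ∈ V, u' z = A.mulVec (u z) := by
  obtain ⟨i₀⟩ : Nonempty (Fin n) := ⟨⟨0, by omega⟩⟩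
  have key : ∀ u : (Fin n → ℝ) → Fin (n + 2) → ℝ, Fl V u →
      NF (u z₀) (-dd i₀ (dd i₀ u) z₀) (fun k => dd k u z₀) ∧
      ∀ i j, ∀ z ∈ V, dd i (dd j u) z = if i = j then dd i₀ (dd i₀ u) z₀ else 0 := by
    intro u h
    constructor
    · have h1 := h.nf hV i₀ hz₀
      rw [(h.b3 hV hn i₀ i₀ z₀ hz₀).2, zero_div, zero_smul, sub_zero] at h1
      exact h1
    · intro i j z hz
      split_ifs with hij
      · subst hij
        rw [const_of_dd hV hc (h.d2 i i) (h.b4 hV hn i) hz hz₀]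
        exact (h.b3 hV hn i i₀ z₀ hz₀).1
      · exact h.b1 hV hn hij z hz
  obtain ⟨k1, k2⟩ := key u h
  obtain ⟨k3, k4⟩ := key u' h'
  obtain ⟨A, hA, a1, a2, a3⟩ := k1.exists_A k3
  refine ⟨A, hA, fun z hz => ?_⟩
  have a2' : A.mulVec (dd i₀ (dd i₀ u) z₀) = dd i₀ (dd i₀ u') z₀ := by
    have := congrArg (fun x => -x) a2
    simpa [Matrix.mulVec_neg] using this
  -- first derivatives
  have d1 : ∀ j, ∀ z ∈ V, dd j u' z = A.mulVec (dd j u z) := by
    intro j z hz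
    have e1 := const_of_dd hV hc (f := fun z => dd j u' z - A.mulVec (dd j u z))
      (fun z hz => (h'.d1 j z hz).sub (fderiv_mulVec A (h.d1 j z hz)).1) (fun i z hz => by
        have e2 : dd i (fun z => dd j u' z - A.mulVec (dd j u z)) z =
            dd i (dd j u') z - A.mulVec (dd i (dd j u) z) := by
          rw [← dd_mulVec A (h.d1 j z hz)]
          exact dd_sub (h'.d1 j z hz) (fderiv_mulVec A (h.d1 j z hz)).1 i
        rw [e2, k2 i j z hz, k4 i j z hz]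
        split_ifs
        · rw [a2', sub_self]
        · rw [Matrix.mulVec_zero, sub_zero]) hz hz₀
    simp only [← a3 j, sub_self] at e1
    exact sub_eq_zero.1 e1
  have e1 := const_of_dd hV hc (f := fun z => u' z - A.mulVec (u z))
    (fun z hz => (h'.d0 z hz).sub (fderiv_mulVec A (h.d0 z hz)).1) (fun i z hz => by
      have e2 : dd i (fun z => u' z - A.mulVec (u z)) z = dd i u' z - A.mulVec (dd i u z) := by
        rw [← dd_mulVec A (h.d0 z hz)]
        exact dd_sub (h'.d0 z hz) (fderiv_mulVec A (h.d0 z hz)).1 i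
      rw [e2, d1 i z hz, sub_self]) hz hz₀
  simp only [a1, sub_self] at e1
  exact sub_eq_zero.1 e1

end

end Vale.Agent.P223.H765
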