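import Vale.Agent.P223.H765.Liou2
import Mathlib.Analysis.Calculus.InverseFunctionTheorem.ContDiff
import Mathlib.Analysis.Calculus.ContDiff.RCLike
import Mathlib.Analysis.SpecialFunctions.ExpDeriv

/-! P223: local isometric immersions into the light cone. -/

namespace Vale.Agent.P223.H765

open scoped ContDiff Topology
open Vale.Agent.P223.H (E)

section
variable {n : ℕ}

/-- `G` is locally conformally flat at `y₀`. -/
def Lcf (G : E n → Matrix (Fin n) (Fin n) ℝ) (y₀ : E n) : Prop :=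
  ∃ (U : Set (E n)) (f : E n → E n) (h : E n → ℝ), IsOpen U ∧ y₀ ∈ U ∧
    ContDiffOn ℝ ∞ f U ∧ ContDiffOn ℝ ∞ h U ∧ ∀ y ∈ U, ∀ v w : E n,
      ∑ a, ∑ b, G y a b * v a * w b =
        Real.exp (2 * h y) * ∑ k, fderiv ℝ f y v k * fderiv ℝ f y w k

/-- isometric immersions of `(U, G)` into the light cone -/
structure LSol (G : E n → Matrix (Fin n) (Fin n) ℝ) (U : Set (E n))
    (F : E n → Fin (n + 2) → ℝ) : Prop where
  smooth : ContDiffOn ℝ ∞ F U
  null : ∀ y ∈ U, mkp (F y) (F y) = 0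
  iso : ∀ y ∈ U, ∀ v w : E n, mkp (fderiv ℝ F y v) (fderiv ℝ F y w) =
    ∑ a, ∑ b, G y a b * v a * w b

variable {G : E n → Matrix (Fin n) (Fin n) ℝ} {U : Set (E n)} {F F' : E n → Fin (n + 2) → ℝ}

theorem LSol.cd (h : LSol G U F) (hU : IsOpen U) {y : E n} (hy : y ∈ U) :
    ContDiffAt ℝ ∞ F y := h.smooth.contDiffAt (hU.mem_nhds hy)

theorem LSol.df (h : LSol G U F) (hU : IsOpen U) {y : E n} (hy : y ∈ U) :
    DifferentiableAt ℝ F y := (h.cd hU hy).differentiableAt (by simp)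

theorem LSol.mono (h : LSol G U F) {U' : Set (E n)} (hU : U' ⊆ U) : LSol G U' F :=
  ⟨h.smooth.mono hU, fun y hy => h.null y (hU hy), fun y hy => h.iso y (hU hy)⟩

theorem null_deriv (hU : IsOpen U) (h : ∀ y ∈ U, DifferentiableAt ℝ F y)
    (h0 : ∀ y ∈ U, mkp (F y) (F y) = 0) {y : E n} (hy : y ∈ U) (x : E n) :
    mkp (F y) (fderiv ℝ F y x) = 0 := by
  have h1 : (fun y => mkp (F y) (F y)) =ᶠ[𝓝 y] fun _ => (0 : ℝ) := by
    filter_upwards [hU.mem_nhds hy] with z hz using h0 z hz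
  have h2 := (hasFDerivAt_mkp (h y hy) (h y hy)).2 x
  rw [h1.fderiv_eq, mkp_comm (fderiv ℝ F y x)] at h2
  simp only [fderiv_fun_const, Pi.zero_apply, zero_apply] at h2
  linarith

theorem LSol.n1 (h : LSol G U F) (hU : IsOpen U) {y : E n} (hy : y ∈ U) (x : E n) :
    mkp (F y) (fderiv ℝ F y x) = 0 := null_deriv hU (fun _ hy => h.df hU hy) h.null hy x

theorem scale_iso {s : E n → ℝ} {u : E n → Fin (n + 2) → ℝ} {z : E n}
    (hs : DifferentiableAt ℝ s z) (hu : DifferentiableAt ℝ u z) (h0 : mkp (u z) (u z) = 0)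
    (h1 : ∀ x, mkp (u z) (fderiv ℝ u z x) = 0) (v w : E n) :
    mkp (fderiv ℝ (fun z => s z • u z) z v) (fderiv ℝ (fun z => s z • u z) z w) =
      s z ^ 2 * mkp (fderiv ℝ u z v) (fderiv ℝ u z w) := by
  have h2 : ∀ v, fderiv ℝ (fun z => s z • u z) z v = s z • fderiv ℝ u z v +
      (fderiv ℝ s z v) • u z := by
    intro v
    rw [fderiv_fun_smul hs hu]
    simp
  rw [h2, h2]
  simp only [mkp_add_left, mkp_add_right, mkp_smul_left, mkp_smul_right, h0, h1,
    mkp_comm (fderiv ℝ u z v) (u z)]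
  ring

theorem LSol.mul (h : LSol G U F) (hU : IsOpen U) {A : Matrix (Fin (n + 2)) (Fin (n + 2)) ℝ}
    (hA : ∀ v w, mkp (A.mulVec v) (A.mulVec w) = mkp v w) : LSol G U fun y => A.mulVec (F y) := by
  refine ⟨?_, fun y hy => by rw [hA]; exact h.null y hy, fun y hy v w => ?_⟩
  · exact (A.mulVecLin.toContinuousLinearMap.contDiff).comp_contDiffOn h.smooth
  · rw [(fderiv_mulVec A (h.df hU hy)).2, (fderiv_mulVec A (h.df hU hy)).2, hA]
    exact h.iso y hy v w

/-! ### the standard solution -/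

/-- vectors with given coordinates -/
def cmb (a : Fin n → ℝ) (b c : ℝ) : Fin (n + 2) → ℝ :=
  Fin.snoc (α := fun _ => ℝ) (Fin.snoc (α := fun _ => ℝ) a b) c

theorem mkp_cmb (a a' : Fin n → ℝ) (b c b' c' : ℝ) :
    mkp (cmb a b c) (cmb a' b' c') = ∑ k, a k * a' k + b * b' - c * c' := by
  simp [mkp, cmb, Fin.sum_univ_castSucc]

/-- `cmb` as a linear map -/
noncomputable def cmbL (n : ℕ) : ((Fin n → ℝ) × ℝ × ℝ) →L[ℝ] (Fin (n + 2) → ℝ) :=
  LinearMap.toContinuousLinearMap
    { toFun := fun p => cmb p.1 p.2.1 p.2.2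
      map_add' := fun p p' => by
        funext k
        refine Fin.lastCases ?_ (fun k => ?_) k
        · simp [cmb]
        · refine Fin.lastCases ?_ (fun k => ?_) k
          · simp [cmb]
          · simp [cmb]
      map_smul' := fun r p => by
        funext k
        refine Fin.lastCases ?_ (fun k => ?_) k
        · simp [cmb]
        · refine Fin.lastCases ?_ (fun k => ?_) k
          · simp [cmb]
          · simp [cmb] }

/-- the standard solution for the flat metric -/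
noncomputable def MM (z : E n) : Fin (n + 2) → ℝ :=
  cmb z ((1 - ∑ k, z k ^ 2) / 2) ((1 + ∑ k, z k ^ 2) / 2)

theorem MM_null (z : E n) : mkp (MM z) (MM z) = 0 := by
  rw [MM, mkp_cmb]
  have : ∑ k, z k * z k = ∑ k, z k ^ 2 := Finset.sum_congr rfl fun k _ => (sq _).symm
  rw [this]
  ring

theorem MM_smooth : ContDiff ℝ ∞ (MM (n := n)) := by
  have h1 : ContDiff ℝ ∞ fun z : E n => ∑ k, z k ^ 2 :=
    ContDiff.sum fun k _ => (contDiff_apply ℝ ℝ k).pow 2
  exact (cmbL n).contDiff.comp (contDiff_id.prodMk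
    (((contDiff_const.sub h1).div_const 2).prodMk ((contDiff_const.add h1).div_const 2)))

theorem MM_deriv (z v : E n) : fderiv ℝ MM z v = cmb v (-∑ k, z k * v k) (∑ k, z k * v k) := by
  have h1 : HasFDerivAt (fun z : E n => ∑ k, z k ^ 2)
      (∑ k, (2 * z k) • ContinuousLinearMap.proj (R := ℝ) (φ := fun _ : Fin n => ℝ) k) z := by
    refine HasFDerivAt.fun_sum fun k _ => ?_
    have := (ContinuousLinearMap.hasFDerivAt (ContinuousLinearMap.proj (R := ℝ)
      (φ := fun _ : Fin n => ℝ) k) (x := z)).pow 2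
    simpa using this
  have h2 := (cmbL n).hasFDerivAt.comp z ((hasFDerivAt_id z).prodMk
    (((hasFDerivAt_const (1 : ℝ) z).sub h1).mul_const (1 / 2) |>.prodMk
      (((hasFDerivAt_const (1 : ℝ) z).add h1).mul_const (1 / 2))))
  have h3 : MM = (cmbL n) ∘ fun z : E n => (id z, ((fun _ : E n => (1 : ℝ)) - fun z : E n => ∑ k, z k ^ 2) z * (1 / 2),
      ((fun _ : E n => (1 : ℝ)) + fun z : E n => ∑ k, z k ^ 2) z * (1 / 2)) := by
    funext z
    simp only [Function.comp_apply, MM]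
    change _ = cmb _ _ _
    simp only [id, Pi.sub_apply, Pi.add_apply]
    congr 1 <;> ring
  rw [h3, h2.fderiv]
  change cmb _ _ _ = _
  congr 1
  · simp [Finset.mul_sum]
    refine Finset.sum_congr rfl fun k _ => by ring
  · simp [Finset.mul_sum]
    refine Finset.sum_congr rfl fun k _ => by ring

end

end Vale.Agent.P223.H765
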